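import Vale.Agent.P136.Sm

/-!
# Test functions, weighted square integrable functions, weak derivatives, the energy form
-/

open MeasureTheory Set Metric
open scoped ContDiff RealInnerProductSpace

noncomputable section

namespace Vale.Agent.P136

/-- Gradient matrix of a field. -/
abbrev gr (φ : Fin 3 → E3 → ℝ) : Fin 3 → Fin 3 → E3 → ℝ := fun i j => pd j (φ i)

/-- `f` is square integrable on `Ω` and `exp (-ξ . x) f` has norm at most `b`. -/
def WB (Ω : Set E3) (ξ : E3) (f : E3 → ℝ) (b : ℝ) : Prop :=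
  0 ≤ b ∧ MemLp f 2 (volume.restrict Ω) ∧ ∫ x in Ω, (Real.exp (-⟪ξ, x⟫) * f x) ^ 2 ≤ b ^ 2

/-- `g` is the weak derivative of `f` in direction `j` on `Ω`. -/
def IsWD (Ω : Set E3) (j : Fin 3) (f g : E3 → ℝ) : Prop :=
  ∀ φ, IsTest Ω φ → ∫ x in Ω, f x * pd j φ x = - ∫ x in Ω, g x * φ x

variable {Ω : Set E3} {φ ψ f g a : E3 → ℝ} {ξ : E3} {b b' : ℝ}

lemma contDiff_pd (hf : ContDiff ℝ ∞ f) (j : Fin 3) : ContDiff ℝ ∞ (pd j f) := contDiff_dir hf _

lemma pd_comm (hf : ContDiff ℝ ∞ f) (i j : Fin 3) : pd i (pd j f) = pd j (pd i f) :=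
  funext fun x => dir_comm hf _ _ x

lemma real_inner_eq_mul_aux (s t : ℝ) : ⟪s, t⟫ = s * t := by
  simp [mul_comm]

lemma pd_mul (hf : ContDiff ℝ ∞ f) (hg : ContDiff ℝ ∞ g) (j : Fin 3) (x : E3) :
    pd j (fun y => f y * g y) x = pd j f x * g x + f x * pd j g x := by
  have h := fderiv_fun_mul (hf.differentiable (by simp) x) (hg.differentiable (by simp) x)
  simp only [pd, h, add_apply, smul_apply, smul_eq_mul]
  ring

lemma pd_add (hf : ContDiff ℝ ∞ f) (hg : ContDiff ℝ ∞ g) (j : Fin 3) (x : E3) :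
    pd j (fun y => f y + g y) x = pd j f x + pd j g x := by
  have h := fderiv_fun_add (hf.differentiable (by simp) x) (hg.differentiable (by simp) x)
  simp only [pd, h, add_apply]

lemma pd_sub (hf : ContDiff ℝ ∞ f) (hg : ContDiff ℝ ∞ g) (j : Fin 3) (x : E3) :
    pd j (fun y => f y - g y) x = pd j f x - pd j g x := by
  have h := fderiv_fun_sub (hf.differentiable (by simp) x) (hg.differentiable (by simp) x)
  simp only [pd, h, sub_apply]

lemma pd_const (c : ℝ) (j : Fin 3) (x : E3) : pd j (fun _ => c) x = 0 := by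
  simp [pd]

lemma pd_sum {ι : Type*} (s : Finset ι) {F : ι → E3 → ℝ} (hF : ∀ i, ContDiff ℝ ∞ (F i))
    (j : Fin 3) (x : E3) : pd j (fun y => ∑ i ∈ s, F i y) x = ∑ i ∈ s, pd j (F i) x := by
  have h := fderiv_fun_sum (u := s) (fun i _ => (hF i).differentiable (by simp) x)
  simp only [pd, h, sum_apply]

lemma contDiff_expw (ξ : E3) : ContDiff ℝ ∞ (fun x : E3 => Real.exp ⟪ξ, x⟫) := by
  exact Real.contDiff_exp.comp (innerSL ℝ ξ).contDiff

lemma pd_expw (ξ : E3) (j : Fin 3) (x : E3) :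
    pd j (fun x : E3 => Real.exp ⟪ξ, x⟫) x = ξ j * Real.exp ⟪ξ, x⟫ := by
  have h := ((innerSL ℝ ξ).hasFDerivAt (x := x)).exp
  have h2 : fderiv ℝ (fun x : E3 => Real.exp ⟪ξ, x⟫) x = Real.exp ⟪ξ, x⟫ • innerSL ℝ ξ :=
    h.fderiv
  simp only [pd, h2, smul_apply, smul_eq_mul, innerSL_apply_apply,
    EuclideanSpace.inner_single_right]
  simp [mul_comm]

lemma fderiv_eq_sum_pd (f : E3 → ℝ) (x v : E3) : fderiv ℝ f x v = ∑ j, v j * pd j f x := by
  have hv : v = ∑ j, v j • (EuclideanSpace.single j (1 : ℝ) : E3) := by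
    ext i
    fin_cases i <;> simp [Fin.sum_univ_three]
  conv_lhs => rw [hv]
  simp only [map_sum, map_smul, smul_eq_mul, pd]

lemma IsTest.mono {Ω' : Set E3} (h : IsTest Ω φ) (hs : Ω ⊆ Ω') : IsTest Ω' φ :=
  ⟨h.1, h.2.1, h.2.2.trans hs⟩

lemma IsTest.zero : IsTest Ω (fun _ => 0) := by
  refine ⟨contDiff_const, HasCompactSupport.zero, ?_⟩
  have : tsupport (fun _ : E3 => (0 : ℝ)) = ∅ := by simp [tsupport]
  rw [this]; exact empty_subset _

lemma IsTest.pd (h : IsTest Ω φ) (j : Fin 3) : IsTest Ω (pd j φ) := by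
  exact ⟨contDiff_pd h.1 j, h.2.1.fderiv_apply ℝ _,
    (tsupport_fderiv_apply_subset ℝ _).trans h.2.2⟩

lemma IsTest.mul_left (h : IsTest Ω φ) (ha : ContDiff ℝ ∞ a) :
    IsTest Ω (fun x => a x * φ x) := by
  exact ⟨ha.mul h.1, h.2.1.mul_left, tsupport_mul_subset_right.trans h.2.2⟩

lemma IsTest.add (h : IsTest Ω φ) (h' : IsTest Ω ψ) : IsTest Ω (fun x => φ x + ψ x) := by
  refine ⟨h.1.add h'.1, h.2.1.add h'.2.1, ?_⟩
  exact (tsupport_add φ ψ).trans (union_subset h.2.2 h'.2.2)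

lemma IsTest.sub (h : IsTest Ω φ) (h' : IsTest Ω ψ) : IsTest Ω (fun x => φ x - ψ x) := by
  have h2 := h.add (h'.mul_left (a := fun _ => -1) contDiff_const)
  have e : (fun x => φ x - ψ x) = fun x => φ x + -1 * ψ x := by
    funext x; ring
  rw [e]; exact h2

lemma IsTest.sum {ι : Type*} (s : Finset ι) {F : ι → E3 → ℝ} (hF : ∀ i, IsTest Ω (F i)) :
    IsTest Ω (fun x => ∑ i ∈ s, F i x) := by
  classical
  induction s using Finset.induction_on with
  | empty => simpa using IsTest.zero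
  | insert i s hi ih =>
    simp only [Finset.sum_insert hi]
    exact (hF i).add ih

lemma IsTest.eq_zero (h : IsTest Ω φ) {x : E3} (hx : x ∉ Ω) : φ x = 0 := by
  exact image_eq_zero_of_notMem_tsupport fun hx' => hx (h.2.2 hx')

lemma IsTest.memLp (h : IsTest Ω φ) (μ : Measure E3) [IsFiniteMeasureOnCompacts μ] :
    MemLp φ 2 μ := by
  exact h.1.continuous.memLp_of_hasCompactSupport h.2.1

/-- A continuous function times a test function is integrable. -/
lemma IsTest.integrable_mul (h : IsTest Ω φ) (ha : Continuous a) (μ : Measure E3)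
    [IsFiniteMeasureOnCompacts μ] : Integrable (fun x => a x * φ x) μ := by
  exact (ha.mul h.1.continuous).integrable_of_hasCompactSupport h.2.1.mul_left

/-- Integrals against test functions do not see the domain. -/
lemma IsTest.setIntegral_mul (h : IsTest Ω φ) (F : E3 → ℝ) :
    ∫ x in Ω, F x * φ x = ∫ x, F x * φ x := by
  exact setIntegral_eq_integral_of_forall_compl_eq_zero fun x hx => by
    rw [h.eq_zero hx, mul_zero]

lemma ibp_test' (hf : ContDiff ℝ ∞ f) (j : Fin 3) (h : IsTest Ω φ) :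
    ∫ x in Ω, f x * pd j φ x = - ∫ x in Ω, pd j f x * φ x := by
  rw [(h.pd j).setIntegral_mul, h.setIntegral_mul]
  exact integral_mul_fderiv_eq_neg_fderiv_mul_of_integrable
    (h.integrable_mul (contDiff_pd hf j).continuous _) ((h.pd j).integrable_mul hf.continuous _)
    (h.integrable_mul hf.continuous _) (fun x _ => hf.differentiable (by simp) x)
    (fun x _ => h.1.differentiable (by simp) x)

lemma exists_bound_of_cont' (hb : Bornology.IsBounded Ω) (ha : Continuous a) :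
    ∃ M, 0 ≤ M ∧ ∀ x ∈ Ω, |a x| ≤ M := by
  obtain ⟨M, hM⟩ := hb.isCompact_closure.exists_bound_of_continuousOn ha.continuousOn
  exact ⟨max M 0, le_max_right _ _, fun x hx =>
    (hM x (subset_closure hx)).trans (le_max_left _ _)⟩

lemma int_pd_test (h : IsTest Ω φ) (j : Fin 3) : ∫ x in Ω, pd j φ x = 0 := by
  have h1 := ibp_test' (f := fun _ => 1) contDiff_const j h
  simpa [pd_const] using h1

lemma ibp_test (hf : ContDiff ℝ ∞ f) (j : Fin 3) : IsWD Ω j f (pd j f) := by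
  exact fun φ hφ => ibp_test' hf j hφ

/-- A continuous function is square integrable on a bounded set. -/
lemma memLp_of_cont (hb : Bornology.IsBounded Ω) (hf : Continuous f) :
    MemLp f 2 (volume.restrict Ω) := by
  have hK : IsCompact (closure Ω) := hb.isCompact_closure
  obtain ⟨M, hM⟩ := hK.exists_bound_of_continuousOn hf.continuousOn
  have : IsFiniteMeasure (volume.restrict (closure Ω)) :=
    isFiniteMeasure_restrict.2 hK.measure_lt_top.ne
  have h1 : MemLp f 2 (volume.restrict (closure Ω)) :=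
    MemLp.of_bound hf.aestronglyMeasurable M
      (ae_restrict_of_forall_mem isClosed_closure.measurableSet hM)
  exact h1.mono_measure (Measure.restrict_mono subset_closure le_rfl)

/-- A continuous multiplier preserves square integrability on a bounded set. -/
lemma memLp_cont_mul (hb : Bornology.IsBounded Ω) (hm : MeasurableSet Ω) (ha : Continuous a)
    (hf : MemLp f 2 (volume.restrict Ω)) : MemLp (fun x => a x * f x) 2 (volume.restrict Ω) := by
  obtain ⟨M, -, hM⟩ := exists_bound_of_cont' hb ha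
  refine hf.of_le_mul (c := M) (ha.aestronglyMeasurable.mul hf.1) ?_
  filter_upwards [ae_restrict_mem hm] with x hx
  rw [norm_mul]
  exact mul_le_mul_of_nonneg_right (hM x hx) (norm_nonneg _)

lemma exists_bound_of_cont (hb : Bornology.IsBounded Ω) (ha : Continuous a) :
    ∃ M, 0 ≤ M ∧ ∀ x ∈ Ω, |a x| ≤ M := by
  exact exists_bound_of_cont' hb ha

lemma l2_int {μ : Measure E3} (hf : MemLp f 2 μ) (hg : MemLp g 2 μ) :
    Integrable (fun x => f x * g x) μ := hf.integrable_mul hg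

lemma l2_inner {μ : Measure E3} (hf : MemLp f 2 μ) (hg : MemLp g 2 μ) :
    ⟪hf.toLp f, hg.toLp g⟫ = ∫ x, f x * g x ∂μ := by
  rw [L2.inner_def]
  refine integral_congr_ae ?_
  filter_upwards [hf.coeFn_toLp, hg.coeFn_toLp] with x h1 h2
  rw [h1, h2, real_inner_eq_mul_aux]

lemma l2_norm_sq {μ : Measure E3} (hf : MemLp f 2 μ) :
    ‖hf.toLp f‖ ^ 2 = ∫ x, f x ^ 2 ∂μ := by
  rw [← real_inner_self_eq_norm_sq, l2_inner]
  simp only [sq]

lemma l2_norm_le {μ : Measure E3} (hf : MemLp f 2 μ) (h0 : 0 ≤ b) :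
    ∫ x, f x ^ 2 ∂μ ≤ b ^ 2 ↔ ‖hf.toLp f‖ ≤ b := by
  rw [← l2_norm_sq hf]
  exact pow_le_pow_iff_left₀ (norm_nonneg _) h0 two_ne_zero

lemma l2_add {μ : Measure E3} (hf : MemLp f 2 μ) (hg : MemLp g 2 μ) (h0 : 0 ≤ b) (h0' : 0 ≤ b')
    (h : ∫ x, f x ^ 2 ∂μ ≤ b ^ 2) (h' : ∫ x, g x ^ 2 ∂μ ≤ b' ^ 2) :
    ∫ x, (f x + g x) ^ 2 ∂μ ≤ (b + b') ^ 2 := by
  have h1 : ‖(hf.add hg).toLp (f + g)‖ ≤ b + b' := by
    rw [MemLp.toLp_add hf hg]
    exact (norm_add_le _ _).trans
      (add_le_add ((l2_norm_le hf h0).1 h) ((l2_norm_le hg h0').1 h'))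
  exact (l2_norm_le (hf.add hg) (add_nonneg h0 h0')).2 h1

lemma l2_cs {μ : Measure E3} (hf : MemLp f 2 μ) (hg : MemLp g 2 μ) (h0 : 0 ≤ b) (h0' : 0 ≤ b')
    (h : ∫ x, f x ^ 2 ∂μ ≤ b ^ 2) (h' : ∫ x, g x ^ 2 ∂μ ≤ b' ^ 2) :
    ∫ x, |f x * g x| ∂μ ≤ b * b' := by
  have hf' : MemLp (fun x => |f x|) 2 μ := hf.norm
  have hg' : MemLp (fun x => |g x|) 2 μ := hg.norm
  have h1 := (l2_norm_le hf' h0).1 (by simpa only [sq_abs] using h)
  have h2 := (l2_norm_le hg' h0').1 (by simpa only [sq_abs] using h')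
  simp only [abs_mul]
  rw [← l2_inner hf' hg']
  exact (real_inner_le_norm _ _).trans (mul_le_mul h1 h2 (norm_nonneg _) h0)

lemma cont_expw (ξ : E3) : Continuous (fun x : E3 => Real.exp (-⟪ξ, x⟫)) :=
  Real.continuous_exp.comp (innerSL ℝ ξ).continuous.neg

lemma WB.wmem (hb : Bornology.IsBounded Ω) (hm : MeasurableSet Ω) (h : WB Ω ξ f b) :
    MemLp (fun x => Real.exp (-⟪ξ, x⟫) * f x) 2 (volume.restrict Ω) :=
  memLp_cont_mul hb hm (cont_expw ξ) h.2.1

lemma WB.mono (h : WB Ω ξ f b) (hb : b ≤ b') : WB Ω ξ f b' := by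
  exact ⟨h.1.trans hb, h.2.1, h.2.2.trans (pow_le_pow_left₀ h.1 hb 2)⟩

lemma WB.congr (hm : MeasurableSet Ω) (h : WB Ω ξ f b) (e : ∀ x ∈ Ω, f x = g x) :
    WB Ω ξ g b := by
  refine ⟨h.1, h.2.1.ae_eq (ae_restrict_of_forall_mem hm e), ?_⟩
  rw [← setIntegral_congr_fun hm (f := fun x => (Real.exp (-⟪ξ, x⟫) * f x) ^ 2)
    (fun x hx => by simp only [e x hx])]
  exact h.2.2

lemma WB.zero : WB Ω ξ (fun _ => 0) 0 := by
  exact ⟨le_rfl, MemLp.zero', by simp⟩

lemma WB.neg (h : WB Ω ξ f b) : WB Ω ξ (fun x => - f x) b := by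
  refine ⟨h.1, h.2.1.neg, ?_⟩
  simpa only [mul_neg, neg_sq] using h.2.2

lemma WB.add (hb : Bornology.IsBounded Ω) (hm : MeasurableSet Ω) (h : WB Ω ξ f b)
    (h' : WB Ω ξ g b') : WB Ω ξ (fun x => f x + g x) (b + b') := by
  have hF := h.wmem hb hm
  have hG := h'.wmem hb hm
  refine ⟨add_nonneg h.1 h'.1, h.2.1.add h'.2.1, ?_⟩
  have e : ∀ x, Real.exp (-⟪ξ, x⟫) * (f x + g x) =
      Real.exp (-⟪ξ, x⟫) * f x + Real.exp (-⟪ξ, x⟫) * g x := fun x => mul_add _ _ _
  simp only [e]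
  exact l2_add hF hG h.1 h'.1 h.2.2 h'.2.2

lemma WB.sub (hb : Bornology.IsBounded Ω) (hm : MeasurableSet Ω) (h : WB Ω ξ f b)
    (h' : WB Ω ξ g b') : WB Ω ξ (fun x => f x - g x) (b + b') := by
  simpa only [sub_eq_add_neg] using h.add hb hm h'.neg

lemma WB.sum (hb : Bornology.IsBounded Ω) (hm : MeasurableSet Ω) {ι : Type*} (s : Finset ι)
    {F : ι → E3 → ℝ} {B : ι → ℝ} (h : ∀ i, WB Ω ξ (F i) (B i)) :
    WB Ω ξ (fun x => ∑ i ∈ s, F i x) (∑ i ∈ s, B i) := by
  classical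
  induction s using Finset.induction_on with
  | empty => simpa using WB.zero
  | insert i s hi ih =>
    simp only [Finset.sum_insert hi]
    exact (h i).add hb hm ih

lemma WB.mul_bdd (hb : Bornology.IsBounded Ω) (hm : MeasurableSet Ω) (ha : Continuous a) {M : ℝ}
    (hM0 : 0 ≤ M) (hM : ∀ x ∈ Ω, |a x| ≤ M) (h : WB Ω ξ f b) :
    WB Ω ξ (fun x => a x * f x) (M * b) := by
  have hF := h.wmem hb hm
  refine ⟨mul_nonneg hM0 h.1, memLp_cont_mul hb hm ha h.2.1, ?_⟩
  have hG := memLp_cont_mul hb hm ha hF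
  calc ∫ x in Ω, (Real.exp (-⟪ξ, x⟫) * (a x * f x)) ^ 2
      ≤ ∫ x in Ω, M ^ 2 * (Real.exp (-⟪ξ, x⟫) * f x) ^ 2 := by
        refine setIntegral_mono_on ?_ (hF.integrable_sq.const_mul _) hm fun x hx => ?_
        · have e : (fun x => (Real.exp (-⟪ξ, x⟫) * (a x * f x)) ^ 2) =
              fun x => (a x * (Real.exp (-⟪ξ, x⟫) * f x)) ^ 2 := by
            funext x; ring
          rw [e]; exact hG.integrable_sq
        · have h1 : a x ^ 2 ≤ M ^ 2 := by
            rw [← sq_abs (a x)]; exact pow_le_pow_left₀ (abs_nonneg _) (hM x hx) 2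
          calc (Real.exp (-⟪ξ, x⟫) * (a x * f x)) ^ 2
              = a x ^ 2 * (Real.exp (-⟪ξ, x⟫) * f x) ^ 2 := by ring
            _ ≤ _ := mul_le_mul_of_nonneg_right h1 (sq_nonneg _)
    _ = M ^ 2 * ∫ x in Ω, (Real.exp (-⟪ξ, x⟫) * f x) ^ 2 := integral_const_mul _ _
    _ ≤ M ^ 2 * b ^ 2 := mul_le_mul_of_nonneg_left h.2.2 (sq_nonneg _)
    _ = (M * b) ^ 2 := by ring

lemma WB.restrict {Ω' : Set E3} (hb : Bornology.IsBounded Ω) (hm : MeasurableSet Ω)
    (hs : Ω' ⊆ Ω) (h : WB Ω ξ f b) : WB Ω' ξ f b := by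
  refine ⟨h.1, h.2.1.mono_measure (Measure.restrict_mono hs le_rfl), le_trans ?_ h.2.2⟩
  exact setIntegral_mono_set (h.wmem hb hm).integrable_sq
    (Filter.Eventually.of_forall fun x => sq_nonneg _) hs.eventuallyLE

lemma WB.of_bound (hb : Bornology.IsBounded Ω) (hm : MeasurableSet Ω) (hf : Continuous f)
    (h0 : 0 ≤ b) (h : ∀ x ∈ Ω, |f x| ≤ b * Real.exp ⟪ξ, x⟫) :
    WB Ω ξ f (√(volume.real Ω) * b) := by
  have hmem := memLp_of_cont hb hf
  refine ⟨mul_nonneg (Real.sqrt_nonneg _) h0, hmem, ?_⟩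
  have hfin : volume Ω ≠ ⊤ := hb.measure_lt_top.ne
  have hW := memLp_cont_mul hb hm (cont_expw ξ) hmem
  calc ∫ x in Ω, (Real.exp (-⟪ξ, x⟫) * f x) ^ 2 ≤ ∫ _ in Ω, b ^ 2 := by
        refine setIntegral_mono_on hW.integrable_sq (integrableOn_const hfin) hm fun x hx => ?_
        have h1 : |Real.exp (-⟪ξ, x⟫) * f x| ≤ b := by
          rw [abs_mul, abs_of_pos (Real.exp_pos _)]
          calc Real.exp (-⟪ξ, x⟫) * |f x| ≤ Real.exp (-⟪ξ, x⟫) * (b * Real.exp ⟪ξ, x⟫) :=
                mul_le_mul_of_nonneg_left (h x hx) (Real.exp_pos _).le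
            _ = b * (Real.exp (-⟪ξ, x⟫) * Real.exp ⟪ξ, x⟫) := by ring
            _ = b := by rw [← Real.exp_add]; simp
        rw [← sq_abs]; exact pow_le_pow_left₀ (abs_nonneg _) h1 2
    _ = (√(volume.real Ω) * b) ^ 2 := by
        rw [setIntegral_const, mul_pow, Real.sq_sqrt measureReal_nonneg, smul_eq_mul]

lemma WB.of_memLp (hf : MemLp f 2 (volume.restrict Ω)) :
    WB Ω 0 f (√(∫ x in Ω, f x ^ 2)) := by
  refine ⟨Real.sqrt_nonneg _, hf, ?_⟩
  rw [Real.sq_sqrt (integral_nonneg fun x => sq_nonneg _)]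
  simp

/-- Weighted Cauchy-Schwarz inequality. -/
lemma WB.pair (hb : Bornology.IsBounded Ω) (hm : MeasurableSet Ω) (h : WB Ω ξ f b)
    (h' : WB Ω (-ξ) g b') : ∫ x in Ω, |f x * g x| ≤ b * b' := by
  have hF := h.wmem hb hm
  have hG := h'.wmem hb hm
  have e : ∀ x, |f x * g x| =
      |(Real.exp (-⟪ξ, x⟫) * f x) * (Real.exp (-⟪-ξ, x⟫) * g x)| := by
    intro x
    have h1 : Real.exp (-⟪ξ, x⟫) * Real.exp (-⟪-ξ, x⟫) = 1 := by
      rw [← Real.exp_add, inner_neg_left]; simp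
    congr 1
    linear_combination (-(f x * g x)) * h1
  simp only [e]
  exact l2_cs hF hG h.1 h'.1 h.2.2 h'.2.2

lemma IsWD.mono {Ω' : Set E3} {j : Fin 3} (h : IsWD Ω j f g) (hs : Ω' ⊆ Ω) : IsWD Ω' j f g := by
  intro φ hφ
  have h1 := h φ (hφ.mono hs)
  rw [((hφ.mono hs).pd j).setIntegral_mul, (hφ.mono hs).setIntegral_mul] at h1
  rw [(hφ.pd j).setIntegral_mul, hφ.setIntegral_mul]
  exact h1

lemma IsWD.congr {j : Fin 3} {f' g' : E3 → ℝ} (hm : MeasurableSet Ω) (h : IsWD Ω j f g)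
    (e : ∀ x ∈ Ω, f x = f' x) (e' : ∀ x ∈ Ω, g x = g' x) : IsWD Ω j f' g' := by
  intro φ hφ
  have h1 : ∫ x in Ω, f' x * pd j φ x = ∫ x in Ω, f x * pd j φ x :=
    setIntegral_congr_fun hm fun x hx => by simp only [e x hx]
  have h2 : ∫ x in Ω, g' x * φ x = ∫ x in Ω, g x * φ x :=
    setIntegral_congr_fun hm fun x hx => by simp only [e' x hx]
  rw [h1, h2]
  exact h φ hφ

lemma IsWD.add {j : Fin 3} {f' g' : E3 → ℝ} (h : IsWD Ω j f g) (h' : IsWD Ω j f' g')
    (hf : MemLp f 2 (volume.restrict Ω)) (hg : MemLp g 2 (volume.restrict Ω))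
    (hf' : MemLp f' 2 (volume.restrict Ω)) (hg' : MemLp g' 2 (volume.restrict Ω)) :
    IsWD Ω j (fun x => f x + f' x) (fun x => g x + g' x) := by
  intro φ hφ
  have h1 := (hφ.pd j).memLp (volume.restrict Ω)
  have h2 := hφ.memLp (volume.restrict Ω)
  simp only [add_mul]
  rw [integral_add (l2_int hf h1) (l2_int hf' h1),
    integral_add (l2_int hg h2) (l2_int hg' h2), h φ hφ, h' φ hφ]
  ring

lemma IsWD.sub {j : Fin 3} {f' g' : E3 → ℝ} (h : IsWD Ω j f g) (h' : IsWD Ω j f' g')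
    (hf : MemLp f 2 (volume.restrict Ω)) (hg : MemLp g 2 (volume.restrict Ω))
    (hf' : MemLp f' 2 (volume.restrict Ω)) (hg' : MemLp g' 2 (volume.restrict Ω)) :
    IsWD Ω j (fun x => f x - f' x) (fun x => g x - g' x) := by
  intro φ hφ
  have h1 := (hφ.pd j).memLp (volume.restrict Ω)
  have h2 := hφ.memLp (volume.restrict Ω)
  simp only [sub_mul]
  rw [integral_sub (l2_int hf h1) (l2_int hf' h1),
    integral_sub (l2_int hg h2) (l2_int hg' h2), h φ hφ, h' φ hφ]
  ring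

lemma IsWD.sum {j : Fin 3} {ι : Type*} (s : Finset ι) {F G : ι → E3 → ℝ}
    (h : ∀ i, IsWD Ω j (F i) (G i)) (hF : ∀ i, MemLp (F i) 2 (volume.restrict Ω))
    (hG : ∀ i, MemLp (G i) 2 (volume.restrict Ω)) :
    IsWD Ω j (fun x => ∑ i ∈ s, F i x) (fun x => ∑ i ∈ s, G i x) := by
  intro φ hφ
  have h1 := (hφ.pd j).memLp (volume.restrict Ω)
  have h2 := hφ.memLp (volume.restrict Ω)
  simp only [Finset.sum_mul]
  rw [integral_finsetSum _ fun i _ => l2_int (hF i) h1,
    integral_finsetSum _ fun i _ => l2_int (hG i) h2, ← Finset.sum_neg_distrib]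
  exact Finset.sum_congr rfl fun i _ => h i φ hφ

/-- Product rule with a smooth factor. -/
lemma IsWD.mul_smooth {j : Fin 3} (h : IsWD Ω j f g) (ha : ContDiff ℝ ∞ a)
    (hf : MemLp f 2 (volume.restrict Ω)) (hg : MemLp g 2 (volume.restrict Ω)) :
    IsWD Ω j (fun x => a x * f x) (fun x => pd j a x * f x + a x * g x) := by
  intro φ hφ
  have h0 := h _ (hφ.mul_left ha)
  have h1 := ((hφ.pd j).mul_left ha).memLp (volume.restrict Ω)
  have h2 := (hφ.mul_left (contDiff_pd ha j)).memLp (volume.restrict Ω)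
  have h3 := (hφ.mul_left ha).memLp (volume.restrict Ω)
  simp only [pd_mul ha hφ.1, mul_add] at h0
  rw [integral_add (l2_int hf h2) (l2_int hf h1)] at h0
  have e1 : ∀ x, a x * f x * pd j φ x = f x * (a x * pd j φ x) := fun x => by ring
  have e2 : ∀ x, (pd j a x * f x + a x * g x) * φ x =
      f x * (pd j a x * φ x) + g x * (a x * φ x) := fun x => by ring
  simp only [e1, e2]
  rw [integral_add (l2_int hf h2) (l2_int hg h3)]
  linarith

/-- A smooth field as a Sobolev field on a bounded set. -/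
def H1.ofSmooth (hb : Bornology.IsBounded Ω) (U : Fin 3 → E3 → ℝ) (hU : ∀ i, ContDiff ℝ ∞ (U i)) :
    H1 Ω where
  val := U
  grad := gr U
  val_mem := fun i => memLp_of_cont hb (hU i).continuous
  grad_mem := fun i j => memLp_of_cont hb (contDiff_pd (hU i) j).continuous
  weak := fun i j => ibp_test (hU i) j

/-- Difference of Sobolev fields. -/
def H1.sub (u v : H1 Ω) : H1 Ω where
  val := fun i x => u.val i x - v.val i x
  grad := fun i j x => u.grad i j x - v.grad i j x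
  val_mem := fun i => (u.val_mem i).sub (v.val_mem i)
  grad_mem := fun i j => (u.grad_mem i j).sub (v.grad_mem i j)
  weak := fun i j => IsWD.sub (u.weak i j) (v.weak i j) (u.val_mem i) (u.grad_mem i j)
    (v.val_mem i) (v.grad_mem i j)

section Form

variable {lam mu : E3 → ℝ} {A A' B : Fin 3 → Fin 3 → E3 → ℝ}

lemma form_symm : form Ω lam mu A B = form Ω lam mu B A := by
  unfold form
  refine integral_congr_ae (Filter.Eventually.of_forall fun x => ?_)
  simp only [Fin.sum_univ_three]; ring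

lemma form_congr {lam' mu' : E3 → ℝ} (hm : MeasurableSet Ω) (e : ∀ x ∈ Ω, lam x = lam' x)
    (e' : ∀ x ∈ Ω, mu x = mu' x) : form Ω lam mu A B = form Ω lam' mu' A B := by
  unfold form
  exact setIntegral_congr_fun hm fun x hx => by simp only [e x hx, e' x hx]

lemma form_integrable (hb : Bornology.IsBounded Ω) (hm : MeasurableSet Ω) (hl : Continuous lam)
    (hmu : Continuous mu) (hA : ∀ i j, MemLp (A i j) 2 (volume.restrict Ω))
    (hB : ∀ i j, MemLp (B i j) 2 (volume.restrict Ω)) :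
    IntegrableOn (fun x => lam x * ((∑ i, A i i x) * (∑ i, B i i x)) +
      2 * mu x * ∑ i, ∑ j, ((A i j x + A j i x) / 2) * ((B i j x + B j i x) / 2)) Ω := by
  have hA1 : MemLp (fun x => lam x * ∑ i, A i i x) 2 (volume.restrict Ω) :=
    memLp_cont_mul hb hm hl (memLp_finsetSum _ fun i _ => hA i i)
  have hB1 : MemLp (fun x => ∑ i, B i i x) 2 (volume.restrict Ω) :=
    memLp_finsetSum _ fun i _ => hB i i
  have hA2 : ∀ i j, MemLp (fun x => mu x * (A i j x + A j i x)) 2 (volume.restrict Ω) :=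
    fun i j => memLp_cont_mul hb hm hmu ((hA i j).add (hA j i))
  have hB2 : ∀ i j, MemLp (fun x => (1 / 2 : ℝ) * (B i j x + B j i x)) 2 (volume.restrict Ω) :=
    fun i j => ((hB i j).add (hB j i)).const_mul _
  have h1 := (l2_int hA1 hB1).add (integrable_finsetSum Finset.univ fun i _ =>
    integrable_finsetSum Finset.univ fun j _ => l2_int (hA2 i j) (hB2 i j))
  refine h1.congr (Filter.Eventually.of_forall fun x => ?_)
  simp only [Pi.add_apply, Fin.sum_univ_three]; ring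

lemma form_sub_left (hb : Bornology.IsBounded Ω) (hm : MeasurableSet Ω) (hl : Continuous lam)
    (hmu : Continuous mu) (hA : ∀ i j, MemLp (A i j) 2 (volume.restrict Ω))
    (hA' : ∀ i j, MemLp (A' i j) 2 (volume.restrict Ω))
    (hB : ∀ i j, MemLp (B i j) 2 (volume.restrict Ω)) :
    form Ω lam mu (fun i j x => A i j x - A' i j x) B = form Ω lam mu A B - form Ω lam mu A' B := by
  unfold form
  rw [← integral_sub (form_integrable hb hm hl hmu hA hB) (form_integrable hb hm hl hmu hA' hB)]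
  refine integral_congr_ae (Filter.Eventually.of_forall fun x => ?_)
  simp only [Fin.sum_univ_three]; ring

lemma form_bound (hb : Bornology.IsBounded Ω) (hm : MeasurableSet Ω) (hl : Continuous lam)
    (hmu : Continuous mu) : ∃ C, 0 ≤ C ∧ ∀ (ξ : E3) (A B : Fin 3 → Fin 3 → E3 → ℝ) (b b' : ℝ),
      (∀ i j, WB Ω ξ (A i j) b) → (∀ i j, WB Ω (-ξ) (B i j) b') →
        |form Ω lam mu A B| ≤ C * (b * b') := by
  obtain ⟨M, hM0, hM⟩ := exists_bound_of_cont hb hl
  obtain ⟨N, hN0, hN⟩ := exists_bound_of_cont hb hmu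
  refine ⟨9 * M + 18 * N, by positivity, fun ξ A B b b' hA hB => ?_⟩
  have hA1 := WB.mul_bdd hb hm hl hM0 hM (WB.sum hb hm Finset.univ fun i => hA i i)
  have hB1 := WB.sum hb hm Finset.univ fun i => hB i i
  have hA2 := fun i j => WB.mul_bdd hb hm hmu hN0 hN ((hA i j).add hb hm (hA j i))
  have hB2 := fun i j => WB.mul_bdd hb hm (a := fun _ => (1 / 2 : ℝ)) continuous_const
    (M := 1 / 2) (by norm_num) (fun x _ => by norm_num) ((hB i j).add hb hm (hB j i))
  have i1 := l2_int hA1.2.1 hB1.2.1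
  have i2 := fun i j => l2_int (hA2 i j).2.1 (hB2 i j).2.1
  have p1 := abs_integral_le_integral_abs.trans (hA1.pair hb hm hB1)
  have p2 := fun i j => abs_integral_le_integral_abs.trans ((hA2 i j).pair hb hm (hB2 i j))
  have e : form Ω lam mu A B = (∫ x in Ω, (lam x * ∑ i, A i i x) * ∑ i, B i i x) +
      ∑ i, ∑ j, ∫ x in Ω, (mu x * (A i j x + A j i x)) * (1 / 2 * (B i j x + B j i x)) := by
    have e2 : ∀ i, ∑ j, ∫ x in Ω, (mu x * (A i j x + A j i x)) * (1 / 2 * (B i j x + B j i x)) =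
        ∫ x in Ω, ∑ j, (mu x * (A i j x + A j i x)) * (1 / 2 * (B i j x + B j i x)) :=
      fun i => (integral_finsetSum _ fun j _ => i2 i j).symm
    have i3 : ∀ i, Integrable (fun x => ∑ j,
        (mu x * (A i j x + A j i x)) * (1 / 2 * (B i j x + B j i x))) (volume.restrict Ω) :=
      fun i => integrable_finsetSum _ fun j _ => i2 i j
    simp only [e2]
    rw [← integral_finsetSum _ fun i _ => i3 i,
      ← integral_add i1 (integrable_finsetSum _ fun i _ => i3 i)]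
    unfold form
    refine integral_congr_ae (Filter.Eventually.of_forall fun x => ?_)
    simp only [Fin.sum_univ_three]; ring
  rw [e]
  refine (abs_add_le _ _).trans ?_
  have p3 : |∑ i, ∑ j, ∫ x in Ω, (mu x * (A i j x + A j i x)) * (1 / 2 * (B i j x + B j i x))| ≤
      ∑ _i : Fin 3, ∑ _j : Fin 3, N * (b + b) * (1 / 2 * (b' + b')) :=
    (Finset.abs_sum_le_sum_abs _ _).trans (Finset.sum_le_sum fun i _ =>
      (Finset.abs_sum_le_sum_abs _ _).trans (Finset.sum_le_sum fun j _ => p2 i j))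
  simp only [Fin.sum_univ_three] at p1 p3 ⊢
  linarith

/-- The form of two smooth fields is the integral of the algebraic energy density
(use `Der.en_eq`). -/
lemma form_en (L : Lame (Sm ℝ)) (U V : Fin 3 → Sm ℝ) :
    form Ω (L.lam : Sm ℝ) (L.mu : Sm ℝ) (gr fun i => U i) (gr fun i => V i) =
      ∫ x in Ω, ((derS ℝ).en L U V : E3 → ℝ) x := by
  unfold form
  refine integral_congr_ae (Filter.Eventually.of_forall fun x => ?_)
  have h := congrArg (fun F : Sm ℝ => (F : E3 → ℝ) x) ((derS ℝ).en_eq L U V)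
  have e2 : ((2 : Sm ℝ) : E3 → ℝ) x = 2 := rfl
  simp only [Der.div, Fin.sum_univ_three, Subalgebra.coe_mul, Subalgebra.coe_add, Pi.mul_apply,
    Pi.add_apply, derS_pd, e2] at h
  simp only [Fin.sum_univ_three, gr]
  linarith

/-- Green's formula against a test field (use `form_en`, `Der.green`, `int_pd_test`). -/
lemma form_smooth (L : Lame (Sm ℝ)) (U : Fin 3 → Sm ℝ) {φ : Fin 3 → E3 → ℝ}
    (hφ : ∀ i, IsTest Ω (φ i)) :
    form Ω (L.lam : Sm ℝ) (L.mu : Sm ℝ) (gr fun i => U i) (gr φ) =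
      - ∫ x in Ω, ∑ i, ((derS ℝ).Lop L U i : E3 → ℝ) x * φ i x := by
  let V : Fin 3 → Sm ℝ := fun i => ⟨φ i, (hφ i).1⟩
  have h0 : form Ω (L.lam : Sm ℝ) (L.mu : Sm ℝ) (gr fun i => U i) (gr φ) =
      ∫ x in Ω, ((derS ℝ).en L U V : E3 → ℝ) x := form_en L U V
  have ht : ∀ j, IsTest Ω (fun x => ∑ i, ((derS ℝ).sig L U i j : E3 → ℝ) x * φ i x) :=
    fun j => IsTest.sum _ fun i => (hφ i).mul_left (smo _)
  have e : ∀ x, ((derS ℝ).en L U V : E3 → ℝ) x =
      ∑ j, pd j (fun x => ∑ i, ((derS ℝ).sig L U i j : E3 → ℝ) x * φ i x) x -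
        ∑ i, ((derS ℝ).Lop L U i : E3 → ℝ) x * φ i x := by
    intro x
    rw [Der.green]
    simp only [Der.div, Fin.sum_univ_three]
    rfl
  have i1 : ∀ j, Integrable
      (pd j (fun x => ∑ i, ((derS ℝ).sig L U i j : E3 → ℝ) x * φ i x)) (volume.restrict Ω) :=
    fun j => (contDiff_pd (ht j).1 j).continuous.integrable_of_hasCompactSupport ((ht j).pd j).2.1
  have i2 : ∀ i, Integrable (fun x => ((derS ℝ).Lop L U i : E3 → ℝ) x * φ i x)
      (volume.restrict Ω) := fun i => (hφ i).integrable_mul (sco _) _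
  rw [h0]
  simp only [e]
  rw [integral_sub (integrable_finsetSum _ fun j _ => i1 j)
    (integrable_finsetSum _ fun i _ => i2 i), integral_finsetSum _ fun j _ => i1 j]
  simp only [fun j => int_pd_test (ht j) j, Finset.sum_const_zero, zero_sub]

end Form

end Vale.Agent.P136
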