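import Vale.Agent.P136.Dir

/-!
# Boundary charts, a Hardy inequality and a volume bound
-/

open MeasureTheory Set Metric
open scoped ContDiff RealInnerProductSpace

noncomputable section

namespace Vale.Agent.P136

/-- A normalised local defining function at the boundary point `x₀`. -/
structure Chart (Ω : Set E3) (x₀ : E3) where
  ρ : E3 → ℝ
  ν : E3
  r : ℝ
  r_pos : 0 < r
  smooth : ContDiff ℝ ∞ ρ
  norm_ν : ‖ν‖ = 1
  zero : ρ x₀ = 0
  grad : ∀ v, fderiv ℝ ρ x₀ v = ⟪ν, v⟫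
  mem : ∀ x ∈ ball x₀ r, x ∈ Ω ↔ 0 < ρ x
  half : ∀ x ∈ ball x₀ r, 1 / 2 ≤ fderiv ℝ ρ x ν

variable {Ω : Set E3} {x₀ : E3}

/-- Divide `ρ` by the norm of its gradient at `x₀`. -/
lemma exists_chart (h : SmoothDomain Ω) (hx : x₀ ∈ frontier Ω) : Nonempty (Chart Ω x₀) := by
  obtain ⟨ho, -, -, hU⟩ := h
  obtain ⟨U, ρ, hUo, hxU, hρ, hne, hΩ⟩ := hU x₀ hx
  obtain ⟨g, hgv⟩ : ∃ g : E3, ∀ v, fderiv ℝ ρ x₀ v = ⟪g, v⟫ :=
    ⟨(InnerProductSpace.toDual ℝ E3).symm (fderiv ℝ ρ x₀), fun v => by simp⟩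
  have hg0 : g ≠ 0 := by
    rintro rfl
    apply hne
    ext v
    simp [hgv]
  have hn : 0 < ‖g‖ := norm_pos_iff.2 hg0
  have hmem : ∀ x ∈ U, x ∈ Ω ↔ 0 < ρ x := fun x hxU' => by
    have := Set.ext_iff.1 hΩ x
    simpa [hxU'] using this
  have hz : ρ x₀ = 0 := by
    rw [ho.frontier_eq] at hx
    apply le_antisymm
    · exact not_lt.1 fun h => hx.2 ((hmem _ hxU).2 h)
    · have h1 : x₀ ∈ closure (U ∩ Ω) := hUo.inter_closure ⟨hxU, hx.1⟩
      have h2 : IsClosed {y | 0 ≤ ρ y} := isClosed_le continuous_const hρ.continuous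
      exact h2.closure_subset_iff.2 (fun y hy => ((hmem y hy.1).1 hy.2).le) h1
  have hd : Differentiable ℝ ρ := hρ.differentiable (by simp)
  have hsm : ContDiff ℝ ∞ (fun x => ‖g‖⁻¹ * ρ x) := contDiff_const.mul hρ
  have hfd : ∀ x v, fderiv ℝ (fun x => ‖g‖⁻¹ * ρ x) x v = ‖g‖⁻¹ * fderiv ℝ ρ x v := by
    intro x v
    rw [fderiv_const_mul (hd x)]
    simp
  have hν : ‖‖g‖⁻¹ • g‖ = 1 := by
    rw [norm_smul, norm_inv, norm_norm, inv_mul_cancel₀ hn.ne']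
  have hgrad : ∀ v, fderiv ℝ (fun x => ‖g‖⁻¹ * ρ x) x₀ v = ⟪‖g‖⁻¹ • g, v⟫ := by
    intro v
    rw [hfd, hgv, real_inner_smul_left]
  have hc : Continuous (fun x => fderiv ℝ (fun x => ‖g‖⁻¹ * ρ x) x (‖g‖⁻¹ • g)) :=
    (contDiff_dir hsm _).continuous
  have hopen : IsOpen (U ∩ {x | 1 / 2 < fderiv ℝ (fun x => ‖g‖⁻¹ * ρ x) x (‖g‖⁻¹ • g)}) :=
    hUo.inter (isOpen_lt continuous_const hc)
  have hx0 : x₀ ∈ U ∩ {x | 1 / 2 < fderiv ℝ (fun x => ‖g‖⁻¹ * ρ x) x (‖g‖⁻¹ • g)} := by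
    refine ⟨hxU, ?_⟩
    rw [mem_ofPred_eq, hgrad, real_inner_self_eq_norm_sq, hν]
    norm_num
  obtain ⟨r, hr, hball⟩ := Metric.isOpen_iff.1 hopen x₀ hx0
  refine ⟨⟨fun x => ‖g‖⁻¹ * ρ x, ‖g‖⁻¹ • g, r, hr, hsm, hν, by simp [hz], hgrad, ?_, ?_⟩⟩
  · intro x hx
    rw [hmem x (hball hx).1]
    exact (mul_pos_iff_of_pos_left (inv_pos.2 hn)).symm
  · intro x hx
    exact le_of_lt (hball hx).2

lemma hardy_pt {E ψ a s N : ℝ} (hE0 : 0 < E) (hE1 : E ≤ 1) (ha : 1 / 2 ≤ a) (hN : 1 ≤ N) :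
    E * ψ ^ 2 ≤ 16 / N ^ 2 * s ^ 2 - 4 / N * (-N * a * E * ψ ^ 2 + 2 * E * ψ * s) := by
  have hN0 : 0 < N := by linarith
  obtain ⟨t, ht⟩ : ∃ t, t = 4 * s / N := ⟨_, rfl⟩
  have e1 : 16 / N ^ 2 * s ^ 2 = t ^ 2 := by rw [ht]; field_simp; ring
  have e2 : 4 / N * (-N * a * E * ψ ^ 2 + 2 * E * ψ * s) =
      -4 * a * E * ψ ^ 2 + 2 * E * ψ * t := by rw [ht]; field_simp
  rw [e1, e2]
  have h1 : 0 ≤ E * (ψ - t) ^ 2 := by positivity
  have h2 : 0 ≤ (a - 1 / 2) * (E * ψ ^ 2) := mul_nonneg (by linarith) (by positivity)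
  have h3 : 0 ≤ (1 - E) * t ^ 2 := mul_nonneg (by linarith) (by positivity)
  nlinarith

lemma dir_sq_le {ν : E3} (hν : ‖ν‖ = 1) (a : Fin 3 → ℝ) :
    (∑ j, ν j * a j) ^ 2 ≤ ∑ j, a j ^ 2 := by
  have h := Finset.sum_mul_sq_le_sq_mul_sq Finset.univ (fun j => ν j) a
  have h1 : ∑ j, ν j ^ 2 = 1 := by
    have := EuclideanSpace.real_norm_sq_eq ν
    rw [hν] at this
    linarith
  rwa [h1, one_mul] at h

/-- Hardy inequality for test functions supported in the chart. -/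
lemma hardy_loc (c : Chart Ω x₀) {N : ℝ} (hN : 1 ≤ N) {ψ : E3 → ℝ} (hψ : IsTest Ω ψ)
    (h0 : ∀ x, x ∉ ball x₀ c.r → ψ x = 0) (hm : MeasurableSet Ω) :
    ∫ x in Ω, Real.exp (-N * c.ρ x) * ψ x ^ 2 ≤ 16 / N ^ 2 * ∑ j, ∫ x in Ω, pd j ψ x ^ 2 := by
  have hE : ContDiff ℝ ∞ (fun x => Real.exp (-N * c.ρ x)) :=
    Real.contDiff_exp.comp (contDiff_const.mul c.smooth)
  have hG : IsTest Ω (fun x => (Real.exp (-N * c.ρ x) * ψ x) * ψ x) :=
    hψ.mul_left (hE.mul hψ.1)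
  have hρd : Differentiable ℝ c.ρ := c.smooth.differentiable (by simp)
  have hψd : Differentiable ℝ ψ := hψ.1.differentiable (by simp)
  have hder : ∀ x, fderiv ℝ (fun x => (Real.exp (-N * c.ρ x) * ψ x) * ψ x) x c.ν =
      -N * fderiv ℝ c.ρ x c.ν * Real.exp (-N * c.ρ x) * ψ x ^ 2 +
        2 * Real.exp (-N * c.ρ x) * ψ x * fderiv ℝ ψ x c.ν := by
    intro x
    have h1 := (((hρd x).hasFDerivAt.const_mul (-N)).exp.mul (hψd x).hasFDerivAt).mul
      (hψd x).hasFDerivAt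
    have h2 := h1.fderiv
    have h3 : (fun x => (Real.exp (-N * c.ρ x) * ψ x) * ψ x) =
        ((fun x => Real.exp (-N * c.ρ x)) * ψ) * ψ := rfl
    rw [h3, h2]
    simp
    ring
  have isq : ∀ j, Integrable (fun x => pd j ψ x ^ 2) (volume.restrict Ω) := fun j => by
    have := (hψ.pd j).integrable_mul (hψ.pd j).1.continuous (volume.restrict Ω)
    simpa [sq] using this
  have ipd : ∀ j, Integrable (fun x => c.ν j *
      pd j (fun x => (Real.exp (-N * c.ρ x) * ψ x) * ψ x) x) (volume.restrict Ω) := fun j =>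
    (hG.pd j).integrable_mul continuous_const (volume.restrict Ω)
  have iL : Integrable (fun x => Real.exp (-N * c.ρ x) * ψ x ^ 2) (volume.restrict Ω) := by
    have := hψ.integrable_mul (hE.mul hψ.1).continuous (volume.restrict Ω)
    simpa [sq, mul_assoc] using this
  have i1 : Integrable (fun x => 16 / N ^ 2 * ∑ j, pd j ψ x ^ 2) (volume.restrict Ω) :=
    (integrable_finsetSum _ fun j _ => isq j).const_mul _
  have i2 : Integrable (fun x => 4 / N * ∑ j, c.ν j *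
      pd j (fun x => (Real.exp (-N * c.ρ x) * ψ x) * ψ x) x) (volume.restrict Ω) :=
    (integrable_finsetSum _ fun j _ => ipd j).const_mul _
  have key : ∫ x in Ω, Real.exp (-N * c.ρ x) * ψ x ^ 2 ≤
      ∫ x in Ω, (16 / N ^ 2 * ∑ j, pd j ψ x ^ 2 - 4 / N * ∑ j, c.ν j *
        pd j (fun x => (Real.exp (-N * c.ρ x) * ψ x) * ψ x) x) := by
    refine setIntegral_mono_on iL (i1.sub i2) hm fun x hx => ?_
    rw [← fderiv_eq_sum_pd, hder]
    have hs : fderiv ℝ ψ x c.ν ^ 2 ≤ ∑ j, pd j ψ x ^ 2 := by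
      rw [fderiv_eq_sum_pd]
      exact dir_sq_le c.norm_ν _
    have hN2 : 0 ≤ 16 / N ^ 2 := by positivity
    by_cases hxb : x ∈ ball x₀ c.r
    · have hρ : 0 < c.ρ x := (c.mem x hxb).1 hx
      have hE1 : Real.exp (-N * c.ρ x) ≤ 1 := Real.exp_le_one_iff.2 (by nlinarith)
      have := hardy_pt (ψ := ψ x) (s := fderiv ℝ ψ x c.ν) (Real.exp_pos _) hE1 (c.half x hxb) hN
      have h2 := mul_le_mul_of_nonneg_left hs hN2
      linarith
    · rw [h0 x hxb]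
      have : 0 ≤ 16 / N ^ 2 * ∑ j, pd j ψ x ^ 2 := by positivity
      simpa using this
  refine key.trans (le_of_eq ?_)
  rw [integral_sub i1 i2, integral_const_mul, integral_const_mul,
    integral_finsetSum _ fun j _ => isq j, integral_finsetSum _ fun j _ => ipd j]
  simp only [integral_const_mul, int_pd_test hG]
  simp

/-- Let `ψ = χ φ` with a fixed bump `χ` equal to one on `ball x₀ (r / 2)` and supported in
`ball x₀ r`. Integrate `exp (-N ρ) * fderiv (ψ ^ 2) ν` by parts; `exp (-N ρ) ≤ 1` where `ψ` or its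
derivative is nonzero; finish with `poincare`. -/
lemma hardy (hb : Bornology.IsBounded Ω) (ho : IsOpen Ω) (c : Chart Ω x₀) :
    ∃ C, 0 ≤ C ∧ ∀ N : ℝ, 1 ≤ N → ∀ φ, IsTest Ω φ →
      ∫ x in Ω ∩ ball x₀ (c.r / 2), Real.exp (-N * c.ρ x) * φ x ^ 2 ≤
        C / N ^ 2 * ∑ j, ∫ x in Ω, pd j φ x ^ 2 := by
  have hr := c.r_pos
  have hm := ho.measurableSet
  let χ : ContDiffBump x₀ := ⟨c.r / 2, c.r, by linarith, by linarith⟩
  have hχ : ContDiff ℝ ∞ (χ : E3 → ℝ) := χ.contDiff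
  obtain ⟨P, hP0, hP⟩ := poincare hb
  choose M hM0 hM using fun j : Fin 3 => exists_bound_of_cont hb (contDiff_pd hχ j).continuous
  refine ⟨16 * (2 * (∑ j, M j ^ 2) * P + 2), by positivity, fun N hN φ hφ => ?_⟩
  have hψ : IsTest Ω (fun x => χ x * φ x) := hφ.mul_left hχ
  have h0 : ∀ x, x ∉ ball x₀ c.r → χ x * φ x = 0 := fun x hx => by
    have : χ x = 0 := χ.zero_of_le_dist (by simpa using hx)
    rw [this, zero_mul]
  have hloc := hardy_loc c hN hψ h0 hm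
  have hE : ContDiff ℝ ∞ (fun x => Real.exp (-N * c.ρ x)) :=
    Real.contDiff_exp.comp (contDiff_const.mul c.smooth)
  have iL : Integrable (fun x => Real.exp (-N * c.ρ x) * (χ x * φ x) ^ 2)
      (volume.restrict Ω) := by
    have := hψ.integrable_mul (hE.mul hψ.1).continuous (volume.restrict Ω)
    simpa [sq, mul_assoc] using this
  have step1 : ∫ x in Ω ∩ ball x₀ (c.r / 2), Real.exp (-N * c.ρ x) * φ x ^ 2 ≤
      ∫ x in Ω, Real.exp (-N * c.ρ x) * (χ x * φ x) ^ 2 := by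
    have e : ∫ x in Ω ∩ ball x₀ (c.r / 2), Real.exp (-N * c.ρ x) * φ x ^ 2 =
        ∫ x in Ω ∩ ball x₀ (c.r / 2), Real.exp (-N * c.ρ x) * (χ x * φ x) ^ 2 := by
      refine setIntegral_congr_fun (hm.inter measurableSet_ball) fun x hx => ?_
      have : χ x = 1 := χ.one_of_mem_closedBall (ball_subset_closedBall hx.2)
      simp [this]
    rw [e]
    exact setIntegral_mono_set iL (Filter.Eventually.of_forall fun x => by positivity)
      (inter_subset_left.eventuallyLE)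
  have isq : ∀ {f : E3 → ℝ}, IsTest Ω f → Integrable (fun x => f x ^ 2) (volume.restrict Ω) :=
    fun {f} hf => by
      have := hf.integrable_mul hf.1.continuous (volume.restrict Ω)
      simpa [sq] using this
  have hS : ∀ j, 0 ≤ ∫ x in Ω, pd j φ x ^ 2 := fun j => integral_nonneg fun x => by positivity
  have hφ2 : ∫ x in Ω, φ x ^ 2 ≤ P * ∑ j, ∫ x in Ω, pd j φ x ^ 2 :=
    (hP φ hφ).trans (mul_le_mul_of_nonneg_left
      (Finset.single_le_sum (f := fun j => ∫ x in Ω, pd j φ x ^ 2) (fun j _ => hS j)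
        (Finset.mem_univ 0)) hP0)
  have step2 : ∀ j, ∫ x in Ω, pd j (fun x => χ x * φ x) x ^ 2 ≤
      2 * M j ^ 2 * (∫ x in Ω, φ x ^ 2) + 2 * ∫ x in Ω, pd j φ x ^ 2 := fun j => by
    rw [← integral_const_mul, ← integral_const_mul,
      ← integral_add ((isq hφ).const_mul _) ((isq (hφ.pd j)).const_mul _)]
    refine setIntegral_mono_on (isq (hψ.pd j))
      (((isq hφ).const_mul _).add ((isq (hφ.pd j)).const_mul _)) hm fun x hx => ?_
    rw [pd_mul hχ hφ.1]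
    have h1 : pd j χ x ^ 2 ≤ M j ^ 2 := by
      rw [← sq_abs]
      exact pow_le_pow_left₀ (abs_nonneg _) (hM j x hx) 2
    have h2 : χ x ^ 2 ≤ 1 := pow_le_one₀ χ.nonneg χ.le_one
    have h3 := mul_le_mul_of_nonneg_right h1 (sq_nonneg (φ x))
    have h4 := mul_le_mul_of_nonneg_right h2 (sq_nonneg (pd j φ x))
    nlinarith [sq_nonneg (pd j χ x * φ x - χ x * pd j φ x)]
  have step3 : ∑ j, ∫ x in Ω, pd j (fun x => χ x * φ x) x ^ 2 ≤
      (2 * (∑ j, M j ^ 2) * P + 2) * ∑ j, ∫ x in Ω, pd j φ x ^ 2 := by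
    refine (Finset.sum_le_sum fun j _ => step2 j).trans ?_
    rw [Finset.sum_add_distrib, ← Finset.sum_mul, ← Finset.mul_sum, ← Finset.mul_sum]
    have h1 : 0 ≤ 2 * ∑ j, M j ^ 2 := by positivity
    have h2 := mul_le_mul_of_nonneg_left hφ2 h1
    linarith
  have hN2 : 0 ≤ 16 / N ^ 2 := by positivity
  refine step1.trans (hloc.trans ((mul_le_mul_of_nonneg_left step3 hN2).trans (le_of_eq ?_)))
  ring

/-- Second order Taylor bound for the defining function. -/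
lemma Chart.taylor (c : Chart Ω x₀) : ∃ K δ : ℝ, 0 ≤ K ∧ 0 < δ ∧ ∀ s : ℝ, s ≤ δ →
    ∀ x ∈ ball x₀ s, |c.ρ x - ⟪c.ν, x - x₀⟫| ≤ K * s ^ 2 := by
  have h1 : ContDiff ℝ 1 (fderiv ℝ c.ρ) := c.smooth.fderiv_right
    (show ((2 : ℕ∞) : WithTop ℕ∞) ≤ ((⊤ : ℕ∞) : WithTop ℕ∞) from WithTop.coe_le_coe.2 le_top)
  obtain ⟨K, t, ht, hK⟩ := (h1.contDiffAt (x := x₀)).exists_lipschitzOnWith
  obtain ⟨δ, hδ, hsub⟩ := Metric.mem_nhds_iff.1 ht
  refine ⟨K, δ, K.2, hδ, fun s hs x hx => ?_⟩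
  have hd : Differentiable ℝ c.ρ := c.smooth.differentiable (by simp)
  have hs0 : 0 < s := pos_of_mem_ball hx
  have hb : ∀ y ∈ ball x₀ s, ‖fderiv ℝ c.ρ y - fderiv ℝ c.ρ x₀‖ ≤ K * s := fun y hy => by
    have := hK.dist_le_mul y (hsub (ball_subset_ball hs hy)) x₀ (hsub (mem_ball_self hδ))
    rw [dist_eq_norm] at this
    exact this.trans (mul_le_mul_of_nonneg_left (mem_ball.1 hy).le K.2)
  have h2 := (convex_ball x₀ s).norm_image_sub_le_of_norm_fderiv_le' (fun y _ => hd y) hb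
    (mem_ball_self hs0) hx
  rw [c.zero, sub_zero, c.grad, Real.norm_eq_abs] at h2
  have h3 : ‖x - x₀‖ ≤ s := by rw [← dist_eq_norm]; exact (mem_ball.1 hx).le
  have h4 : (K : ℝ) * s * ‖x - x₀‖ ≤ K * s * s :=
    mul_le_mul_of_nonneg_left h3 (mul_nonneg K.2 hs0.le)
  calc _ ≤ _ := h2
    _ ≤ _ := h4
    _ = _ := by ring

/-- The anisotropic scaling. -/
def slab (ν : E3) (k : ℝ) : E3 →ₗ[ℝ] E3 :=
  (1 / k ^ 2) • LinearMap.transvection (innerₗ E3 ν) ((1 / k - 1) • ν)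

lemma slab_apply (ν : E3) (k : ℝ) (y : E3) :
    slab ν k y = (1 / k ^ 2) • (y + ⟪ν, y⟫ • ((1 / k - 1) • ν)) := rfl

lemma slab_det {ν : E3} (hν : ‖ν‖ = 1) {k : ℝ} (hk : 0 < k) :
    LinearMap.det (slab ν k) = 1 / k ^ 7 := by
  rw [slab, LinearMap.det_smul, LinearMap.transvection.det]
  simp only [finrank_euclideanSpace, Fintype.card_fin, innerₗ_apply_apply, real_inner_smul_right,
    real_inner_self_eq_norm_sq, hν]
  field_simp
  ring

/-- The image of `ball (ν / 8) (1 / 16)` under `y ↦ x₀ + T y`, where `T` is `k ^ (-2)` on the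
orthogonal complement of `ν` and `k ^ (-3)` on `ν`, lies in the set; `det T = k ^ (-7)`. -/
lemma vol_lower (c : Chart Ω x₀) : ∃ c₀ k₀ : ℝ, 0 < c₀ ∧ ∀ k : ℝ, k₀ ≤ k →
    c₀ / k ^ 7 ≤ volume.real (Ω ∩ ball x₀ (1 / (2 * k ^ 2)) ∩ {x | c.ρ x ≤ 1 / k ^ 3}) := by
  obtain ⟨K, δ, hK, hδ, hT⟩ := c.taylor
  have hr := c.r_pos
  have hB : 0 < volume.real (ball ((1 / 8 : ℝ) • c.ν) (1 / 16)) :=
    ENNReal.toReal_pos (measure_ball_pos _ _ (by norm_num)).ne' measure_ball_lt_top.ne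
  refine ⟨_, 1 + 4 * K + 1 / δ + 1 / c.r, hB, fun k hk => ?_⟩
  have hδ' : 0 < 1 / δ := by positivity
  have hr' : 0 < 1 / c.r := by positivity
  have hk1 : 1 ≤ k := by linarith
  have hk0 : 0 < k := by linarith
  have hsmall : ∀ a : ℝ, 0 < a → 1 / a ≤ k → 1 / (2 * k ^ 2) ≤ a := fun a ha h => by
    rw [div_le_iff₀ ha] at h
    rw [div_le_iff₀ (by positivity)]
    nlinarith
  have hsδ : 1 / (2 * k ^ 2) ≤ δ := hsmall δ hδ (by linarith)
  have hsr : 1 / (2 * k ^ 2) ≤ c.r := hsmall _ hr (by linarith)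
  have hsub : slab c.ν k '' ball ((1 / 8 : ℝ) • c.ν) (1 / 16) ⊆
      (fun z => x₀ + z) ⁻¹' (Ω ∩ ball x₀ (1 / (2 * k ^ 2)) ∩ {x | c.ρ x ≤ 1 / k ^ 3}) := by
    rintro _ ⟨y, hy, rfl⟩
    rw [mem_ball, dist_eq_norm] at hy
    have hn8 : ‖(1 / 8 : ℝ) • c.ν‖ = 1 / 8 := by rw [norm_smul, c.norm_ν]; norm_num
    have hy1 : ‖y‖ < 3 / 16 := by
      have := norm_add_le (y - (1 / 8 : ℝ) • c.ν) ((1 / 8 : ℝ) • c.ν)
      rw [sub_add_cancel, hn8] at this
      linarith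
    have hy2 : |⟪c.ν, y⟫ - 1 / 8| < 1 / 16 := by
      have h1 := abs_real_inner_le_norm c.ν (y - (1 / 8 : ℝ) • c.ν)
      rw [inner_sub_right, real_inner_smul_right, real_inner_self_eq_norm_sq, c.norm_ν] at h1
      norm_num at h1 hy ⊢
      linarith
    obtain ⟨ht1, ht2⟩ := abs_lt.1 hy2
    have hk' : 1 / k ≤ 1 := by rw [div_le_one hk0]; exact hk1
    have hk'' : 0 < 1 / k := by positivity
    have hnorm : ‖slab c.ν k y‖ < 1 / (2 * k ^ 2) := by
      rw [slab_apply, norm_smul, Real.norm_of_nonneg (by positivity)]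
      have h1 : ‖y + ⟪c.ν, y⟫ • ((1 / k - 1) • c.ν)‖ < 1 / 2 := by
        refine (norm_add_le _ _).trans_lt ?_
        rw [norm_smul, norm_smul, c.norm_ν, Real.norm_of_nonneg (by linarith),
          Real.norm_of_nonpos (by linarith)]
        nlinarith
      calc _ < 1 / k ^ 2 * (1 / 2) := mul_lt_mul_of_pos_left h1 (by positivity)
        _ = _ := by field_simp
    have hball : x₀ + slab c.ν k y ∈ ball x₀ (1 / (2 * k ^ 2)) := by
      rw [mem_ball, dist_eq_norm, add_sub_cancel_left]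
      exact hnorm
    have hin : ⟪c.ν, slab c.ν k y⟫ = ⟪c.ν, y⟫ / k ^ 3 := by
      rw [slab_apply, real_inner_smul_right, inner_add_right, real_inner_smul_right,
        real_inner_smul_right, real_inner_self_eq_norm_sq, c.norm_ν]
      field_simp
      ring
    have h3 := hT _ hsδ _ hball
    rw [add_sub_cancel_left, hin] at h3
    have h4 : K * (1 / (2 * k ^ 2)) ^ 2 ≤ (1 / 16) / k ^ 3 := by
      have e : K * (1 / (2 * k ^ 2)) ^ 2 = (K / (4 * k)) / k ^ 3 := by field_simp; ring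
      rw [e]
      refine div_le_div_of_nonneg_right ?_ (by positivity)
      rw [div_le_iff₀ (by positivity)]
      linarith
    obtain ⟨h5, h6⟩ := abs_le.1 (h3.trans h4)
    have hk3 : 0 < k ^ 3 := by positivity
    have h7 : (1 / 16) / k ^ 3 < ⟪c.ν, y⟫ / k ^ 3 := div_lt_div_of_pos_right (by linarith) hk3
    have h8 : ⟪c.ν, y⟫ / k ^ 3 + (1 / 16) / k ^ 3 ≤ 1 / k ^ 3 := by
      rw [← add_div]
      exact div_le_div_of_nonneg_right (by linarith) hk3.le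
    refine ⟨⟨(c.mem _ (ball_subset_ball hsr hball)).2 (by linarith), hball⟩, ?_⟩
    show c.ρ _ ≤ _
    linarith
  have hfin : volume (Ω ∩ ball x₀ (1 / (2 * k ^ 2)) ∩ {x | c.ρ x ≤ 1 / k ^ 3}) ≠ ⊤ :=
    ((measure_mono (inter_subset_left.trans inter_subset_right)).trans_lt measure_ball_lt_top).ne
  have hle := measure_mono (μ := volume) hsub
  rw [measure_preimage_add, Measure.addHaar_image_linearMap, slab_det c.norm_ν hk0] at hle
  have h2 := ENNReal.toReal_mono hfin hle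
  rw [ENNReal.toReal_mul, ENNReal.toReal_ofReal (abs_nonneg _),
    abs_of_nonneg (by positivity)] at h2
  refine le_trans (le_of_eq ?_) h2
  rw [Measure.real]
  ring

end Vale.Agent.P136
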