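import Vale.Agent.P136.BdA

/-!
# Oscillating boundary profiles
-/

open MeasureTheory Set Metric
open scoped ContDiff RealInnerProductSpace

noncomputable section

namespace Vale.Agent.P136

variable {Ω : Set E3} {x₀ : E3}

lemma bdb_ring {K R : Type*} [CommRing K] [CommRing R] [Algebra K R] (X : Der K R) {A P e N : R}
    (hN : ∀ j, X.d j N = 0) (he : ∀ j, X.d j e = N * X.d j P * e) :
    (∀ j, X.d j (A * e) = (X.d j A + N * A * X.d j P) * e) ∧ ∀ i j, X.d i (X.d j (A * e)) =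
      (X.d i (X.d j A) + N * (X.d i A * X.d j P + X.d j A * X.d i P + A * X.d i (X.d j P)) +
        N ^ 2 * A * (X.d j P * X.d i P)) * e := by
  have h : ∀ j, X.d j (A * e) = (X.d j A + N * A * X.d j P) * e := fun j => by
    rw [X.d_mul, he]; ring
  refine ⟨h, fun i j => ?_⟩
  rw [h]
  simp only [X.d_mul, map_add, he, hN]
  ring

lemma bdb_sum {z : Fin 3 → ℂ} {t : Fin 3 → ℝ} (ht : ∀ j, |t j| ≤ 1) {B : ℝ} (h : ∀ j, ‖z j‖ ≤ B) :
    ‖∑ j, (t j : ℂ) * z j‖ ≤ 3 * B := by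
  refine (norm_sum_le_of_le _ (n := fun _ => B) fun j _ => ?_).trans (by simp)
  rw [norm_mul, Complex.norm_real]
  exact (mul_le_of_le_one_left (norm_nonneg _) (ht j)).trans (h j)

lemma bdb_alg {k M : ℝ} (hk : 1 ≤ k) (hM : 1 ≤ M) {a : ℂ} {a1 p1 : Fin 3 → ℂ}
    {a2 p2 : Fin 3 → Fin 3 → ℂ} {t : Fin 3 → ℝ} (ht : ∀ j, |t j| ≤ 1) (h0 : ‖a‖ ≤ 1)
    (h1 : ∀ j, ‖a1 j‖ ≤ M * k ^ 2) (h2 : ∀ i j, ‖a2 i j‖ ≤ M * k ^ 4) (h3 : ∀ j, ‖p1 j‖ ≤ M)
    (h4 : ∀ i j, ‖p2 i j‖ ≤ M) (h5 : ‖∑ j, p1 j * p1 j‖ ≤ M / k ^ 2)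
    (h6 : ‖∑ j, (t j : ℂ) * p1 j‖ ≤ M / k ^ 2) {D1 : Fin 3 → ℂ} {D2 : Fin 3 → Fin 3 → ℂ}
    (e1 : ∀ j, D1 j = a1 j + (k ^ 3 : ℝ) * a * p1 j)
    (e2 : ∀ i j, D2 i j = a2 i j + (k ^ 3 : ℝ) * (a1 i * p1 j + a1 j * p1 i + a * p2 i j) +
      (k ^ 3 : ℝ) ^ 2 * a * (p1 j * p1 i)) :
    ‖∑ j, D2 j j‖ ≤ 13 * M ^ 2 * k ^ 5 ∧ (∀ i, ‖∑ j, (t j : ℂ) * D2 i j‖ ≤ 13 * M ^ 2 * k ^ 5) ∧
      (∀ j, ‖D1 j‖ ≤ 13 * M ^ 2 * k ^ 3) ∧ ‖∑ j, (t j : ℂ) * D1 j‖ ≤ 13 * M ^ 2 * k ^ 2 := by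
  have k0 : 0 < k := by linarith
  have M2 : M ≤ M ^ 2 := le_self_pow₀ hM two_ne_zero
  have n3 : ‖((k ^ 3 : ℝ) : ℂ)‖ = k ^ 3 := by rw [Complex.norm_real, Real.norm_of_nonneg]; positivity
  have pw : ∀ m n : ℕ, m ≤ n → M * k ^ m ≤ M ^ 2 * k ^ n := fun m n h =>
    mul_le_mul M2 (pow_le_pow_right₀ hk h) (by positivity) (by positivity)
  have T : ∀ i j, ‖a2 i j + (k ^ 3 : ℝ) * (a1 i * p1 j + a1 j * p1 i + a * p2 i j)‖ ≤
      4 * (M ^ 2 * k ^ 5) := fun i j => by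
    have b : ‖a1 i * p1 j + a1 j * p1 i + a * p2 i j‖ ≤ M * k ^ 2 * M + M * k ^ 2 * M + 1 * M := by
      refine norm_add₃_le.trans ?_
      simp only [norm_mul]
      gcongr <;> first | exact h1 _ | exact h3 _ | exact h4 _ _
    have b2 := mul_le_mul_of_nonneg_left b (pow_pos k0 3).le
    refine (norm_add_le _ _).trans ?_
    rw [norm_mul, n3]
    linarith [h2 i j, pw 4 5 (by norm_num), pw 3 5 (by norm_num)]
  have q : ∀ z : ℂ, ‖z‖ ≤ M / k ^ 2 → ‖((k ^ 3 : ℝ) : ℂ) * a * z‖ ≤ M * k := fun z hz => by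
    rw [norm_mul, norm_mul, n3]
    calc _ ≤ k ^ 3 * 1 * (M / k ^ 2) := by gcongr
      _ = _ := by field_simp
  refine ⟨?_, fun i => ?_, fun j => ?_, ?_⟩
  · have := bdb_sum (t := fun _ => 1) (by simp) fun j => T j j
    have b := mul_le_mul_of_nonneg_left (q _ h5) (pow_pos k0 3).le
    rw [← n3, ← norm_mul, n3] at b
    refine le_trans (le_of_eq (congrArg _ ?_)) ((norm_add_le_of_le this b).trans ?_)
    · simp only [e2, Fin.sum_univ_three]; push_cast; ring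
    · linarith [pw 4 5 (by norm_num)]
  · have := bdb_sum ht fun j => T i j
    have b := mul_le_mul (mul_le_mul_of_nonneg_left (q _ h6) (pow_pos k0 3).le) (h3 i)
      (norm_nonneg _) (by positivity)
    rw [← n3, ← norm_mul, ← norm_mul, n3] at b
    refine le_trans (le_of_eq (congrArg _ ?_)) ((norm_add_le_of_le this b).trans ?_)
    · simp only [e2, Fin.sum_univ_three]; push_cast; ring
    · linarith [mul_le_mul_of_nonneg_left (pow_le_pow_right₀ hk (show 4 ≤ 5 by norm_num)) (sq_nonneg M)]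
  · have b : ‖((k ^ 3 : ℝ) : ℂ) * a * p1 j‖ ≤ k ^ 3 * 1 * M := by
      rw [norm_mul, norm_mul, n3]
      gcongr
      exact h3 j
    rw [e1]
    refine (norm_add_le_of_le (h1 j) b).trans ?_
    linarith [pw 2 3 (by norm_num), pw 3 3 le_rfl, mul_pos (pow_pos (one_pos.trans_le hM) 2) (pow_pos k0 3)]
  · refine le_trans (le_of_eq (congrArg _ ?_)) ((norm_add_le_of_le (bdb_sum ht h1) (q _ h6)).trans ?_)
    · simp only [e1, Fin.sum_univ_three]; ring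
    · linarith [pw 2 2 le_rfl, pw 1 2 (by norm_num), mul_pos (pow_pos (one_pos.trans_le hM) 2) (pow_pos k0 2)]

lemma bdb_abs {v : E3} (hv : ‖v‖ = 1) (j : Fin 3) : |v j| ≤ 1 :=
  hv ▸ PiLp.norm_apply_le v j

lemma bdb_inner (v w : E3) : ⟪v, w⟫ = v 0 * w 0 + v 1 * w 1 + v 2 * w 2 := by
  simp [PiLp.inner_apply, Fin.sum_univ_three, mul_comm]

lemma bdb_geo {ν ξ t : E3} (h1 : ‖ν‖ = 1) (h2 : ‖ξ‖ = 1) (h3 : ‖t‖ = 1) (o1 : ⟪ν, ξ⟫ = 0)
    (o2 : ⟪ν, t⟫ = 0) (o3 : ⟪ξ, t⟫ = 0) {r : Fin 3 → ℝ} {B : ℝ} (hB : B ≤ 1)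
    (hr : ∀ j, |r j - ν j| ≤ B) {p : Fin 3 → ℂ} (hp : ∀ j, p j = Complex.I * ξ j - r j) :
    (∀ j, ‖p j‖ ≤ 3) ∧ ‖∑ j, p j * p j‖ ≤ 15 * B ∧ ‖∑ j, (t j : ℂ) * p j‖ ≤ 15 * B := by
  have B0 : 0 ≤ B := (abs_nonneg _).trans (hr 0)
  have a : ∀ j, ‖Complex.I * ξ j - ν j‖ ≤ 2 := fun j => by
    refine (norm_sub_le _ _).trans ?_
    simp only [norm_mul, Complex.norm_I, Complex.norm_real, Real.norm_eq_abs]
    linarith [bdb_abs h1 j, bdb_abs h2 j]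
  have d : ∀ j, ‖((ν j - r j : ℝ) : ℂ)‖ ≤ B := fun j => by
    rw [Complex.norm_real, Real.norm_eq_abs, abs_sub_comm]; exact hr j
  have b : ∀ j, ‖p j‖ ≤ 3 := fun j => by
    rw [hp, show Complex.I * ξ j - r j = Complex.I * ξ j - ν j + ((ν j - r j : ℝ) : ℂ) by
      push_cast; ring]
    exact (norm_add_le_of_le (a j) (d j)).trans (by linarith)
  have n1 := real_inner_self_eq_norm_sq ν
  have n2 := real_inner_self_eq_norm_sq ξ
  rw [h1] at n1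
  rw [h2, ← n1] at n2
  simp only [bdb_inner] at n2 o1 o2 o3
  have c0 := congrArg Complex.ofReal n2
  have c1 := congrArg Complex.ofReal o1
  have c2 := congrArg Complex.ofReal o2
  have c3 := congrArg Complex.ofReal o3
  push_cast at c0 c1 c2 c3
  refine ⟨b, ?_, ?_⟩
  · have := bdb_sum (t := fun _ => 1) (by simp) (B := B * 5) fun j =>
      show ‖((ν j - r j : ℝ) : ℂ) * (Complex.I * ξ j - ν j + p j)‖ ≤ _ by
        rw [norm_mul]
        exact mul_le_mul (d j) ((norm_add_le_of_le (a j) (b j)).trans (by norm_num))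
          (norm_nonneg _) B0
    refine le_trans (le_of_eq (congrArg _ ?_)) (this.trans (by linarith))
    simp only [hp, Fin.sum_univ_three]
    push_cast
    linear_combination (-1 : ℂ) * c0 - 2 * Complex.I * c1 +
      ((ξ 0 : ℂ) ^ 2 + (ξ 1 : ℂ) ^ 2 + (ξ 2 : ℂ) ^ 2) * Complex.I_sq
  · refine le_trans (le_of_eq (congrArg _ ?_)) ((bdb_sum (bdb_abs h3) d).trans (by linarith))
    simp only [hp, Fin.sum_univ_three]
    push_cast
    linear_combination Complex.I * c3 - c2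

lemma bdb_frame {ν : E3} (h : ‖ν‖ = 1) : ∃ ξ t : E3, ‖ξ‖ = 1 ∧ ‖t‖ = 1 ∧ ⟪ν, ξ⟫ = 0 ∧ ⟪ν, t⟫ = 0 ∧
    ⟪ξ, t⟫ = 0 := by
  obtain ⟨b, hb⟩ := Orthonormal.exists_orthonormalBasis_extension_of_card_eq (𝕜 := ℝ)
    (ι := Fin 3) (v := fun _ => ν) (s := {0}) (by simp)
    ⟨fun _ => h, fun i j hij => absurd (Subsingleton.elim i j) hij⟩
  have e := hb 0 rfl
  exact ⟨b 1, b 2, b.orthonormal.1 _, b.orthonormal.1 _, e ▸ b.orthonormal.2 (by decide),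
    e ▸ b.orthonormal.2 (by decide), b.orthonormal.2 (by decide)⟩

lemma bdb_bound {ι : Type} [Fintype ι] {F : ι → E3 → ℝ} (hF : ∀ i, Continuous (F i)) (y : E3) :
    ∃ M, 1 ≤ M ∧ ∀ i, ∀ x ∈ closedBall y 1, |F i x| ≤ M := by
  obtain ⟨M, h0, h⟩ := exists_bound_of_cont (Ω := closedBall y 1) isBounded_closedBall
    (a := fun x => ∑ i, |F i x|) (continuous_finsetSum _ fun i _ => (hF i).abs)
  refine ⟨M + 1, by linarith, fun i x hx => ?_⟩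
  have := Finset.single_le_sum (f := fun i => |F i x|) (fun _ _ => abs_nonneg _) (Finset.mem_univ i)
  linarith [le_abs_self (∑ i, |F i x|), h x hx]

lemma bdb_lip {f : E3 → ℝ} (hf : ContDiff ℝ ∞ f) {y : E3} {M : ℝ}
    (h : ∀ j, ∀ x ∈ closedBall y 1, |pd j f x| ≤ M) {x : E3} (hx : x ∈ closedBall y 1) :
    |f x - f y| ≤ 3 * M * ‖x - y‖ := by
  have M0 : 0 ≤ M := (abs_nonneg _).trans (h 0 x hx)
  refine (convex_closedBall y 1).norm_image_sub_le_of_norm_fderiv_le (𝕜 := ℝ)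
    (fun z _ => hf.differentiable (by simp) z) (fun z hz => ?_) (mem_closedBall_self zero_le_one) hx
  refine ContinuousLinearMap.opNorm_le_bound _ (by positivity) fun v => ?_
  rw [fderiv_eq_sum_pd]
  refine (norm_sum_le_of_le _ (n := fun _ => ‖v‖ * M) fun j _ => ?_).trans_eq (by simp; ring)
  rw [norm_mul]
  exact mul_le_mul (PiLp.norm_apply_le v j) (h j z hz) (norm_nonneg _) (norm_nonneg _)

/-- Rescaling. -/
def bdbSc (s : ℝ) (y : E3) (f : Sm ℝ) : Sm ℝ :=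
  ⟨fun x => (f : E3 → ℝ) (s • (x - y)),
    (smo f).comp ((contDiff_id.sub contDiff_const).const_smul s)⟩

lemma bdb_sc (s : ℝ) (y : E3) (f : Sm ℝ) (j : Fin 3) :
    (derS ℝ).d j (bdbSc s y f) = s • bdbSc s y ((derS ℝ).d j f) := by
  refine Subtype.ext (funext fun x => ?_)
  have := ((sdi f (s • (x - y))).hasFDerivAt.comp x
    (((hasFDerivAt_id x).sub_const y).const_smul s)).fderiv
  change fderiv ℝ ((f : E3 → ℝ) ∘ (s • fun x => id x - y)) x (ev j) =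
    s * fderiv ℝ (f : E3 → ℝ) (s • (x - y)) (ev j)
  rw [this]
  simp

/-- The phase. -/
def bdbPh (ξ y : E3) (ρ : Sm ℝ) : Sm ℂ :=
  algebraMap ℂ (Sm ℂ) Complex.I *
    toC ⟨fun x => ⟪ξ, x - y⟫, show ContDiff ℝ ∞ fun x => ⟪ξ, x - y⟫ from
      contDiff_const.inner ℝ (contDiff_id.sub contDiff_const)⟩ - toC ρ

lemma bdb_ph (ξ y : E3) (ρ : Sm ℝ) (j : Fin 3) : (derS ℂ).d j (bdbPh ξ y ρ) =
    algebraMap ℂ (Sm ℂ) (Complex.I * ξ j) - toC ((derS ℝ).d j ρ) := by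
  rw [bdbPh, map_sub, Der.d_mul, Der.d_alg, toC_d, toC_d, zero_mul, zero_add, map_mul]
  congr 2
  refine Subtype.ext (funext fun x => ?_)
  have := ((innerSL ℝ ξ).hasFDerivAt.comp x ((hasFDerivAt_id x).sub_const y)).fderiv
  change ((fderiv ℝ (innerSL ℝ ξ ∘ fun x => id x - y) x (ev j) : ℝ) : ℂ) = (ξ j : ℂ)
  rw [this]
  simp [EuclideanSpace.inner_single_right]

/-- The exponential. -/
def bdbEx (N : ℂ) (P : Sm ℂ) : Sm ℂ :=
  ⟨fun x => Complex.exp (N * (P : E3 → ℂ) x),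
    (Complex.contDiff_exp (𝕜 := ℝ)).comp (contDiff_const.mul (smo P))⟩

lemma bdb_ex (N : ℂ) (P : Sm ℂ) (j : Fin 3) :
    (derS ℂ).d j (bdbEx N P) = algebraMap ℂ (Sm ℂ) N * (derS ℂ).d j P * bdbEx N P := by
  refine Subtype.ext (funext fun x => ?_)
  have := ((sdi P x).hasFDerivAt.const_mul N).cexp.fderiv
  change fderiv ℝ (fun x => Complex.exp (N * (P : E3 → ℂ) x)) x (ev j) =
    N * fderiv ℝ (P : E3 → ℂ) x (ev j) * Complex.exp _
  rw [this]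
  simp [mul_comm]

lemma bdb_pd (L : ℂ →L[ℝ] ℝ) (f : Sm ℂ) (j : Fin 3) :
    pd j (fun x => L ((f : E3 → ℂ) x)) = fun x => L (((derS ℂ).d j f : E3 → ℂ) x) :=
  funext fun x => congrArg (fun T : E3 →L[ℝ] ℝ => T (ev j))
    (L.hasFDerivAt.comp x (sdi f x).hasFDerivAt).fderiv

/-- Real and imaginary part. -/
def bdbL : Fin 2 → ℂ →L[ℝ] ℝ := ![Complex.reCLM, Complex.imCLM]

lemma bdb_L (s : Fin 2) (z : ℂ) : |bdbL s z| ≤ ‖z‖ := by
  fin_cases s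
  exacts [Complex.abs_re_le_norm z, Complex.abs_im_le_norm z]

lemma bdb_Lt (s : Fin 2) (t : Fin 3 → ℝ) (z : Fin 3 → ℂ) (e : ℂ) {B : ℝ}
    (h : ‖∑ j, (t j : ℂ) * z j‖ ≤ B) : |∑ j, t j * bdbL s (z j * e)| ≤ B * ‖e‖ := by
  refine le_trans (le_of_eq (congrArg _ ?_)) ((bdb_L s ((∑ j, (t j : ℂ) * z j) * e)).trans ?_)
  · rw [Finset.sum_mul, map_sum]
    refine Finset.sum_congr rfl fun j _ => ?_
    rw [mul_assoc, ← Complex.real_smul, map_smul, smul_eq_mul]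
  · rw [norm_mul]
    exact mul_le_mul_of_nonneg_right h (norm_nonneg _)

lemma bdb_L1 (s : Fin 2) (z : Fin 3 → ℂ) (e : ℂ) {B : ℝ} (h : ‖∑ j, z j‖ ≤ B) :
    |∑ j, bdbL s (z j * e)| ≤ B * ‖e‖ := by
  simpa using bdb_Lt s (fun _ => 1) z e (by simpa using h)

/-- `E 0`, `E 1` are the real and imaginary parts of
`χ (k ^ 2 • (x - x₀)) * exp (k ^ 3 * (I * ⟪ξ, x - x₀⟫ - ρ x))`, with `ν, ξ, t` orthonormal. -/
theorem profile (c : Chart Ω x₀) : ∃ (t : E3) (C k₀ : ℝ), ‖t‖ = 1 ∧ 0 ≤ C ∧ ∀ k : ℝ, k₀ ≤ k →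
    ∃ E : Fin 2 → E3 → ℝ, (∀ s, ContDiff ℝ ∞ (E s)) ∧
      (∀ s, tsupport (E s) ⊆ ball x₀ (1 / k ^ 2)) ∧
      (∀ s x, |∑ j, pd j (pd j (E s)) x| ≤ C * k ^ 5 * Real.exp (-k ^ 3 * c.ρ x)) ∧
      (∀ s i x, |∑ j, t j * pd i (pd j (E s)) x| ≤ C * k ^ 5 * Real.exp (-k ^ 3 * c.ρ x)) ∧
      (∀ s j x, |pd j (E s) x| ≤ C * k ^ 3 * Real.exp (-k ^ 3 * c.ρ x)) ∧
      (∀ s x, |∑ j, t j * pd j (E s) x| ≤ C * k ^ 2 * Real.exp (-k ^ 3 * c.ρ x)) ∧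
      (∀ x ∈ ball x₀ (1 / (2 * k ^ 2)),
        (k ^ 3 * Real.exp (-k ^ 3 * c.ρ x)) ^ 2 ≤ ∑ s, ∑ j, pd j (E s) x ^ 2) := by
  obtain ⟨ξ, t, hξ, ht, o1, o2, o3⟩ := bdb_frame c.norm_ν
  let b : ContDiffBump (0 : E3) := ⟨1 / 2, 3 / 4, by norm_num, by norm_num⟩
  let χ : Sm ℝ := ⟨b, b.contDiff⟩
  let ρ : Sm ℝ := ⟨c.ρ, c.smooth⟩
  obtain ⟨M1, hM1, b1⟩ := bdb_bound (fun j => sco ((derS ℝ).d j χ)) 0
  obtain ⟨M2, hM2, b2⟩ := bdb_bound
    (fun q : Fin 3 × Fin 3 => sco ((derS ℝ).d q.1 ((derS ℝ).d q.2 χ))) 0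
  obtain ⟨M3, hM3, b3⟩ := bdb_bound
    (fun q : Fin 3 × Fin 3 => sco ((derS ℝ).d q.1 ((derS ℝ).d q.2 ρ))) x₀
  refine ⟨t, 13 * (M1 + M2 + 45 * M3) ^ 2, 3 * M3, ht, by positivity, fun k hk => ?_⟩
  have k1 : 1 ≤ k := by linarith
  have k2 : k ≤ k ^ 2 := le_self_pow₀ k1 two_ne_zero
  have k0 : 0 < k ^ 2 := by positivity
  obtain ⟨d1, d2⟩ := bdb_ring (derS ℂ) (A := toC (bdbSc (k ^ 2) x₀ χ))
    (fun j => Der.d_alg _ j _) (bdb_ex (k ^ 3 : ℝ) (bdbPh ξ x₀ ρ))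
  set e := bdbEx (k ^ 3 : ℝ) (bdbPh ξ x₀ ρ)
  have ne : ∀ x, ‖(e : E3 → ℂ) x‖ = Real.exp (-k ^ 3 * c.ρ x) := fun x => by
    change ‖Complex.exp ((k ^ 3 : ℝ) * (Complex.I * (⟪ξ, x - x₀⟫ : ℝ) - (c.ρ x : ℝ)))‖ = _
    rw [Complex.norm_exp, Complex.re_ofReal_mul]
    simp
  have nx : ∀ x : E3, ‖k ^ 2 • (x - x₀)‖ = k ^ 2 * dist x x₀ := fun x => by
    rw [norm_smul, Real.norm_of_nonneg k0.le, dist_eq_norm]
  let E : Fin 2 → E3 → ℝ := fun s x => bdbL s ((toC (bdbSc (k ^ 2) x₀ χ) * e : Sm ℂ).1 x)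
  have supp : ∀ s, tsupport (E s) ⊆ ball x₀ (1 / k ^ 2) := fun s => by
    refine (closure_minimal (fun x hx => ?_) isClosed_closedBall).trans
      (closedBall_subset_ball (show 3 / 4 / k ^ 2 < _ by gcongr; norm_num))
    by_contra hn
    have : b (k ^ 2 • (x - x₀)) = 0 := b.zero_of_le_dist (by
      rw [dist_zero_right, nx]
      exact (div_le_iff₀' k0).1 (not_le.1 hn).le)
    refine hx ?_
    change bdbL s ((b (k ^ 2 • (x - x₀)) : ℂ) * _) = 0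
    rw [this, Complex.ofReal_zero, zero_mul, map_zero]
  have main : ∀ s x, |∑ j, pd j (pd j (E s)) x| ≤
        13 * (M1 + M2 + 45 * M3) ^ 2 * k ^ 5 * Real.exp (-k ^ 3 * c.ρ x) ∧
      (∀ i, |∑ j, t j * pd i (pd j (E s)) x| ≤
        13 * (M1 + M2 + 45 * M3) ^ 2 * k ^ 5 * Real.exp (-k ^ 3 * c.ρ x)) ∧
      (∀ j, |pd j (E s) x| ≤ 13 * (M1 + M2 + 45 * M3) ^ 2 * k ^ 3 * Real.exp (-k ^ 3 * c.ρ x)) ∧
      |∑ j, t j * pd j (E s) x| ≤
        13 * (M1 + M2 + 45 * M3) ^ 2 * k ^ 2 * Real.exp (-k ^ 3 * c.ρ x) := fun s x => by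
    by_cases hx : x ∈ tsupport (E s)
    swap
    · have z1 : ∀ j, pd j (E s) x = 0 := fun j =>
        image_eq_zero_of_notMem_tsupport fun q => hx (tsupport_fderiv_apply_subset ℝ _ q)
      have z2 : ∀ i j, pd i (pd j (E s)) x = 0 := fun i j =>
        image_eq_zero_of_notMem_tsupport fun q =>
          hx (tsupport_fderiv_apply_subset ℝ _ (tsupport_fderiv_apply_subset ℝ _ q))
      simp only [z1, z2, mul_zero, Finset.sum_const_zero, abs_zero]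
      exact ⟨by positivity, fun _ => by positivity, fun _ => by positivity, by positivity⟩
    have x1 : dist x x₀ ≤ 1 / k ^ 2 := (supp s hx).le
    have x2 : x ∈ closedBall x₀ 1 := x1.trans (div_le_self zero_le_one (by linarith))
    have x3 : k ^ 2 • (x - x₀) ∈ closedBall (0 : E3) 1 := by
      rw [mem_closedBall_zero_iff, nx]
      exact (le_div_iff₀' k0).1 x1
    obtain ⟨g1, g2, g3⟩ := bdb_geo c.norm_ν hξ ht o1 o2 o3 (r := fun j => pd j c.ρ x)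
      (B := 3 * M3 / k ^ 2) ((div_le_one k0).2 (by linarith)) (fun j => by
        have := bdb_lip (contDiff_pd c.smooth j) (fun i => b3 (i, j)) x2
        rw [show pd j c.ρ x₀ = c.ν j from (c.grad _).trans (by
          simp [EuclideanSpace.inner_single_right]), ← dist_eq_norm] at this
        exact this.trans ((mul_le_mul_of_nonneg_left x1 (by positivity)).trans_eq (by ring)))
      (p := fun j => ((derS ℂ).d j (bdbPh ξ x₀ ρ)).1 x) fun j => by rw [bdb_ph]; rfl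
    have q : 15 * (3 * M3 / k ^ 2) ≤ (M1 + M2 + 45 * M3) / k ^ 2 := by
      rw [← mul_div_assoc]; gcongr; linarith
    obtain ⟨r1, r2, r3, r4⟩ := bdb_alg k1 (M := M1 + M2 + 45 * M3) (by linarith)
      (a := (toC (bdbSc (k ^ 2) x₀ χ)).1 x)
      (a1 := fun j => ((derS ℂ).d j (toC (bdbSc (k ^ 2) x₀ χ))).1 x)
      (a2 := fun i j => ((derS ℂ).d i ((derS ℂ).d j (toC (bdbSc (k ^ 2) x₀ χ)))).1 x)
      (p2 := fun i j => ((derS ℂ).d i ((derS ℂ).d j (bdbPh ξ x₀ ρ))).1 x) (bdb_abs ht)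
      (by
        change ‖(b (k ^ 2 • (x - x₀)) : ℂ)‖ ≤ 1
        rw [Complex.norm_real, Real.norm_of_nonneg b.nonneg]
        exact b.le_one)
      (fun j => by
        rw [toC_d, bdb_sc, toC_apply, Complex.norm_real]
        change ‖k ^ 2 * ((derS ℝ).d j χ).1 _‖ ≤ _
        rw [norm_mul, Real.norm_of_nonneg k0.le, mul_comm]
        exact mul_le_mul_of_nonneg_right ((b1 j _ x3).trans (by linarith)) k0.le)
      (fun i j => by
        rw [toC_d, toC_d, bdb_sc, Derivation.map_smul, bdb_sc, toC_apply, Complex.norm_real]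
        change ‖k ^ 2 * (k ^ 2 * ((derS ℝ).d i ((derS ℝ).d j χ)).1 _)‖ ≤ _
        rw [← mul_assoc, ← pow_add, norm_mul, Real.norm_of_nonneg (by positivity), mul_comm]
        exact mul_le_mul_of_nonneg_right ((b2 (i, j) _ x3).trans (by linarith)) (by positivity))
      (fun j => (g1 j).trans (by linarith))
      (fun i j => by
        rw [bdb_ph, map_sub, Der.d_alg, toC_d, zero_sub]
        change ‖-((((derS ℝ).d i ((derS ℝ).d j ρ)).1 x : ℝ) : ℂ)‖ ≤ _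
        rw [norm_neg, Complex.norm_real]
        exact (b3 (i, j) x x2).trans (by linarith))
      (g2.trans q) (g3.trans q) (fun _ => rfl) fun _ _ => rfl
    simp only [E, bdb_pd, d2, ← ne]
    simp only [d1]
    refine ⟨?_, fun i => bdb_Lt s t _ _ (r2 i), fun j => (bdb_L s _).trans ?_, bdb_Lt s t _ _ r4⟩
    · exact bdb_L1 s _ _ r1
    · exact (norm_mul _ _).trans_le (mul_le_mul_of_nonneg_right (r3 j) (norm_nonneg _))
  refine ⟨E, fun s => (bdbL s).contDiff.comp (smo _), supp, fun s x => (main s x).1,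
    fun s i x => (main s x).2.1 i, fun s j x => (main s x).2.2.1 j, fun s x => (main s x).2.2.2,
    fun x hx => ?_⟩
  have y : k ^ 2 • (x - x₀) ∈ ball (0 : E3) b.rIn := by
    rw [mem_ball_zero_iff, nx]
    exact (lt_div_iff₀' k0).1 ((mem_ball.1 hx).trans_eq (div_div _ _ _).symm)
  have n2 := real_inner_self_eq_norm_sq ξ
  rw [hξ, bdb_inner] at n2
  have f : ∀ j, (ξ j * (k ^ 3 * Real.exp (-k ^ 3 * c.ρ x))) ^ 2 ≤ ∑ s, pd j (E s) x ^ 2 := fun j => by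
    have z : ((derS ℂ).d j (toC (bdbSc (k ^ 2) x₀ χ) * e)).1 x =
        (k ^ 3 : ℝ) * (Complex.I * ξ j - (pd j c.ρ x : ℝ)) * e.1 x := by
      rw [d1, toC_d, bdb_sc, bdb_ph]
      change (((k ^ 2 * fderiv ℝ b (k ^ 2 • (x - x₀)) (ev j) : ℝ) : ℂ) +
        (k ^ 3 : ℝ) * (b (k ^ 2 • (x - x₀)) : ℝ) * (Complex.I * ξ j - (pd j c.ρ x : ℝ))) * e.1 x = _
      rw [(b.eventuallyEq_one_of_mem_ball y).fderiv_eq, b.one_of_mem_closedBall (ball_subset_closedBall y)]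
      simp
    simp only [E, bdb_pd, z, Fin.sum_univ_two]
    change _ ≤ Complex.re _ ^ 2 + Complex.im _ ^ 2
    rw [sq (Complex.re _), sq (Complex.im _), ← Complex.normSq_apply, Complex.normSq_eq_norm_sq,
      norm_mul, norm_mul, ne, Complex.norm_real, Real.norm_of_nonneg (by positivity), ← sq_abs,
      abs_mul, abs_of_nonneg (show 0 ≤ k ^ 3 * _ by positivity), mul_left_comm, ← mul_assoc]
    gcongr
    simpa using Complex.abs_im_le_norm (Complex.I * ξ j - (pd j c.ρ x : ℝ))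
  rw [Finset.sum_comm]
  refine le_trans (le_of_eq ?_) (Finset.sum_le_sum fun j _ => f j)
  rw [Fin.sum_univ_three]
  linear_combination -(k ^ 3 * Real.exp (-k ^ 3 * c.ρ x)) ^ 2 * n2

end Vale.Agent.P136
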