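import Vale.Agent.P136.BdB

/-!
# Boundary determination of the shear modulus
-/

open MeasureTheory Set Metric
open scoped ContDiff RealInnerProductSpace

noncomputable section

namespace Vale.Agent.P136

variable {Ω : Set E3}

lemma bdc_alg {K R : Type*} [CommRing K] [CommRing R] [Algebra K R] (X : Der K R) (L : Lame R)
    (t : Fin 3 → K) (e : R) (i : Fin 3) :
    X.Lop L (fun i => algebraMap K R (t i) * e) i =
      X.d i L.lam * ∑ j, algebraMap K R (t j) * X.d j e +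
        (L.lam + L.mu) * ∑ j, algebraMap K R (t j) * X.d i (X.d j e) +
          L.mu * (algebraMap K R (t i) * ∑ j, X.d j (X.d j e)) +
            ∑ j, X.d j L.mu * (algebraMap K R (t i) * X.d j e + algebraMap K R (t j) * X.d i e) := by
  fin_cases i <;>
    simp only [Der.Lop, Der.sig, Der.div, Fin.sum_univ_three, Der.d_mul, map_add, Der.d_alg,
      X.c10, X.c20, X.c21, Fin.isValue, Fin.zero_eta, Fin.mk_one, Fin.reduceFinMk, Fin.reduceEq,
      if_true, if_false, zero_add, zero_mul, zero_ne_one, one_ne_zero, map_zero] <;> ring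

/-- The field `t e`. -/
def bdcV (t : E3) (e : Sm ℝ) (i : Fin 3) : Sm ℝ := algebraMap ℝ (Sm ℝ) (t i) * e

lemma bdc_pd (t : E3) (e : Sm ℝ) (i j : Fin 3) (x : E3) :
    pd j (bdcV t e i) x = t i * pd j e x := by
  rw [← derS_pd, bdcV, Der.d_mul, Der.d_alg, zero_mul, zero_add]
  rfl

lemma bdc_eval (L : Lame (Sm ℝ)) (t : E3) (e : Sm ℝ) (i : Fin 3) (x : E3) :
    ((derS ℝ).Lop L (bdcV t e) i : E3 → ℝ) x =
      pd i (L.lam : Sm ℝ) x * ∑ j, t j * pd j e x +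
        ((L.lam : E3 → ℝ) x + (L.mu : E3 → ℝ) x) * ∑ j, t j * pd i (pd j e) x +
          (L.mu : E3 → ℝ) x * (t i * ∑ j, pd j (pd j e) x) +
            ∑ j, pd j (L.mu : Sm ℝ) x * (t i * pd j e x + t j * pd i e x) := by
  have h := bdc_alg (derS ℝ) L (fun i => t i) e i
  simp only [Fin.sum_univ_three] at h ⊢
  exact congrArg (fun f : Sm ℝ => (f : E3 → ℝ) x) h

lemma bdc_mul {a b A B : ℝ} (ha : |a| ≤ A) (hb : |b| ≤ B) : |a * b| ≤ A * B := by
  rw [abs_mul]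
  exact mul_le_mul ha hb (abs_nonneg _) ((abs_nonneg _).trans ha)

lemma bdc_add {a b A B : ℝ} (ha : |a| ≤ A) (hb : |b| ≤ B) : |a + b| ≤ A + B :=
  (abs_add_le _ _).trans (add_le_add ha hb)

lemma bdc_sum {f : Fin 3 → ℝ} {A : ℝ} (h : ∀ j, |f j| ≤ A) : |∑ j, f j| ≤ 3 * A := by
  rw [Fin.sum_univ_three]
  exact (bdc_add (bdc_add (h 0) (h 1)) (h 2)).trans (le_of_eq (by ring))

lemma bdc_t {t : E3} (ht : ‖t‖ = 1) (i : Fin 3) : |t i| ≤ 1 := ht ▸ PiLp.norm_apply_le t i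

lemma bdc_lop (hb : Bornology.IsBounded Ω) (L : Lame (Sm ℝ)) : ∃ A, 0 ≤ A ∧
    ∀ (t : E3) (e : Sm ℝ) (β : ℝ), ‖t‖ = 1 → ∀ x ∈ Ω, |∑ j, pd j (pd j e) x| ≤ β →
      (∀ i, |∑ j, t j * pd i (pd j e) x| ≤ β) → (∀ j, |pd j e x| ≤ β) →
        ∀ i, |((derS ℝ).Lop L (bdcV t e) i : E3 → ℝ) x| ≤ A * β := by
  obtain ⟨M1, p1, h1⟩ := exists_bound_of_cont hb (sco L.lam)
  obtain ⟨M2, p2, h2⟩ := exists_bound_of_cont hb (sco L.mu)
  choose M3 p3 h3 using fun j => exists_bound_of_cont hb (contDiff_pd (smo L.lam) j).continuous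
  choose M4 p4 h4 using fun j => exists_bound_of_cont hb (contDiff_pd (smo L.mu) j).continuous
  have q3 : ∀ j, M3 j ≤ ∑ j, M3 j := fun j =>
    Finset.single_le_sum (fun j _ => p3 j) (Finset.mem_univ j)
  have q4 : ∀ j, M4 j ≤ ∑ j, M4 j := fun j =>
    Finset.single_le_sum (fun j _ => p4 j) (Finset.mem_univ j)
  have r3 := (p3 0).trans (q3 0)
  have r4 := (p4 0).trans (q4 0)
  refine ⟨3 * ∑ j, M3 j + M1 + 2 * M2 + 6 * ∑ j, M4 j, by positivity,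
    fun t e β ht x hx b1 b2 b3 i => ?_⟩
  rw [bdc_eval]
  refine (bdc_add (bdc_add (bdc_add
    (bdc_mul ((h3 i x hx).trans (q3 i)) (bdc_sum fun j => bdc_mul (bdc_t ht j) (b3 j)))
    (bdc_mul (bdc_add (h1 x hx) (h2 x hx)) (b2 i)))
    (bdc_mul (h2 x hx) (bdc_mul (bdc_t ht i) b1)))
    (bdc_sum fun j => bdc_mul ((h4 j x hx).trans (q4 j))
      (bdc_add (bdc_mul (bdc_t ht i) (b3 j)) (bdc_mul (bdc_t ht j) (b3 i))))).trans (le_of_eq ?_)
  ring

lemma bdc_ts (f : E3 → ℝ) (j : Fin 3) : tsupport (pd j f) ⊆ tsupport f :=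
  tsupport_fderiv_apply_subset ℝ _

lemma bdc_pd0 {f : E3 → ℝ} {x : E3} (h : x ∉ tsupport f) (j : Fin 3) : pd j f x = 0 :=
  image_eq_zero_of_notMem_tsupport fun h' => h (bdc_ts f j h')

lemma bdc_int (hb : Bornology.IsBounded Ω) {f : E3 → ℝ} (hf : Continuous f) : IntegrableOn f Ω :=
  (hf.continuousOn.integrableOn_compact hb.isCompact_closure).mono_set subset_closure

lemma bdc_vol (Ω : Set E3) (x₀ : E3) {k : ℝ} (hk : 0 < k) :
    volume.real (Ω ∩ ball x₀ (1 / k ^ 2)) ≤ volume.real (ball (0 : E3) 1) / k ^ 6 := by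
  refine (measureReal_mono (inter_subset_right.trans ball_subset_closedBall)
    measure_closedBall_lt_top.ne).trans (le_of_eq ?_)
  rw [Measure.addHaar_real_closedBall _ _ (by positivity), finrank_euclideanSpace_fin]
  field_simp

/-- The bounds for one profile. -/
def bdcP {x₀ : E3} (c : Chart Ω x₀) (t : E3) (C k : ℝ) (e : E3 → ℝ) : Prop :=
  tsupport e ⊆ ball x₀ (1 / k ^ 2) ∧
    (∀ x, |∑ j, pd j (pd j e) x| ≤ C * k ^ 5 * Real.exp (-k ^ 3 * c.ρ x)) ∧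
    (∀ i x, |∑ j, t j * pd i (pd j e) x| ≤ C * k ^ 5 * Real.exp (-k ^ 3 * c.ρ x)) ∧
    (∀ j x, |pd j e x| ≤ C * k ^ 3 * Real.exp (-k ^ 3 * c.ρ x)) ∧
    ∀ x, |∑ j, t j * pd j e x| ≤ C * k ^ 2 * Real.exp (-k ^ 3 * c.ρ x)

lemma bdc_res (hb : Bornology.IsBounded Ω) (ho : IsOpen Ω) {x₀ : E3} (c : Chart Ω x₀)
    (L : Lame (Sm ℝ)) {t : E3} (ht : ‖t‖ = 1) {C : ℝ} (hC : 0 ≤ C) : ∃ B, 0 ≤ B ∧
      ∀ k : ℝ, 1 ≤ k → 1 / k ^ 2 ≤ c.r / 2 → ∀ e : Sm ℝ, bdcP c t C k e →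
        ∀ φ : Fin 3 → E3 → ℝ, (∀ i, IsTest Ω (φ i)) →
          |form Ω (L.lam : Sm ℝ) (L.mu : Sm ℝ) (gr fun i => bdcV t e i) (gr φ)| ≤
            B / k * √(∑ i, ∑ j, ∫ x in Ω, pd j (φ i) x ^ 2) := by
  obtain ⟨A, hA, h1⟩ := bdc_lop hb L
  obtain ⟨H, hH, h2⟩ := hardy hb ho c
  refine ⟨3 * (√(volume.real (ball (0 : E3) 1)) * (A * C) * √H), by positivity,
    fun k hk hr e he φ hφ => ?_⟩
  have k0 : 0 < k := by linarith
  have k3 : 1 ≤ k ^ 3 := one_le_pow₀ hk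
  have hDb : Bornology.IsBounded (Ω ∩ ball x₀ (1 / k ^ 2)) := hb.subset inter_subset_left
  have hDm : MeasurableSet (Ω ∩ ball x₀ (1 / k ^ 2)) := ho.measurableSet.inter measurableSet_ball
  have hρ := c.smooth.continuous
  obtain ⟨S, hS⟩ : ∃ S, S = ∑ i, ∑ j, ∫ x in Ω, pd j (φ i) x ^ 2 := ⟨_, rfl⟩
  have hS1 : ∀ i, ∑ j, ∫ x in Ω, pd j (φ i) x ^ 2 ≤ S := fun i => hS ▸
    Finset.single_le_sum (f := fun i => ∑ j, ∫ x in Ω, pd j (φ i) x ^ 2)
      (fun i _ => Finset.sum_nonneg fun j _ => integral_nonneg fun x => sq_nonneg _)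
      (Finset.mem_univ i)
  have S0 : 0 ≤ S := hS ▸ Finset.sum_nonneg fun i _ => Finset.sum_nonneg fun j _ =>
    integral_nonneg fun x => sq_nonneg _
  rw [form_smooth L _ hφ, abs_neg, integral_finset_sum _ fun i _ =>
    (hφ i).integrable_mul (sco _) _, ← hS]
  refine (bdc_sum (A := √(volume.real (ball (0 : E3) 1)) * (A * C) * √H / k * √S)
    fun i => ?_).trans (le_of_eq (by ring))
  rw [setIntegral_eq_of_subset_of_forall_sdiff_eq_zero ho.measurableSet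
    (inter_subset_left (t := ball x₀ (1 / k ^ 2))) fun x hx => ?_]
  swap
  · have hx' : x ∉ tsupport (e : E3 → ℝ) := fun h => hx.2 ⟨hx.1, he.1 h⟩
    have z : ∀ i j, pd i (pd j e) x = 0 := fun i j => bdc_pd0 (fun h => hx' (bdc_ts _ j h)) i
    have := h1 t e 0 ht x hx.1 (by simp [z]) (fun i => by simp [z])
      (fun j => by simp [bdc_pd0 hx']) i
    rw [mul_zero, abs_nonpos_iff] at this
    rw [this, zero_mul]
  have w1 := WB.of_bound (ξ := 0) hDb hDm (b := A * C * k ^ 5)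
    (f := fun x => ((derS ℝ).Lop L (bdcV t e) i : E3 → ℝ) x * Real.exp (k ^ 3 * c.ρ x))
    ((sco _).mul (by fun_prop)) (by positivity) fun x hx => by
      have a1 := h1 t e _ ht x hx.1 (he.2.1 x) (fun i => he.2.2.1 i x) (fun j =>
        (he.2.2.2.1 j x).trans (mul_le_mul_of_nonneg_right (mul_le_mul_of_nonneg_left
          (pow_le_pow_right₀ hk (by norm_num)) hC) (Real.exp_pos _).le)) i
      refine (bdc_mul a1 (abs_of_pos (Real.exp_pos _)).le).trans (le_of_eq ?_)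
      rw [inner_zero_left, Real.exp_zero, mul_assoc, mul_assoc, ← Real.exp_add]
      simp [mul_assoc]
  have w2 : WB (Ω ∩ ball x₀ (1 / k ^ 2)) (-0) (fun x => Real.exp (-k ^ 3 * c.ρ x) * φ i x)
      (√H / k ^ 3 * √S) := by
    have hφc := (hφ i).1.continuous
    refine ⟨by positivity, memLp_of_cont hDb (by fun_prop), ?_⟩
    have a1 := h2 (2 * k ^ 3) (by linarith) (φ i) (hφ i)
    rw [setIntegral_congr_fun hDm (g := fun x => Real.exp (-(2 * k ^ 3) * c.ρ x) * φ i x ^ 2)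
      fun x _ => by
        simp only [neg_zero, inner_zero_left, Real.exp_zero, one_mul, mul_pow]
        rw [← Real.exp_nat_mul]
        refine congrArg (fun y => Real.exp y * φ i x ^ 2) ?_
        push_cast
        ring]
    refine (setIntegral_mono_set (bdc_int (hb.subset inter_subset_left) (by fun_prop))
      (Filter.Eventually.of_forall fun x => by positivity)
      (inter_subset_inter_right _ (ball_subset_ball hr)).eventuallyLE).trans (a1.trans ?_)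
    rw [mul_pow (_ / _), div_pow, Real.sq_sqrt hH, Real.sq_sqrt S0]
    exact mul_le_mul (div_le_div_of_nonneg_left hH (by positivity) (by nlinarith)) (hS1 i)
      (Finset.sum_nonneg fun j _ => integral_nonneg fun x => sq_nonneg _) (by positivity)
  have w3 := WB.pair hDb hDm w1 w2
  refine abs_integral_le_integral_abs.trans ((le_of_eq ?_).trans (w3.trans ?_))
  · refine setIntegral_congr_fun hDm fun x _ => ?_
    beta_reduce
    rw [mul_assoc, ← mul_assoc (Real.exp _), ← Real.exp_add]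
    simp
  · have a2 : √(volume.real (Ω ∩ ball x₀ (1 / k ^ 2))) ≤
        √(volume.real (ball (0 : E3) 1)) / k ^ 3 := by
      refine (Real.sqrt_le_sqrt (bdc_vol Ω x₀ k0)).trans (le_of_eq ?_)
      rw [Real.sqrt_div' _ (by positivity), show k ^ 6 = (k ^ 3) ^ 2 by ring,
        Real.sqrt_sq (by positivity)]
    refine (mul_le_mul_of_nonneg_right (mul_le_mul_of_nonneg_right a2 (by positivity))
      (by positivity)).trans (le_of_eq ?_)
    field_simp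

lemma bdc_form (hb : Bornology.IsBounded Ω) (hm : MeasurableSet Ω) {lam mu : E3 → ℝ}
    (hl : Continuous lam) (hmu : Continuous mu) : ∃ C, 0 ≤ C ∧
      ∀ (G g₁ g₂ : Fin 3 → Fin 3 → E3 → ℝ) (X b : ℝ), (∀ i j, WB Ω 0 (G i j) X) →
        (∀ i j, WB Ω 0 (fun x => G i j x - g₁ i j x) b) →
        (∀ i j, WB Ω 0 (fun x => G i j x - g₂ i j x) b) →
        |form Ω lam mu G G - form Ω lam mu g₁ g₂| ≤ C * (b * (2 * X + b)) := by
  obtain ⟨C, hC, h⟩ := form_bound hb hm hl hmu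
  refine ⟨C, hC, fun G g₁ g₂ X b hG h1 h2 => ?_⟩
  have a1 : ∀ i j, WB Ω 0 (g₁ i j) (X + b) := fun i j =>
    ((hG i j).sub hb hm (h1 i j)).congr hm fun x _ => sub_sub_cancel _ _
  have a2 : ∀ i j, WB Ω 0 (g₂ i j) (X + b) := fun i j =>
    ((hG i j).sub hb hm (h2 i j)).congr hm fun x _ => sub_sub_cancel _ _
  have e1 := form_sub_left hb hm hl hmu (fun i j => (hG i j).2.1) (fun i j => (a1 i j).2.1)
    fun i j => (a2 i j).2.1
  have e2 := form_sub_left hb hm hl hmu (fun i j => (hG i j).2.1) (fun i j => (a2 i j).2.1)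
    fun i j => (hG i j).2.1
  have b1 := h 0 _ g₂ b (X + b) h1 (by rwa [neg_zero])
  have b2 := h 0 _ G b X h2 (by rwa [neg_zero])
  rw [e1] at b1
  rw [e2, form_symm (A := g₂)] at b2
  refine (le_of_eq ?_).trans ((bdc_add b1 b2).trans (le_of_eq (by ring)))
  exact congrArg _ (by ring)

lemma bdc_sym {t : E3} (ht : ‖t‖ = 1) (p : Fin 3 → ℝ) :
    ∑ j, p j ^ 2 ≤ 2 * ∑ i, ∑ j, ((t i * p j + t j * p i) / 2) * ((t i * p j + t j * p i) / 2) := by
  have h := EuclideanSpace.real_norm_sq_eq t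
  rw [ht, one_pow] at h
  simp only [Fin.sum_univ_three] at h ⊢
  nlinarith [sq_nonneg (t 0 * p 0 + t 1 * p 1 + t 2 * p 2),
    congrArg (· * (p 0 ^ 2 + p 1 ^ 2 + p 2 ^ 2)) h]

lemma bdc_num {d K K' k X : ℝ} (hd : 0 < d) (hk : 0 < k)
    (h : d * X ^ 2 ≤ K / k * X + K' / k ^ 2) : X ^ 2 ≤ (K ^ 2 / d ^ 2 + 2 * K' / d) / k ^ 2 := by
  have h1 : d * (k * X) ^ 2 ≤ K * (k * X) + K' := by
    have := mul_le_mul_of_nonneg_left h (sq_nonneg k)
    refine (le_of_eq (by ring)).trans (this.trans (le_of_eq ?_))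
    field_simp
  rw [le_div_iff₀ (by positivity), ← mul_pow, mul_comm X,
    show K ^ 2 / d ^ 2 + 2 * K' / d = (K ^ 2 + 2 * d * K') / d ^ 2 by field_simp,
    le_div_iff₀ (by positivity)]
  nlinarith [sq_nonneg (d * (k * X) - K), mul_le_mul_of_nonneg_left h1 hd.le]

lemma bdc_one (hb : Bornology.IsBounded Ω) (ho : IsOpen Ω) (L₁ L₂ : Lame (Sm ℝ))
    (h₁ : Admissible Ω (L₁.lam : Sm ℝ) (L₁.mu : Sm ℝ))
    (h₂ : Admissible Ω (L₂.lam : Sm ℝ) (L₂.mu : Sm ℝ))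
    (h : Aless0 Ω (L₁.lam : Sm ℝ) (L₁.mu : Sm ℝ) (L₂.lam : Sm ℝ) (L₂.mu : Sm ℝ))
    {x₀ : E3} (c : Chart Ω x₀) {t : E3} (ht : ‖t‖ = 1) {C : ℝ} (hC : 0 ≤ C) {d δ : ℝ} (hd : 0 < d)
    (hδ : ∀ x ∈ ball x₀ δ, d ≤ (L₁.mu : E3 → ℝ) x - (L₂.mu : E3 → ℝ) x) : ∃ K : ℝ,
      ∀ k : ℝ, 1 ≤ k → 1 / k ^ 2 ≤ c.r / 2 → 1 / k ^ 2 ≤ δ → ∀ e : Sm ℝ, bdcP c t C k e →
        ∫ x in Ω, ∑ j, pd j e x ^ 2 ≤ K / k ^ 2 := by
  have hm := ho.measurableSet
  obtain ⟨B1, p1, r1⟩ := bdc_res hb ho c L₁ ht hC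
  obtain ⟨B2, p2, r2⟩ := bdc_res hb ho c L₂ ht hC
  obtain ⟨C1, q1, s1⟩ := dirichlet ho hb h₁
  obtain ⟨C2, q2, s2⟩ := dirichlet ho hb h₂
  obtain ⟨D1, u1, f1⟩ := bdc_form hb hm (sco L₁.lam) (sco L₁.mu)
  obtain ⟨D2, u2, f2⟩ := bdc_form hb hm (sco L₂.lam) (sco L₂.mu)
  obtain ⟨M, hM, m1⟩ := exists_bound_of_cont hb ((sco L₁.lam).sub (sco L₂.lam))
  obtain ⟨b, hb'⟩ : ∃ b, b = C1 * B1 + C2 * B2 := ⟨_, rfl⟩
  refine ⟨(2 * (D1 + D2) * b) ^ 2 / d ^ 2 +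
    2 * ((D1 + D2) * b ^ 2 + M * (C ^ 2 * volume.real (ball (0 : E3) 1))) / d,
    fun k hk hr hδ' e he => ?_⟩
  have k0 : 0 < k := by linarith
  have hV : ∀ i, ContDiff ℝ ∞ (bdcV t e i : E3 → ℝ) := fun i => smo _
  obtain ⟨v1, o1, -, w1⟩ := s1 (H1.ofSmooth hb _ hV) _ (by positivity) (r1 k hk hr e he)
  obtain ⟨v2, o2, -, w2⟩ := s2 (H1.ofSmooth hb _ hV) _ (by positivity) (r2 k hk hr e he)
  have cp : ∀ j, Continuous (pd j e) := fun j => (contDiff_pd (smo e) j).continuous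
  have I0 : 0 ≤ ∫ x in Ω, ∑ j, pd j e x ^ 2 :=
    integral_nonneg fun x => Finset.sum_nonneg fun j _ => sq_nonneg _
  have i1 : IntegrableOn (fun x => ∑ j, pd j e x ^ 2) Ω := bdc_int hb (by fun_prop)
  have i2 : IntegrableOn (fun x => (∑ j, t j * pd j e x) ^ 2) Ω := bdc_int hb (by fun_prop)
  obtain ⟨X, hX⟩ : ∃ X, X = √(∫ x in Ω, ∑ j, pd j e x ^ 2) := ⟨_, rfl⟩
  have X0 : 0 ≤ X := hX ▸ Real.sqrt_nonneg _
  have X2 : X ^ 2 = ∫ x in Ω, ∑ j, pd j e x ^ 2 := by rw [hX, Real.sq_sqrt I0]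
  have hG : ∀ i j, WB Ω 0 (gr (fun i => bdcV t e i) i j) X := fun i j => by
    have a1 : WB Ω 0 (pd j e) X := (WB.of_memLp (memLp_of_cont hb (cp j))).mono (by
      rw [hX]
      exact Real.sqrt_le_sqrt (setIntegral_mono_on (bdc_int hb (by fun_prop)) i1 hm fun x _ =>
        Finset.single_le_sum (f := fun j => pd j e x ^ 2) (fun j _ => sq_nonneg _)
          (Finset.mem_univ j)))
    have a2 := a1.mul_bdd hb hm (a := fun _ => t i) continuous_const zero_le_one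
      fun _ _ => bdc_t ht i
    rw [one_mul] at a2
    exact a2.congr hm fun x _ => (bdc_pd t e i j x).symm
  have l1 : C1 * (B1 / k) ≤ b / k := by
    rw [hb', ← mul_div_assoc]
    exact div_le_div_of_nonneg_right (le_add_of_nonneg_right (by positivity)) k0.le
  have l2 : C2 * (B2 / k) ≤ b / k := by
    rw [hb', ← mul_div_assoc]
    exact div_le_div_of_nonneg_right (le_add_of_nonneg_left (by positivity)) k0.le
  have g1 := f1 _ v1.grad v2.grad X _ hG (fun i j => (w1 i j).mono l1) fun i j => (w2 i j).mono l2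
  have g2 := f2 _ v1.grad v2.grad X _ hG (fun i j => (w1 i j).mono l1) fun i j => (w2 i j).mono l2
  rw [h v1 v2 o1 o2] at g1
  have n1 : ∫ x in Ω, (∑ j, t j * pd j e x) ^ 2 ≤
      C ^ 2 * volume.real (ball (0 : E3) 1) / k ^ 2 := by
    rw [setIntegral_eq_of_subset_of_forall_sdiff_eq_zero hm
      (inter_subset_left (t := ball x₀ (1 / k ^ 2))) fun x hx => by
        simp [bdc_pd0 fun h => hx.2 ⟨hx.1, he.1 h⟩]]
    refine (Real.le_norm_self _).trans ((norm_setIntegral_le_of_norm_le_const (C := (C * k ^ 2) ^ 2)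
      (hb.subset inter_subset_left).measure_lt_top fun x hx => ?_).trans
      ((mul_le_mul_of_nonneg_left (bdc_vol Ω x₀ k0) (by positivity)).trans (le_of_eq ?_)))
    · have a1 : 0 < c.ρ x :=
        (c.mem x (ball_subset_ball (hr.trans (half_le_self c.r_pos.le)) hx.2)).1 hx.1
      have a2 : Real.exp (-k ^ 3 * c.ρ x) ≤ 1 :=
        Real.exp_le_one_iff.2 (by rw [neg_mul, neg_nonpos]; positivity)
      rw [norm_pow]
      exact pow_le_pow_left₀ (norm_nonneg _) ((he.2.2.2.2 x).trans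
        (mul_le_of_le_one_right (by positivity) a2)) 2
    · field_simp
  have n2 : d * X ^ 2 - M * ∫ x in Ω, (∑ j, t j * pd j e x) ^ 2 ≤
      form Ω (L₁.lam : Sm ℝ) (L₁.mu : Sm ℝ) (gr fun i => bdcV t e i) (gr fun i => bdcV t e i) -
        form Ω (L₂.lam : Sm ℝ) (L₂.mu : Sm ℝ) (gr fun i => bdcV t e i)
          (gr fun i => bdcV t e i) := by
    have j1 := form_integrable hb hm (sco L₁.lam) (sco L₁.mu) (fun i j => (hG i j).2.1)
      fun i j => (hG i j).2.1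
    have j2 := form_integrable hb hm (sco L₂.lam) (sco L₂.mu) (fun i j => (hG i j).2.1)
      fun i j => (hG i j).2.1
    rw [X2, ← integral_const_mul, ← integral_const_mul,
      ← integral_sub (i1.const_mul d) (i2.const_mul M), form, form, ← integral_sub j1 j2]
    refine setIntegral_mono_on ((i1.const_mul d).sub (i2.const_mul M)) (j1.sub j2) hm
      fun x hx => ?_
    simp only [gr, bdc_pd]
    by_cases hx' : x ∈ tsupport (e : E3 → ℝ)
    · have a1 := hδ x (ball_subset_ball hδ' (he.1 hx'))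
      have a2 := bdc_sym ht fun j => pd j e x
      have a3 := (abs_le.1 (m1 x hx)).1
      have a4 : 0 ≤ ∑ j, pd j e x ^ 2 := Finset.sum_nonneg fun j _ => sq_nonneg _
      have a5 := mul_le_mul a1 a2 a4 (hd.le.trans a1)
      have a6 := mul_le_mul_of_nonneg_right a3 (sq_nonneg (∑ j, t j * pd j e x))
      simp only [Pi.sub_apply] at a6
      linarith
    · simp [bdc_pd0 hx']
  rw [← X2]
  refine bdc_num hd k0 ?_
  have n3 := mul_le_mul_of_nonneg_left n1 hM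
  have n4 := (abs_le.1 g1).2
  have n5 := (abs_le.1 g2).1
  refine le_trans (b := (D1 + D2) * (b / k * (2 * X + b / k)) +
    M * (C ^ 2 * volume.real (ball (0 : E3) 1) / k ^ 2)) (by linarith) (le_of_eq ?_)
  field_simp
  ring

theorem bdry_le (hΩ : SmoothDomain Ω) (L₁ L₂ : Lame (Sm ℝ))
    (h₁ : Admissible Ω (L₁.lam : Sm ℝ) (L₁.mu : Sm ℝ))
    (h₂ : Admissible Ω (L₂.lam : Sm ℝ) (L₂.mu : Sm ℝ))
    (h : Aless0 Ω (L₁.lam : Sm ℝ) (L₁.mu : Sm ℝ) (L₂.lam : Sm ℝ) (L₂.mu : Sm ℝ))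
    {x₀ : E3} (hx : x₀ ∈ frontier Ω) : (L₁.mu : E3 → ℝ) x₀ ≤ (L₂.mu : E3 → ℝ) x₀ := by
  by_contra hlt
  have ho := hΩ.1
  have hb := hΩ.2.1
  obtain ⟨c⟩ := exists_chart hΩ hx
  obtain ⟨t, C, k₀, ht, hC, hp⟩ := profile c
  obtain ⟨c₀, k₁, hc, hv⟩ := vol_lower c
  obtain ⟨d, hd'⟩ : ∃ d, d = ((L₁.mu : E3 → ℝ) x₀ - (L₂.mu : E3 → ℝ) x₀) / 2 := ⟨_, rfl⟩
  have hd : 0 < d := by linarith [not_le.1 hlt]
  obtain ⟨δ, δ0, hδ⟩ := Metric.isOpen_iff.1
    (isOpen_lt (continuous_const (y := d)) ((sco L₁.mu).sub (sco L₂.mu))) x₀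
    (show d < (L₁.mu : E3 → ℝ) x₀ - (L₂.mu : E3 → ℝ) x₀ by linarith)
  obtain ⟨K, hK⟩ := bdc_one hb ho L₁ L₂ h₁ h₂ h c ht hC hd fun x hx => le_of_lt (hδ hx)
  have r0 := c.r_pos
  obtain ⟨k, a1, a2, a3, a4, a5, a6⟩ : ∃ k : ℝ, 1 ≤ k ∧ k₀ ≤ k ∧ k₁ ≤ k ∧ 2 / c.r ≤ k ∧ 1 / δ ≤ k ∧
      2 * K / (Real.exp (-1) ^ 2 * c₀) < k := by
    have e := Filter.eventually_ge_atTop (α := ℝ)
    exact ((e 1).and ((e _).and ((e _).and ((e _).and ((e _).and
      (Filter.eventually_gt_atTop _)))))).exists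
  have k0 : 0 < k := by linarith
  have k2 : k ≤ k ^ 2 := by nlinarith
  have b1 : 1 / k ^ 2 ≤ c.r / 2 := by
    rw [div_le_iff₀ r0] at a4
    rw [div_le_div_iff₀ (by positivity) two_pos]
    nlinarith
  have b2 : 1 / k ^ 2 ≤ δ := by
    rw [div_le_iff₀ δ0] at a5
    rw [div_le_iff₀ (by positivity)]
    nlinarith
  obtain ⟨E, e1, e2, e3, e4, e5, e6, e7⟩ := hp k a2
  have b3 : ∀ s, ∫ x in Ω, ∑ j, pd j (E s) x ^ 2 ≤ K / k ^ 2 := fun s =>
    hK k a1 b1 b2 ⟨E s, e1 s⟩ ⟨e2 s, e3 s, e4 s, e5 s, e6 s⟩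
  have cp : ∀ s j, Continuous (pd j (E s)) := fun s j => (contDiff_pd (e1 s) j).continuous
  have i1 : IntegrableOn (fun x => ∑ s, ∑ j, pd j (E s) x ^ 2) Ω := bdc_int hb (by fun_prop)
  have hs : Ω ∩ ball x₀ (1 / (2 * k ^ 2)) ∩ {x | c.ρ x ≤ 1 / k ^ 3} ⊆ Ω :=
    inter_subset_left.trans inter_subset_left
  have b4 := setIntegral_ge_of_const_le_real (c := (k ^ 3 * Real.exp (-1)) ^ 2)
    ((ho.measurableSet.inter measurableSet_ball).inter
      (isClosed_le c.smooth.continuous continuous_const).measurableSet)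
    (hb.subset hs).measure_lt_top.ne (fun x hx => le_trans (pow_le_pow_left₀ (by positivity)
      (mul_le_mul_of_nonneg_left (Real.exp_le_exp.2 (by
        have : c.ρ x ≤ 1 / k ^ 3 := hx.2
        rw [le_div_iff₀ (by positivity)] at this
        linarith)) (by positivity)) 2) (e7 x hx.1.2)) (i1.mono_set hs)
  have b5 := setIntegral_mono_set i1 (Filter.Eventually.of_forall fun x =>
    Finset.sum_nonneg fun s _ => Finset.sum_nonneg fun j _ => sq_nonneg _) hs.eventuallyLE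
  rw [integral_finset_sum _ fun s _ => bdc_int hb (by fun_prop), Fin.sum_univ_two] at b5
  have b6 := (mul_le_mul_of_nonneg_left (hv k a3) (by positivity)).trans
    (b4.trans (b5.trans (add_le_add (b3 0) (b3 1))))
  rw [div_lt_iff₀ (by positivity)] at a6
  rw [show (k ^ 3 * Real.exp (-1)) ^ 2 * (c₀ / k ^ 7) = k * (Real.exp (-1) ^ 2 * c₀) / k ^ 2 by
    field_simp, ← add_div, div_le_div_iff_of_pos_right (by positivity)] at b6
  linarith

theorem bdry_eq (hΩ : SmoothDomain Ω) (L₁ L₂ : Lame (Sm ℝ))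
    (h₁ : Admissible Ω (L₁.lam : Sm ℝ) (L₁.mu : Sm ℝ))
    (h₂ : Admissible Ω (L₂.lam : Sm ℝ) (L₂.mu : Sm ℝ))
    (h : Aless0 Ω (L₁.lam : Sm ℝ) (L₁.mu : Sm ℝ) (L₂.lam : Sm ℝ) (L₂.mu : Sm ℝ))
    {x₀ : E3} (hx : x₀ ∈ frontier Ω) : (L₁.mu : E3 → ℝ) x₀ = (L₂.mu : E3 → ℝ) x₀ :=
  le_antisymm (bdry_le hΩ L₁ L₂ h₁ h₂ h hx) (bdry_le hΩ L₂ L₁ h₂ h₁ h.symm hx)

end Vale.Agent.P136
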