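import Vale.Agent.P136.Coord

/-!
# From products of solutions to all solutions of the tensor system
-/

noncomputable section

namespace Vale.Agent.P136

variable {R : Type*} [NormedCommRing R] [NormedAlgebra ℂ R]

/-- The tensor transport operator. -/
def TT (X : Der ℂ R) (θ : Fin 3 → ℂ) (B₁ B₂ : Matrix (Fin 3) (Fin 3) R) :
    (Fin 3 → Fin 3 → R) →ₗ[ℂ] (Fin 3 → Fin 3 → R) where
  toFun Ψ := fun i j => X.D (cst θ) (Ψ i j) + ∑ k, B₂ k i * Ψ k j - ∑ k, B₁ j k * Ψ i k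
  map_add' Ψ Ψ' := by
    funext i j
    simp only [Pi.add_apply, X.D_add, Fin.sum_univ_three]; ring
  map_smul' c Ψ := by
    funext i j
    simp only [Pi.smul_apply, X.D_smul, Fin.sum_univ_three, RingHom.id_apply, mul_smul_comm,
      smul_add, smul_sub]

lemma TT_apply (X : Der ℂ R) (θ : Fin 3 → ℂ) (B₁ B₂ : Matrix (Fin 3) (Fin 3) R)
    (Ψ : Fin 3 → Fin 3 → R) (i j : Fin 3) : TT X θ B₁ B₂ Ψ i j =
      X.D (cst θ) (Ψ i j) + ∑ k, B₂ k i * Ψ k j - ∑ k, B₁ j k * Ψ i k := rfl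

/-- The boundary functional. -/
def ell (X : Fr R) (θ : Fin 3 → ℂ) (G : Matrix (Fin 3) (Fin 3) R) :
    (Fin 3 → Fin 3 → R) →ₗ[ℂ] ℂ where
  toFun Ψ := X.I (X.D (cst θ) (∑ i, ∑ j, G i j * Ψ i j))
  map_add' Ψ Ψ' := by
    simp only [Pi.add_apply, mul_add, Finset.sum_add_distrib, X.D_add, map_add]
  map_smul' c Ψ := by
    simp only [Pi.smul_apply, mul_smul_comm, ← Finset.smul_sum, X.D_smul, map_smul,
      RingHom.id_apply]

lemma ell_apply (X : Fr R) (θ : Fin 3 → ℂ) (G : Matrix (Fin 3) (Fin 3) R)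
    (Ψ : Fin 3 → Fin 3 → R) : ell X θ G Ψ = X.I (X.D (cst θ) (∑ i, ∑ j, G i j * Ψ i j)) := rfl

section Adj

variable {X : Der ℂ R} {z : Fin 3 → R} {B C : Matrix (Fin 3) (Fin 3) R}
  (hC : ∀ i j, X.D z (C i j) = (B * C) i j) (hB : B 0 0 + B 1 1 + B 2 2 = 0)

include hC hB

lemma D_det : X.D z C.det = 0 := by
  simp only [Matrix.det_fin_three, X.D_add, X.D_sub, X.D_mul, hC, Matrix.mul_apply,
    Fin.sum_univ_three]
  linear_combination C.det * hB - (B 0 0 + B 1 1 + B 2 2) * Matrix.det_fin_three C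

lemma D_adj (i j : Fin 3) : X.D z (C.adjugate i j) = - ∑ k, C.adjugate i k * B k j := by
  have e : X.D z (C.adjugate i j) =
      (B 0 0 + B 1 1 + B 2 2) * C.adjugate i j - ∑ k, C.adjugate i k * B k j := by
    rw [Matrix.adjugate_fin_three]
    fin_cases i <;> fin_cases j <;>
    simp [X.D_add, X.D_sub, X.D_neg, X.D_mul, hC, Matrix.mul_apply, Fin.sum_univ_three] <;> ring
  rw [e, hB]; ring

end Adj

theorem cech (X : Fr R) {θ : Fin 3 → ℂ} (hθ : Null θ) (h0 : θ ≠ 0)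
    {B₁ B₂ G : Matrix (Fin 3) (Fin 3) R} (hB : B₁ 0 0 + B₁ 1 1 + B₁ 2 2 = 0)
    (hO : X.Orth3 θ B₁ B₂ G) (M : Fin 3 → Fin 3 → R) (hM : TT X.toDer θ B₁ B₂ M = 0) :
    ell X θ G M = 0 := by
  have hM' : ∀ i j, X.D (cst θ) (M i j) = ∑ k, B₁ j k * M i k - ∑ k, B₂ k i * M k j := by
    intro i j
    have := congrFun (congrFun hM i) j
    rw [TT_apply, Pi.zero_apply, Pi.zero_apply] at this
    linear_combination this
  have key : ∀ (C : Matrix (Fin 3) (Fin 3) R) (h : R), (∀ i j, X.D (cst θ) (C i j) = (B₁ * C) i j) →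
      X.D (cst θ) h = 0 → ell X θ G (fun i j => h * C.det * M i j) = 0 := by
    intro C h hC hh
    have e : (fun i j => h * C.det * M i j) =
        ∑ k : Fin 3, fun i j => (h * ∑ l, M i l * C.adjugate k l) * C j k := by
      funext i j
      have := fun l => congrFun (congrFun (Matrix.mul_adjugate C) j) l
      simp only [Matrix.mul_apply, Fin.sum_univ_three, Matrix.smul_apply, Matrix.one_apply,
        smul_eq_mul] at this
      simp only [Finset.sum_apply, Fin.sum_univ_three]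
      have t0 := this 0
      have t1 := this 1
      have t2 := this 2
      fin_cases j <;> simp at t0 t1 t2 ⊢ <;>
        linear_combination (-h * M i 0) * t0 + (-h * M i 1) * t1 + (-h * M i 2) * t2
    rw [e, map_sum]
    refine Finset.sum_eq_zero fun k _ => ?_
    refine hO (fun j => C j k) (fun i => h * ∑ l, M i l * C.adjugate k l) (fun i => ?_) fun i => ?_
    · rw [hC, Matrix.mul_apply]
    · simp only [X.D_mul, X.D_add, hh, hM', D_adj hC hB, Fin.sum_univ_three]; ring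
  obtain ⟨k, C, η, hC, hη⟩ := X.bez θ hθ h0 B₁
  choose w hw using fun c c' : Fin k => X.solv1 hθ h0 0 (η c' * X.D (cst θ) (η c))
  simp only [zero_mul, zero_add] at hw
  have hd : ∀ c, X.D (cst θ) (C c).det = 0 := fun c => D_det (hC c) hB
  have hDη : ∑ c, X.D (cst θ) (η c) * (C c).det = 0 := by
    have := congrArg (X.D (cst θ)) hη
    rw [X.D_one, X.D_sum] at this
    simpa only [X.D_mul, hd, mul_zero, add_zero] using this
  set h : Fin k → R := fun c => η c - ∑ c', (C c').det * (w c c' - w c' c) with hh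
  have h1 : ∀ c, X.D (cst θ) (h c) = 0 := by
    intro c
    simp only [hh, X.D_sub, X.D_sum, X.D_mul, hd, hw, zero_mul, zero_add, mul_sub,
      Finset.sum_sub_distrib]
    have a1 : ∑ c', (C c').det * (η c' * X.D (cst θ) (η c)) = X.D (cst θ) (η c) := by
      have : ∑ c', (C c').det * (η c' * X.D (cst θ) (η c)) =
          (∑ c', η c' * (C c').det) * X.D (cst θ) (η c) := by
        rw [Finset.sum_mul]; exact Finset.sum_congr rfl fun _ _ => by ring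
      rw [this, hη, one_mul]
    have a2 : ∑ c', (C c').det * (η c * X.D (cst θ) (η c')) = 0 := by
      rw [← mul_zero (η c), ← hDη, Finset.mul_sum]
      exact Finset.sum_congr rfl fun _ _ => by ring
    rw [a1, a2]; ring
  have h2 : ∑ c, h c * (C c).det = 1 := by
    simp only [hh, sub_mul, Finset.sum_sub_distrib, hη, mul_sub, Finset.sum_mul]
    rw [Finset.sum_comm (f := fun c c' => (C c').det * w c' c * (C c).det)]
    have : ∑ c, ∑ c', (C c').det * w c c' * (C c).det =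
        ∑ c, ∑ c', (C c).det * w c c' * (C c').det :=
      Finset.sum_congr rfl fun _ _ => Finset.sum_congr rfl fun _ _ => by ring
    rw [this]; ring
  have e : M = ∑ c, fun i j => h c * (C c).det * M i j := by
    funext i j
    simp only [Finset.sum_apply, ← Finset.sum_mul, h2, one_mul]
  rw [e, map_sum]
  exact Finset.sum_eq_zero fun c _ => key _ _ (hC c) (h1 c)

theorem TT_solve (X : Fr R) (M r : ℝ) (hr : 0 < r) : ∃ C, 0 ≤ C ∧ ∀ θ : Fin 3 → ℂ, Null θ →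
    r ≤ ‖θ‖ → ∀ B₁ B₂ : Matrix (Fin 3) (Fin 3) R, (∀ i j, ‖B₁ i j‖ ≤ M) → (∀ i j, ‖B₂ i j‖ ≤ M) →
      ∀ F : Fin 3 → Fin 3 → R, ∃ Ψ, TT X.toDer θ B₁ B₂ Ψ = F ∧ ‖Ψ‖ ≤ C * ‖F‖ := by
  obtain ⟨C, hC, h⟩ := X.solv (Fin 3 × Fin 3) (M + M) r hr
  refine ⟨C, hC, fun θ hθ hrθ B₁ B₂ h₁ h₂ F => ?_⟩
  have hM : 0 ≤ M := (norm_nonneg _).trans (h₁ 0 0)
  obtain ⟨ψ, e, hb⟩ := h θ hθ hrθ
    (fun a b => (if b.1 = a.1 then B₁ a.2 b.2 else 0) - (if b.2 = a.2 then B₂ b.1 a.1 else 0))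
    (fun a b => (norm_sub_le _ _).trans (add_le_add (by split_ifs <;> simp [h₁, hM])
      (by split_ifs <;> simp [h₂, hM]))) (fun a => F a.1 a.2)
  have hF : ‖fun a : Fin 3 × Fin 3 => F a.1 a.2‖ ≤ ‖F‖ :=
    (pi_norm_le_iff_of_nonneg (norm_nonneg _)).2 fun a =>
      (norm_le_pi_norm (F a.1) a.2).trans (norm_le_pi_norm F a.1)
  refine ⟨fun i j => ψ (i, j), ?_, ?_⟩
  · funext i j
    rw [TT_apply, e (i, j)]
    simp only [Fintype.sum_prod_type, sub_mul, Finset.sum_sub_distrib, ite_mul, zero_mul]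
    rw [Finset.sum_comm (f := fun a b => if a = i then B₁ j b * ψ (a, b) else 0)]
    simp only [Finset.sum_ite_eq', Finset.mem_univ, if_true]
    ring
  · refine (pi_norm_le_iff_of_nonneg (by positivity)).2 fun i =>
      (pi_norm_le_iff_of_nonneg (by positivity)).2 fun j => ?_
    exact (norm_le_pi_norm ψ (i, j)).trans (hb.trans (mul_le_mul_of_nonneg_left hF hC))

lemma TT_surj (X : Fr R) {θ : Fin 3 → ℂ} (hθ : Null θ) (h0 : θ ≠ 0)
    (B₁ B₂ : Matrix (Fin 3) (Fin 3) R) : Function.Surjective (TT X.toDer θ B₁ B₂) := by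
  obtain ⟨C, -, h⟩ := TT_solve X (max ‖fun i j => B₁ i j‖ ‖fun i j => B₂ i j‖) ‖θ‖
    (norm_pos_iff.2 h0)
  intro F
  obtain ⟨Ψ, e, -⟩ := h θ hθ le_rfl B₁ B₂
    (fun i j => ((norm_le_pi_norm (fun j => B₁ i j) j).trans
      (norm_le_pi_norm (fun i j => B₁ i j) i)).trans (le_max_left _ _))
    (fun i j => ((norm_le_pi_norm (fun j => B₂ i j) j).trans
      (norm_le_pi_norm (fun i j => B₂ i j) i)).trans (le_max_right _ _)) F
  exact ⟨Ψ, e⟩

theorem exists_G (X : Fr R) {θ : Fin 3 → ℂ} (hθ : Null θ) (h0 : θ ≠ 0)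
    {B₁ B₂ G : Matrix (Fin 3) (Fin 3) R} (hB : B₁ 0 0 + B₁ 1 1 + B₁ 2 2 = 0)
    (hO : X.Orth3 θ B₁ B₂ G) : ∃ g : (Fin 3 → Fin 3 → R) →ₗ[ℂ] ℂ,
      ∀ Ψ, g (TT X.toDer θ B₁ B₂ Ψ) = ell X θ G Ψ := by
  obtain ⟨σ, hσ⟩ := (TT X.toDer θ B₁ B₂).exists_rightInverse_of_surjective
    (LinearMap.range_eq_top.2 (TT_surj X hθ h0 B₁ B₂))
  refine ⟨ell X θ G ∘ₗ σ, fun Ψ => ?_⟩
  have := cech X hθ h0 hB hO (σ (TT X.toDer θ B₁ B₂ Ψ) - Ψ) (by
    rw [map_sub, sub_eq_zero]; exact LinearMap.congr_fun hσ _)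
  rwa [map_sub, sub_eq_zero] at this

theorem G_bound (X : Fr R) (M r : ℝ) (hr : 0 < r) : ∃ C, 0 ≤ C ∧ ∀ θ : Fin 3 → ℂ, Null θ →
    r ≤ ‖θ‖ → ∀ B₁ B₂ G : Matrix (Fin 3) (Fin 3) R, (∀ i j, ‖B₁ i j‖ ≤ M) →
      (∀ i j, ‖B₂ i j‖ ≤ M) → (∀ i j, ‖G i j‖ ≤ M) → (∀ i j, ‖X.D (cst θ) (G i j)‖ ≤ M) →
      ∀ g : (Fin 3 → Fin 3 → R) →ₗ[ℂ] ℂ, (∀ Ψ, g (TT X.toDer θ B₁ B₂ Ψ) = ell X θ G Ψ) →
        ∀ F, ‖g F‖ ≤ C * ‖F‖ := by
  obtain ⟨C, hC, h⟩ := TT_solve X M r hr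
  refine ⟨‖X.I‖ * (9 * (|M| * C + |M| * (1 + 6 * (|M| * C)))), by positivity,
    fun θ hθ hrθ B₁ B₂ G h₁ h₂ h₃ h₄ g hg F => ?_⟩
  have hM : 0 ≤ M := (norm_nonneg _).trans (h₁ 0 0)
  rw [abs_of_nonneg hM]
  obtain ⟨Ψ, e, hb⟩ := h θ hθ hrθ B₁ B₂ h₁ h₂ F
  have hΨ : ∀ i j, ‖Ψ i j‖ ≤ C * ‖F‖ := fun i j =>
    ((norm_le_pi_norm (Ψ i) j).trans (norm_le_pi_norm Ψ i)).trans hb
  have hF : ∀ i j, ‖F i j‖ ≤ ‖F‖ := fun i j =>
    (norm_le_pi_norm (F i) j).trans (norm_le_pi_norm F i)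
  have hm : ∀ {x y : R} {a b : ℝ}, ‖x‖ ≤ a → ‖y‖ ≤ b → ‖x * y‖ ≤ a * b := fun hx hy =>
    (norm_mul_le _ _).trans (mul_le_mul hx hy (norm_nonneg _) ((norm_nonneg _).trans hx))
  have h3 : ∀ {f : Fin 3 → R} {a : ℝ}, (∀ k, ‖f k‖ ≤ a) → ‖∑ k, f k‖ ≤ 3 * a := fun {f a} hf =>
    (norm_sum_le _ _).trans (by
      rw [Fin.sum_univ_three]; linarith [hf 0, hf 1, hf 2])
  have hD : ∀ i j, ‖X.D (cst θ) (Ψ i j)‖ ≤ (1 + 6 * (M * C)) * ‖F‖ := by
    intro i j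
    have e' := congrFun (congrFun e i) j
    rw [TT_apply] at e'
    rw [show X.D (cst θ) (Ψ i j) = F i j - ∑ k, B₂ k i * Ψ k j + ∑ k, B₁ j k * Ψ i k by
      linear_combination e']
    have a1 := h3 fun k => hm (h₂ k i) (hΨ k j)
    have a2 := h3 fun k => hm (h₁ j k) (hΨ i k)
    refine (norm_add_le _ _).trans ((add_le_add (norm_sub_le _ _) le_rfl).trans ?_)
    linarith [hF i j]
  rw [← e, hg, e, ell_apply, mul_assoc]
  refine (X.I.le_opNorm _).trans (mul_le_mul_of_nonneg_left ?_ (norm_nonneg _))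
  simp only [X.D_sum, X.D_mul]
  have := h3 fun i => h3 fun j => (norm_add_le _ _).trans
    (add_le_add (hm (h₄ i j) (hΨ i j)) (hm (h₃ i j) (hD i j)))
  linarith

end Vale.Agent.P136
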