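import Vale.Agent.P136.CorrA

/-!
# Correctors with exponential weights and the weighted Alessandrini bound
-/

open MeasureTheory Set Metric
open scoped ContDiff RealInnerProductSpace

noncomputable section

namespace Vale.Agent.P136

variable {Ω : Set E3}

/-- The pair `(P1, ki * P2)` is a system with principal part the Laplacian; the index `none` is
the scalar unknown. -/
lemma exists_sys (L : Lame (Sm ℝ)) : ∃ (A : Fin 3 → Option (Fin 3) → Option (Fin 3) → E3 → ℝ)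
    (A0 : Option (Fin 3) → Option (Fin 3) → E3 → ℝ), (∀ j a b, ContDiff ℝ ∞ (A j a b)) ∧
      (∀ a b, ContDiff ℝ ∞ (A0 a b)) ∧ ∀ (v : Option (Fin 3) → Sm ℝ) (x : E3),
        (∀ i, sysOp A A0 (fun a => v a) (some i) x =
          ((derS ℝ).P1 L (fun k => v (some k)) (v none) i : E3 → ℝ) x) ∧
        sysOp A A0 (fun a => v a) none x =
          (L.ki * (derS ℝ).P2 L (fun k => v (some k)) (v none) : Sm ℝ).1 x := by
  refine ⟨fun j a b => ((derS ℝ).sysA L j a b : E3 → ℝ), fun a b => ((derS ℝ).sysA0 L a b : E3 → ℝ),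
    fun j a b => smo _, fun a b => smo _, fun v x => ⟨fun i => ?_, ?_⟩⟩
  · rw [sysOp_eq_sysR, Der.sysR_some]
  · rw [sysOp_eq_sysR, Der.sysR_none]

/-- Solve with `solveH2` and data `(G, 0)`; `w i = Φ (some i)`, `F = ki * Φ none`,
`r i = m * (w i - pd i F - g i * F)` in the weak sense. For a test field `φ` with `Y = P1 φ (div φ)`:
`form r φ = - ∫ r . Lop φ = - ∫ (w . Y + F * (div Y - g . Y)) = - ∫ (w . Y + F * P2 φ (div φ))`
by `Der.I1`, `Der.I2`. -/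
theorem corr (ho : IsOpen Ω) {R : ℝ} (hR : 0 < R) (hΩ : Ω ⊆ ball 0 R) (L : Lame (Sm ℝ)) :
    ∃ C, 0 ≤ C ∧ ∀ (ξ : E3) (G : Fin 3 → E3 → ℝ) (a : ℝ), (∀ i, Continuous (G i)) → 0 ≤ a →
      (∀ i x, ‖x‖ ≤ R + 2 → |G i x| ≤ a * Real.exp ⟪ξ, x⟫) →
      ∃ r : H1 Ω, (∀ i j, WB Ω ξ (r.grad i j) (C * (1 + ‖ξ‖) ^ 4 * a)) ∧
        ∀ φ : Fin 3 → E3 → ℝ, (∀ i, IsTest Ω (φ i)) →
          form Ω (L.lam : Sm ℝ) (L.mu : Sm ℝ) r.grad (gr φ) =
            - ∫ x in Ω, ∑ i, G i x * φ i x := by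
  obtain ⟨A, A0, hA, hA0, hsys⟩ := exists_sys L
  obtain ⟨C, hC, hsol⟩ := solveH2 hA hA0 hR
  have hb : Bornology.IsBounded Ω := isBounded_ball.subset hΩ
  have hm : MeasurableSet Ω := ho.measurableSet
  set X := derS ℝ with hX
  let β : Fin 3 → Sm ℝ := fun i => L.m * (X.d i L.ki + X.g L i * L.ki)
  let γ : Sm ℝ := L.m * L.ki
  obtain ⟨M, hM0, hM⟩ := exists_bound_finS hb
    (fun p : Fin 6 × Fin 3 × Fin 3 => ![X.d p.2.2 L.m, L.m, X.d p.2.2 (β p.2.1), β p.2.1,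
      X.d p.2.2 γ, γ] p.1)
  refine ⟨6 * M * C * √(volume.real (ball (0 : E3) (R + 2))), by positivity, ?_⟩
  intro ξ G a hG ha hGb
  let G' : Option (Fin 3) → E3 → ℝ := fun o => Option.elim o (fun _ => 0) G
  have hG' : ∀ o, WB (ball 0 (R + 2)) ξ (G' o) (√(volume.real (ball (0 : E3) (R + 2))) * a) := by
    rintro (_ | i)
    · exact WB.zero.mono (by positivity)
    · exact WB.of_bound isBounded_ball measurableSet_ball (hG i) ha fun x hx =>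
        hGb i x (mem_ball_zero_iff.1 hx).le
  obtain ⟨Φ, Φ₁, Φ₂, h0, h1, h2, w1, w2, heq⟩ := hsol ξ G' _ hG'
  set B := C * (1 + ‖ξ‖) ^ 4 * (√(volume.real (ball (0 : E3) (R + 2))) * a) with hB
  have h0' : ∀ o, WB Ω ξ (Φ o) B := fun o => (h0 o).restrict isBounded_ball measurableSet_ball hΩ
  have h1' : ∀ o k, WB Ω ξ (Φ₁ o k) B := fun o k =>
    (h1 o k).restrict isBounded_ball measurableSet_ball hΩ
  have h2' : ∀ o k j, WB Ω ξ (Φ₂ o k j) B := fun o k j =>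
    (h2 o k j).restrict isBounded_ball measurableSet_ball hΩ
  have w1' : ∀ o k, IsWD Ω k (Φ o) (Φ₁ o k) := fun o k => (w1 o k).mono hΩ
  have w2' : ∀ o k j, IsWD Ω j (Φ₁ o k) (Φ₂ o k j) := fun o k j => (w2 o k j).mono hΩ
  have mm : ∀ (s : Sm ℝ) {f : E3 → ℝ}, WB Ω ξ f B →
      MemLp (fun x => (s : E3 → ℝ) x * f x) 2 (volume.restrict Ω) := fun s f hf =>
    memLp_cont_mul hb hm (sco s) hf.2.1
  have mb : ∀ (s : Sm ℝ) {f : E3 → ℝ}, (∀ x ∈ Ω, |(s : E3 → ℝ) x| ≤ M) → WB Ω ξ f B →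
      WB Ω ξ (fun x => (s : E3 → ℝ) x * f x) (M * B) := fun s f hs hf =>
    hf.mul_bdd hb hm (sco s) hM0 hs
  have gb : ∀ i j, WB Ω ξ (fun x =>
      ((X.d j L.m : E3 → ℝ) x * Φ (some i) x + (L.m : E3 → ℝ) x * Φ₁ (some i) j x) -
      ((X.d j (β i) : E3 → ℝ) x * Φ none x + (β i : E3 → ℝ) x * Φ₁ none j x) -
      ((X.d j γ : E3 → ℝ) x * Φ₁ none i x + (γ : E3 → ℝ) x * Φ₂ none i j x))
      (((M * B + M * B) + (M * B + M * B)) + (M * B + M * B)) := fun i j =>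
    (((mb _ (hM (0, i, j)) (h0' _)).add hb hm (mb _ (hM (1, i, j)) (h1' _ _))).sub hb hm
      ((mb _ (hM (2, i, j)) (h0' _)).add hb hm (mb _ (hM (3, i, j)) (h1' _ _)))).sub hb hm
      ((mb _ (hM (4, i, j)) (h1' _ _)).add hb hm (mb _ (hM (5, i, j)) (h2' _ _ _)))
  let r : H1 Ω :=
    { val := fun i x => (L.m : E3 → ℝ) x * Φ (some i) x - (β i : E3 → ℝ) x * Φ none x -
        (γ : E3 → ℝ) x * Φ₁ none i x
      grad := fun i j x =>
        ((X.d j L.m : E3 → ℝ) x * Φ (some i) x + (L.m : E3 → ℝ) x * Φ₁ (some i) j x) -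
        ((X.d j (β i) : E3 → ℝ) x * Φ none x + (β i : E3 → ℝ) x * Φ₁ none j x) -
        ((X.d j γ : E3 → ℝ) x * Φ₁ none i x + (γ : E3 → ℝ) x * Φ₂ none i j x)
      val_mem := fun i => ((mm _ (h0' _)).sub (mm _ (h0' _))).sub (mm _ (h1' _ _))
      grad_mem := fun i j => (gb i j).2.1
      weak := fun i j =>
        IsWD.sub (IsWD.sub ((w1' (some i) j).mul_smooth (smo L.m) (h0' _).2.1 (h1' _ _).2.1)
            ((w1' none j).mul_smooth (smo (β i)) (h0' _).2.1 (h1' _ _).2.1)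
            (mm _ (h0' _)) ((mm (X.d j L.m) (h0' _)).add (mm _ (h1' _ _)))
            (mm _ (h0' _)) ((mm (X.d j (β i)) (h0' _)).add (mm _ (h1' _ _))))
          ((w2' none i j).mul_smooth (smo γ) (h1' _ _).2.1 (h2' _ _ _).2.1)
          ((mm _ (h0' _)).sub (mm _ (h0' _)))
          (((mm (X.d j L.m) (h0' _)).add (mm _ (h1' _ _))).sub
            ((mm (X.d j (β i)) (h0' _)).add (mm _ (h1' _ _))))
          (mm _ (h1' _ _)) ((mm (X.d j γ) (h1' _ _)).add (mm _ (h2' _ _ _))) }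
  refine ⟨r, fun i j => (gb i j).mono (le_of_eq (by rw [hB]; ring)), fun φ hφ => ?_⟩
  let U : Fin 3 → Sm ℝ := fun i => ⟨φ i, (hφ i).1⟩
  have hU : ∀ i, U i ∈ tI Ω := hφ
  have hY : ∀ i, X.P1 L U (X.div U) i ∈ tI Ω := tI_P1 L hU (tI_div hU)
  have e1 := form_weak L r hU
  change form Ω _ _ r.grad (gr φ) = _ at e1
  rw [e1, neg_inj]
  have e2 : ∀ i, prg Ω (r.val i) (X.Lop L U i) = prg Ω (Φ (some i)) (X.P1 L U (X.div U) i) +
      (prg Ω (Φ none) (X.d i (L.ki * X.P1 L U (X.div U) i)) -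
        prg Ω (Φ none) ((X.d i L.ki + X.g L i * L.ki) * X.P1 L U (X.div U) i)) := by
    intro i
    have t1 : L.ki * X.P1 L U (X.div U) i ∈ tI Ω := Ideal.mul_mem_left _ _ (hY i)
    have t2 : (X.d i L.ki + X.g L i * L.ki) * X.P1 L U (X.div U) i ∈ tI Ω :=
      Ideal.mul_mem_left _ _ (hY i)
    rw [prg_wd (w1' none i) t1, X.I1]
    unfold prg
    have i1 := integ_test (h0' (some i)).2.1 (hY i)
    have i2 := integ_test (h1' none i).2.1 t1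
    have i3 := integ_test (h0' none).2.1 t2
    have i4 : Integrable (fun x => Φ (some i) x * (X.P1 L U (X.div U) i : E3 → ℝ) x -
        Φ₁ none i x * ((L.ki * X.P1 L U (X.div U) i : Sm ℝ) : E3 → ℝ) x) (volume.restrict Ω) :=
      i1.sub i2
    rw [← add_sub_assoc, ← sub_eq_add_neg, ← integral_sub i1 i2, ← integral_sub i4 i3]
    congr 1
    funext x
    have hmu : (L.mu : E3 → ℝ) x * (L.m : E3 → ℝ) x = 1 :=
      congrArg (fun s : Sm ℝ => (s : E3 → ℝ) x) L.mu_m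
    simp only [r, β, γ, sm_mul_apply, sm_add_apply]
    linear_combination ((X.P1 L U (X.div U) i : E3 → ℝ) x * (Φ (some i) x -
      ((X.d i L.ki : E3 → ℝ) x + (X.g L i : E3 → ℝ) x * (L.ki : E3 → ℝ) x) * Φ none x -
      (L.ki : E3 → ℝ) x * Φ₁ none i x)) * hmu
  have t1 : ∀ i, X.d i (L.ki * X.P1 L U (X.div U) i) ∈ tI Ω := fun i =>
    tI_d (Ideal.mul_mem_left _ _ (hY i)) i
  have t2 : ∀ i, (X.d i L.ki + X.g L i * L.ki) * X.P1 L U (X.div U) i ∈ tI Ω := fun i =>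
    Ideal.mul_mem_left _ _ (hY i)
  have t3 : L.ki * X.P2 L U (X.div U) ∈ tI Ω := by
    rw [← X.corr_id L U]
    exact Ideal.sub_mem _ (Ideal.sum_mem _ fun i _ => t1 i) (Ideal.sum_mem _ fun i _ => t2 i)
  rw [Finset.sum_congr rfl fun i _ => e2 i, Finset.sum_add_distrib, Finset.sum_sub_distrib, ← prg_sum (h0' _).2.1 _ t1,
    ← prg_sum (h0' _).2.1 _ t2, ← prg_sub (h0' _).2.1 (Ideal.sum_mem _ fun i _ => t1 i)
      (Ideal.sum_mem _ fun i _ => t2 i), X.corr_id L U]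
  let v : Option (Fin 3) → Sm ℝ := fun o => Option.elim o (X.div U) U
  have hv : ∀ o, v o ∈ tI Ω := by
    rintro (_ | i)
    · exact tI_div hU
    · exact hU i
  have key := heq (fun o => v o) fun o => (mem_tI.1 (hv o)).mono hΩ
  rw [Fintype.sum_option, Fintype.sum_option] at key
  have k1 : ∫ x in ball (0 : E3) R, Φ none x * sysOp A A0 (fun o => v o) none x =
      prg Ω (Φ none) (L.ki * X.P2 L U (X.div U)) := by
    simp only [(hsys v _).2]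
    exact (((mem_tI.1 t3).mono hΩ).setIntegral_mul _).trans ((mem_tI.1 t3).setIntegral_mul _).symm
  have k2 : ∀ i, ∫ x in ball (0 : E3) R, Φ (some i) x * sysOp A A0 (fun o => v o) (some i) x =
      prg Ω (Φ (some i)) (X.P1 L U (X.div U) i) := by
    intro i
    simp only [(hsys v _).1]
    exact (((mem_tI.1 (hY i)).mono hΩ).setIntegral_mul _).trans
      ((mem_tI.1 (hY i)).setIntegral_mul _).symm
  have k3 : ∀ i, ∫ x in ball (0 : E3) R, G' (some i) x * (v (some i) : E3 → ℝ) x =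
      ∫ x in Ω, G i x * φ i x := fun i =>
    (((hφ i).mono hΩ).setIntegral_mul _).trans ((hφ i).setIntegral_mul _).symm
  have k4 : ∫ x in ball (0 : E3) R, G' none x * (v none : E3 → ℝ) x = 0 := by simp [G']
  simp only [k1, k2, k3, k4, zero_add] at key
  rw [add_comm, key, integral_finsetSum _ fun i _ => (hφ i).integrable_mul (hG i) _]

/-- Correct `U` and `V` to exact solutions with `corr` and `form_smooth`, apply `Aless0`, expand
with `form_sub_left` and bound with `form_bound`. -/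
theorem alessR (ho : IsOpen Ω) {R : ℝ} (hR : 0 < R) (hΩ : Ω ⊆ ball 0 R) (L₁ L₂ : Lame (Sm ℝ))
    (h : Aless0 Ω (L₁.lam : Sm ℝ) (L₁.mu : Sm ℝ) (L₂.lam : Sm ℝ) (L₂.mu : Sm ℝ)) :
    ∃ C, 0 ≤ C ∧ ∀ (ξ : E3) (U V : Fin 3 → Sm ℝ) (a b a' b' : ℝ), 0 ≤ a → 0 ≤ b → 0 ≤ a' →
      0 ≤ b' →
      (∀ i x, ‖x‖ ≤ R + 2 → |((derS ℝ).Lop L₁ U i : E3 → ℝ) x| ≤ a * Real.exp ⟪ξ, x⟫) →
      (∀ i j x, ‖x‖ ≤ R + 2 → |pd j (U i) x| ≤ b * Real.exp ⟪ξ, x⟫) →
      (∀ i x, ‖x‖ ≤ R + 2 → |((derS ℝ).Lop L₂ V i : E3 → ℝ) x| ≤ a' * Real.exp ⟪-ξ, x⟫) →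
      (∀ i j x, ‖x‖ ≤ R + 2 → |pd j (V i) x| ≤ b' * Real.exp ⟪-ξ, x⟫) →
      |∫ x in Ω, ((derS ℝ).en L₁ U V - (derS ℝ).en L₂ U V : Sm ℝ).1 x| ≤
        C * (1 + ‖ξ‖) ^ 8 * (a * b' + a' * b + a * a') := by
  have hb : Bornology.IsBounded Ω := isBounded_ball.subset hΩ
  have hm : MeasurableSet Ω := ho.measurableSet
  obtain ⟨C₁, hC₁, c₁⟩ := corr ho hR hΩ L₁
  obtain ⟨C₂, hC₂, c₂⟩ := corr ho hR hΩ L₂
  obtain ⟨D₁, hD₁, d₁⟩ := form_bound hb hm (sco L₁.lam) (sco L₁.mu)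
  obtain ⟨D₂, hD₂, d₂⟩ := form_bound hb hm (sco L₂.lam) (sco L₂.mu)
  set s := √(volume.real Ω) with hs
  have hs0 : 0 ≤ s := Real.sqrt_nonneg _
  refine ⟨(D₁ + D₂) * (C₁ * s + C₂ * s + C₁ * C₂), by positivity, ?_⟩
  intro ξ U V a b a' b' ha hb0 ha' hb' hU hU' hV hV'
  obtain ⟨r₁, g₁, f₁⟩ := c₁ ξ (fun i => (derS ℝ).Lop L₁ U i) a (fun i => sco _) ha hU
  obtain ⟨r₂, g₂, f₂⟩ := c₂ (-ξ) (fun i => (derS ℝ).Lop L₂ V i) a' (fun i => sco _) ha' hV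
  rw [norm_neg] at g₂
  have hx : ∀ x ∈ Ω, ‖x‖ ≤ R + 2 := fun x hx => by
    have := mem_ball_zero_iff.1 (hΩ hx); linarith
  let u₁ := H1.ofSmooth hb (fun i => U i) fun i => smo _
  let u₂ := H1.ofSmooth hb (fun i => V i) fun i => smo _
  have gU : ∀ i j, WB Ω ξ (u₁.grad i j) (s * b) := fun i j =>
    WB.of_bound hb hm (contDiff_pd (smo _) j).continuous hb0 fun x h => hU' i j x (hx x h)
  have gV : ∀ i j, WB Ω (-ξ) (u₂.grad i j) (s * b') := fun i j =>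
    WB.of_bound hb hm (contDiff_pd (smo _) j).continuous hb' fun x h => hV' i j x (hx x h)
  have sol : ∀ (L : Lame (Sm ℝ)) (W : Fin 3 → Sm ℝ) (r : H1 Ω),
      (∀ φ : Fin 3 → E3 → ℝ, (∀ i, IsTest Ω (φ i)) →
        form Ω (L.lam : Sm ℝ) (L.mu : Sm ℝ) r.grad (gr φ) =
          - ∫ x in Ω, ∑ i, ((derS ℝ).Lop L W i : E3 → ℝ) x * φ i x) →
      IsSol Ω (L.lam : Sm ℝ) (L.mu : Sm ℝ)
        ((H1.ofSmooth hb (fun i => W i) fun i => smo _).sub r) := by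
    intro L W r f φ hφ
    have e := form_sub_left hb hm (sco L.lam) (sco L.mu)
      (H1.ofSmooth hb (fun i => W i) fun i => smo _).grad_mem r.grad_mem
      (B := gr φ) (fun i j => ((hφ i).pd j).memLp _)
    refine e.trans ?_
    rw [f φ hφ, sub_eq_zero]
    exact form_smooth L W hφ
  have al := h _ _ (sol L₁ U r₁ f₁) (sol L₂ V r₂ f₂)
  have ex : ∀ L : Lame (Sm ℝ), form Ω (L.lam : Sm ℝ) (L.mu : Sm ℝ) (u₁.sub r₁).grad (u₂.sub r₂).grad =
      (∫ x in Ω, ((derS ℝ).en L U V : E3 → ℝ) x) -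
        form Ω (L.lam : Sm ℝ) (L.mu : Sm ℝ) u₁.grad r₂.grad -
        (form Ω (L.lam : Sm ℝ) (L.mu : Sm ℝ) r₁.grad u₂.grad -
          form Ω (L.lam : Sm ℝ) (L.mu : Sm ℝ) r₁.grad r₂.grad) := by
    intro L
    have e0 := form_sub_left hb hm (sco L.lam) (sco L.mu) u₁.grad_mem r₁.grad_mem
      (u₂.sub r₂).grad_mem
    have e1 := form_sub_left hb hm (sco L.lam) (sco L.mu) u₂.grad_mem r₂.grad_mem u₁.grad_mem
    have e2 := form_sub_left hb hm (sco L.lam) (sco L.mu) u₂.grad_mem r₂.grad_mem r₁.grad_mem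
    refine e0.trans ?_
    rw [form_symm (A := u₁.grad), form_symm (A := r₁.grad)]
    refine (congrArg₂ (· - ·) e1 e2).trans ?_
    rw [form_symm (A := u₂.grad) (B := u₁.grad), form_symm (A := r₂.grad) (B := u₁.grad),
      form_symm (A := u₂.grad) (B := r₁.grad), form_symm (A := r₂.grad) (B := r₁.grad),
      ← form_en L U V]
    rfl
  change form Ω _ _ (u₁.sub r₁).grad (u₂.sub r₂).grad =
    form Ω _ _ (u₁.sub r₁).grad (u₂.sub r₂).grad at al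
  rw [ex L₁, ex L₂] at al
  have : IsFiniteMeasure (volume.restrict Ω) := isFiniteMeasure_restrict.2 hb.measure_lt_top.ne
  have ei : ∫ x in Ω, ((derS ℝ).en L₁ U V - (derS ℝ).en L₂ U V : Sm ℝ).1 x =
      (∫ x in Ω, ((derS ℝ).en L₁ U V : E3 → ℝ) x) - ∫ x in Ω, ((derS ℝ).en L₂ U V : E3 → ℝ) x :=
    integral_sub ((memLp_of_cont hb (sco _)).integrable one_le_two)
      ((memLp_of_cont hb (sco _)).integrable one_le_two)
  rw [ei]
  set p := 1 + ‖ξ‖ with hp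
  have p1 : 1 ≤ p := by have := norm_nonneg ξ; linarith
  have p48 : p ^ 4 ≤ p ^ 8 := pow_le_pow_right₀ p1 (by norm_num)
  have p0 : 0 ≤ p ^ 4 := by positivity
  set S := a * b' + a' * b + a * a' with hS
  have s1 : a * b' ≤ S := by have := mul_nonneg ha' hb0; have := mul_nonneg ha ha'; linarith
  have s2 : a' * b ≤ S := by have := mul_nonneg ha hb'; have := mul_nonneg ha ha'; linarith
  have s3 : a * a' ≤ S := by have := mul_nonneg ha hb'; have := mul_nonneg ha' hb0; linarith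
  have b1 : s * b * (C₂ * p ^ 4 * a') ≤ C₂ * s * (p ^ 8 * S) := by
    calc s * b * (C₂ * p ^ 4 * a') = C₂ * s * (p ^ 4 * (a' * b)) := by ring
      _ ≤ _ := by gcongr
  have b2 : C₁ * p ^ 4 * a * (s * b') ≤ C₁ * s * (p ^ 8 * S) := by
    calc C₁ * p ^ 4 * a * (s * b') = C₁ * s * (p ^ 4 * (a * b')) := by ring
      _ ≤ _ := by gcongr
  have b3 : C₁ * p ^ 4 * a * (C₂ * p ^ 4 * a') ≤ C₁ * C₂ * (p ^ 8 * S) := by
    calc C₁ * p ^ 4 * a * (C₂ * p ^ 4 * a') = C₁ * C₂ * (p ^ 8 * (a * a')) := by ring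
      _ ≤ _ := by gcongr
  have x1 := abs_le.1 ((d₁ ξ _ _ _ _ gU g₂).trans (mul_le_mul_of_nonneg_left b1 hD₁))
  have x2 := abs_le.1 ((d₁ ξ _ _ _ _ g₁ gV).trans (mul_le_mul_of_nonneg_left b2 hD₁))
  have x3 := abs_le.1 ((d₁ ξ _ _ _ _ g₁ g₂).trans (mul_le_mul_of_nonneg_left b3 hD₁))
  have y1 := abs_le.1 ((d₂ ξ _ _ _ _ gU g₂).trans (mul_le_mul_of_nonneg_left b1 hD₂))
  have y2 := abs_le.1 ((d₂ ξ _ _ _ _ g₁ gV).trans (mul_le_mul_of_nonneg_left b2 hD₂))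
  have y3 := abs_le.1 ((d₂ ξ _ _ _ _ g₁ g₂).trans (mul_le_mul_of_nonneg_left b3 hD₂))
  have tot : (D₁ + D₂) * (C₁ * s + C₂ * s + C₁ * C₂) * p ^ 8 * S =
      D₁ * (C₂ * s * (p ^ 8 * S)) + D₁ * (C₁ * s * (p ^ 8 * S)) + D₁ * (C₁ * C₂ * (p ^ 8 * S)) +
      D₂ * (C₂ * s * (p ^ 8 * S)) + D₂ * (C₁ * s * (p ^ 8 * S)) +
      D₂ * (C₁ * C₂ * (p ^ 8 * S)) := by ring
  rw [tot, abs_le]
  constructor <;> linarith [x1.1, x1.2, x2.1, x2.2, x3.1, x3.2, y1.1, y1.2, y2.1, y2.2, y3.1, y3.2]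

end Vale.Agent.P136
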