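import Vale.Agent.P136.SolvR
import Vale.Agent.P136.Corr

/-!
# The concrete frame
-/

open MeasureTheory Set Metric
open scoped ContDiff RealInnerProductSpace

noncomputable section

namespace Vale.Agent.P136

variable {Ω : Set E3}

/-- The extension by zero of a smooth function vanishing on the frontier is Lipschitz. -/
theorem conc_lip (hb : Bornology.IsBounded Ω) {f : E3 → ℝ} (hf : ContDiff ℝ ∞ f)
    (h0 : ∀ x ∈ frontier Ω, f x = 0) : ∃ K, LipschitzWith K (Ω.indicator f) := by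
  obtain ⟨K, hK⟩ := (hf.of_le (by simp) : ContDiff ℝ 1 f).locallyLipschitz.locallyLipschitzOn
    |>.exists_lipschitzOnWith_of_compact hb.isCompact_closure
  have k : ∀ x ∈ Ω, ∀ y ∉ Ω, dist (Ω.indicator f x) (Ω.indicator f y) ≤ K * dist x y := by
    intro x hx y hy
    obtain ⟨z, hz, e⟩ := exists_mem_frontier_infDist_compl_eq_dist hx
      fun h => hy (h ▸ mem_univ y)
    rw [indicator_of_mem hx, indicator_of_notMem hy, ← h0 z hz]
    refine (hK.dist_le_mul x (subset_closure hx) z (frontier_subset_closure hz)).trans ?_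
    rw [← e]
    exact mul_le_mul_of_nonneg_left (infDist_le_dist_of_mem hy) K.2
  refine ⟨K, LipschitzWith.of_dist_le_mul fun x y => ?_⟩
  by_cases hx : x ∈ Ω <;> by_cases hy : y ∈ Ω
  · rw [indicator_of_mem hx, indicator_of_mem hy]
    exact hK.dist_le_mul x (subset_closure hx) y (subset_closure hy)
  · exact k x hx y hy
  · rw [dist_comm, dist_comm x]
    exact k y hy x hx
  · rw [indicator_of_notMem hx, indicator_of_notMem hy, dist_self]
    positivity

/-- A Lipschitz function has zero derivative almost everywhere on a set where it vanishes. -/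
theorem conc_null {g : E3 → ℝ} {K : NNReal} (hg : LipschitzWith K g) {s : Set E3}
    (hs : MeasurableSet s) (h0 : ∀ x ∈ s, g x = 0) (v : E3) :
    ∀ᵐ x, x ∈ s → lineDeriv ℝ g x v = 0 := by
  have hm := hs.inter (measurableSet_of_differentiableAt ℝ g)
  have h := ApproximatesLinearOn.norm_fderiv_sub_le volume (f := fun x => g x • ev 0) (A := 0)
    (δ := 0) (fun x hx y hy => by simp [h0 x hx.1, h0 y hy.1]) hm
    (fun x => (fderiv ℝ g x).smulRight (ev 0))
    fun x hx => (hx.2.hasFDerivAt.smul_const (ev 0)).hasFDerivWithinAt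
  filter_upwards [(ae_restrict_iff' hm).1 h, hg.ae_differentiableAt (μ := volume)] with x h1 h2 hx
  have h3 := h1 ⟨hx, h2⟩
  rw [sub_zero, nonpos_iff_eq_zero, nnnorm_eq_zero] at h3
  rw [h2.lineDeriv_eq_fderiv]
  simpa using congrArg (fun A : E3 →L[ℝ] E3 => A v 0) h3

/-- Let `S` be smooth with `S s = s` near `0`, bounded with bounded derivative and constant for
large `|s|`, `S_ε s = ε S (s / ε)`. Then `(f - S_ε f) 1_Ω` is a test function, so
`∫ (1 - S' (f / ε)) pd j f = 0` and the integral of `pd j f` over `Ω ∩ {f ≠ 0}` vanishes; the set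
where `f = 0` and `pd j f ≠ 0` is null. -/
theorem int_pd_zero (ho : IsOpen Ω) (hb : Bornology.IsBounded Ω) {f : E3 → ℝ}
    (hf : ContDiff ℝ ∞ f) (h0 : ∀ x ∈ frontier Ω, f x = 0) (j : Fin 3) :
    ∫ x in Ω, pd j f x = 0 := by
  obtain ⟨K, hK⟩ := conc_lip hb hf h0
  have h := (LipschitzWith.const (1 : ℝ)).integral_lineDeriv_mul_eq (μ := volume) hK
    (HasCompactSupport.intro hb.isCompact_closure fun x hx =>
      indicator_of_notMem (fun k => hx (subset_closure k)) f) (-ev j)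
  have z : ∀ x v : E3, lineDeriv ℝ (fun _ => (1 : ℝ)) x v = 0 := fun _ _ => deriv_const _ _
  simp only [neg_neg, mul_one, z, zero_mul, integral_zero] at h
  rw [h, ← setIntegral_eq_integral_of_ae_compl_eq_zero (s := Ω)
    (conc_null hK ho.measurableSet.compl (fun x hx => indicator_of_notMem hx f) (ev j))]
  refine setIntegral_congr_fun ho.measurableSet fun x hx => ?_
  have e : Ω.indicator f =ᶠ[nhds x] f := by
    filter_upwards [ho.mem_nhds hx] with y hy using indicator_of_mem hy f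
  exact (e.lineDeriv_eq.trans (hf.differentiable (by simp) x).lineDeriv_eq_fderiv).symm

theorem conc_int {ρ : ℝ} (hΩ : Ω ⊆ ball 0 ρ) {V : Type*} [NormedAddCommGroup V] {f : E3 → V}
    (hf : Continuous f) : IntegrableOn f Ω :=
  (hf.continuousOn.integrableOn_compact (isCompact_closedBall 0 ρ)).mono_set
    (hΩ.trans ball_subset_closedBall)

/-- Integration over `Ω` on the ring of restrictions. -/
theorem exists_I (ho : IsOpen Ω) {ρ : ℝ} (hΩ : Ω ⊆ ball 0 ρ) :
    ∃ I : Rg ρ →L[ℂ] ℂ, ∀ f : Sm ℂ, I (rs ρ f) = ∫ x in Ω, (f : E3 → ℂ) x := by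
  have n : ∀ x ∈ Ω, ‖x‖ ≤ ρ := fun x hx => (mem_ball_zero_iff.1 (hΩ hx)).le
  have e : ∀ f : Sm ℂ, ∫ x in Ω, (rep (rs ρ f) : E3 → ℂ) x = ∫ x in Ω, (f : E3 → ℂ) x := fun f =>
    setIntegral_congr_fun ho.measurableSet fun x hx => rs_eq_iff.1 (rs_rep _) x (n x hx)
  refine ⟨LinearMap.mkContinuous ⟨⟨fun F => ∫ x in Ω, (rep F : E3 → ℂ) x, fun F G => ?_⟩,
    fun c F => ?_⟩ (volume.real Ω) fun F => ?_, e⟩
  · obtain ⟨f, rfl⟩ := rs_surj ρ F
    obtain ⟨g, rfl⟩ := rs_surj ρ G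
    rw [← map_add, e, e, e]
    exact integral_add (conc_int hΩ (sco f)) (conc_int hΩ (sco g))
  · obtain ⟨f, rfl⟩ := rs_surj ρ F
    simp only [← map_smul, e]
    exact integral_smul c _
  · rw [mul_comm]
    exact norm_setIntegral_le_of_norm_le_const
      ((measure_mono hΩ).trans_lt measure_ball_lt_top) fun x hx =>
        (le_norm_rs _ (n x hx)).trans_eq (congrArg _ (rs_rep F))

/-- The concrete frame. -/
theorem exists_frame (ho : IsOpen Ω) {ρ : ℝ} (hρ : 0 < ρ) (hΩ : Ω ⊆ ball 0 ρ) :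
    ∃ X : Fr (Rg ρ), X.toDer = derR hρ ∧
      (∀ f : Sm ℂ, X.I (rs ρ f) = ∫ x in Ω, (f : E3 → ℂ) x) ∧
      (∀ f : Sm ℂ, (∀ x ∈ frontier Ω, (f : E3 → ℂ) x = 0) → rs ρ f ∈ X.J) ∧
      ∀ ζ, X.ex ζ = rs ρ (exS ζ) := by
  obtain ⟨T, hT⟩ := exists_I ho hΩ
  have hb : Bornology.IsBounded Ω := isBounded_ball.subset hΩ
  let J : Ideal (Rg ρ) :=
    { carrier := {F | ∃ f : Sm ℂ, rs ρ f = F ∧ ∀ x ∈ frontier Ω, (f : E3 → ℂ) x = 0}
      add_mem' := by
        rintro _ _ ⟨f, rfl, hf⟩ ⟨g, rfl, hg⟩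
        exact ⟨f + g, map_add _ _ _, fun x hx => by simp [hf x hx, hg x hx]⟩
      zero_mem' := ⟨0, map_zero _, fun _ _ => rfl⟩
      smul_mem' := by
        rintro G _ ⟨f, rfl, hf⟩
        obtain ⟨g, rfl⟩ := rs_surj ρ G
        exact ⟨g * f, map_mul _ _ _, fun x hx => by simp [hf x hx]⟩ }
  have z : ∀ (j : Fin 3) (g : Sm ℝ), (∀ x ∈ frontier Ω, (g : E3 → ℝ) x = 0) →
      T (rs ρ ((derS ℂ).d j (toC g))) = 0 := fun j g hg => by
    rw [toC_d, hT]
    simp only [toC_apply, derS_pd]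
    rw [integral_complex_ofReal, int_pd_zero ho hb (smo g) hg, Complex.ofReal_zero]
  refine ⟨⟨derR hρ, T, J, ?_, fun ζ => rs ρ (exS ζ), fun ζ j => ?_, fun ζ => ?_, solv_R hρ,
    bez_R hρ⟩, rfl, hT, fun f hf => ⟨f, rfl, hf⟩, fun _ => rfl⟩
  · rintro j _ ⟨f, rfl, hf⟩
    rw [derR_rs, ← re_add_im f, map_add, Derivation.map_smul, map_add, map_smul, map_add, map_smul,
      z j _ fun x hx => congrArg Complex.re (hf x hx),
      z j _ fun x hx => congrArg Complex.im (hf x hx), smul_zero, add_zero]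
  · rw [derR_rs, exS_d, map_mul, AlgHom.commutes]
  · rw [← map_mul, exS_neg, map_one]

/-- The ring homomorphism from real smooth functions to the ring of restrictions. -/
def emb (ρ : ℝ) : Sm ℝ →+* Rg ρ := (rs ρ : Sm ℂ →+* Rg ρ).comp toC

section

variable {K K' A B : Type*} [CommRing K] [CommRing K'] [CommRing A] [CommRing B] [Algebra K A]
  [Algebra K' B]

theorem conc_sig_map (X : Der K A) (Y : Der K' B) (φ : A →+* B)
    (h : ∀ j f, Y.d j (φ f) = φ (X.d j f)) (L : Lame A) (U : Fin 3 → A) (i j : Fin 3) :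
    Y.sig (L.map φ) (fun k => φ (U k)) i j = φ (X.sig L U i j) := by
  simp only [Der.sig, Der.div, h, Lame.map_mu, Lame.map_lam, map_add, map_mul, map_sum,
    apply_ite φ, map_zero]

theorem conc_sig_add (X : Der K A) (L : Lame A) (U V : Fin 3 → A) (c : K) (i j : Fin 3) :
    X.sig L (fun k => U k + c • V k) i j = X.sig L U i j + c • X.sig L V i j := by
  simp only [Der.sig, Der.div, map_add, Derivation.map_smul, Fin.sum_univ_three]
  split_ifs <;> simp only [Algebra.smul_def] <;> ring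

theorem conc_Lop (X : Der K A) (Y : Der K' B) (φ : A →+* B)
    (h : ∀ j f, Y.d j (φ f) = φ (X.d j f)) (L : Lame A) (U V : Fin 3 → A) (c : K') (i : Fin 3) :
    Y.Lop (L.map φ) (fun k => φ (U k) + c • φ (V k)) i =
      φ (X.Lop L U i) + c • φ (X.Lop L V i) := by
  simp only [Der.Lop, conc_sig_add, conc_sig_map X Y φ h, map_add, Derivation.map_smul, h, map_sum,
    Finset.sum_add_distrib, Finset.smul_sum]

theorem conc_en (X : Der K A) (Y : Der K' B) (φ : A →+* B)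
    (h : ∀ j f, Y.d j (φ f) = φ (X.d j f)) (L : Lame A) (U V U' V' : Fin 3 → A) (c : K') :
    Y.en (L.map φ) (fun k => φ (U k) + c • φ (V k)) (fun k => φ (U' k) + c • φ (V' k)) =
      φ (X.en L U U') + c • φ (X.en L U V') + c • φ (X.en L V U') + c • c • φ (X.en L V V') := by
  simp only [Der.en, conc_sig_add, conc_sig_map X Y φ h, map_add, Derivation.map_smul, h, map_sum,
    map_mul, Finset.smul_sum, ← Finset.sum_add_distrib]
  refine Finset.sum_congr rfl fun i _ => Finset.sum_congr rfl fun j _ => ?_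
  simp only [Algebra.smul_def]
  ring

end

/-- The real part of a complex vector. -/
def concRe (ζ : Fin 3 → ℂ) : E3 := WithLp.toLp 2 fun j => (ζ j).re

theorem concRe_neg (ζ : Fin 3 → ℂ) : concRe (-ζ) = -concRe ζ := rfl

theorem norm_concRe (ζ : Fin 3 → ℂ) : ‖concRe ζ‖ ≤ 2 * ‖ζ‖ := by
  have h : ∀ j, (ζ j).re ^ 2 ≤ ‖ζ‖ ^ 2 := fun j => sq_le_sq' (neg_le_of_abs_le
    ((Complex.abs_re_le_norm _).trans (norm_le_pi_norm ζ j))) ((Complex.re_le_norm _).trans
      (norm_le_pi_norm ζ j))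
  refine abs_le_of_sq_le_sq' ?_ (by positivity) |>.2
  rw [EuclideanSpace.real_norm_sq_eq, Fin.sum_univ_three]
  have := h 0
  have := h 1
  have := h 2
  change (ζ 0).re ^ 2 + (ζ 1).re ^ 2 + (ζ 2).re ^ 2 ≤ _
  nlinarith [sq_nonneg ‖ζ‖]

theorem conc_bd {ρ a : ℝ} {ζ : Fin 3 → ℂ} {A B : Sm ℝ}
    (h : ‖rs ρ (exS (-ζ)) * (emb ρ A + Complex.I • emb ρ B)‖ ≤ a) (x : E3) (hx : ‖x‖ ≤ ρ) :
    |(A : E3 → ℝ) x| ≤ a * Real.exp ⟪concRe ζ, x⟫ ∧
      |(B : E3 → ℝ) x| ≤ a * Real.exp ⟪concRe ζ, x⟫ := by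
  have h1 := le_norm_rs (exS (-ζ) * (toC A + Complex.I • toC B)) hx
  rw [map_mul, map_add, map_smul] at h1
  have h2 : ‖(exS (-ζ) : E3 → ℂ) x * ((A : E3 → ℝ) x + Complex.I * (B : E3 → ℝ) x)‖ ≤ a :=
    h1.trans h
  have e : (∑ j, (-ζ) j * (x j : ℂ)).re = -⟪concRe ζ, x⟫ := by
    simp [concRe, PiLp.inner_apply, Fin.sum_univ_three, mul_comm]
  rw [norm_mul, exS_apply, Complex.norm_exp, e, Real.exp_neg, inv_mul_le_iff₀ (Real.exp_pos _),
    mul_comm _ a] at h2
  exact ⟨le_trans (by simpa using Complex.abs_re_le_norm (A.1 x + Complex.I * B.1 x)) h2,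
    le_trans (by simpa using Complex.abs_im_le_norm (A.1 x + Complex.I * B.1 x)) h2⟩

/-- Split smooth representatives into real and imaginary parts and use `alessR` four times with
`ξ = Re ζ`. -/
theorem aless_frame (ho : IsOpen Ω) {R : ℝ} (hR : 0 < R) (hΩ : Ω ⊆ ball 0 R)
    (L₁ L₂ : Lame (Sm ℝ))
    (h : Aless0 Ω (L₁.lam : Sm ℝ) (L₁.mu : Sm ℝ) (L₂.lam : Sm ℝ) (L₂.mu : Sm ℝ))
    (hρ : 0 < R + 2) (X : Fr (Rg (R + 2))) (hd : X.toDer = derR hρ)
    (hI : ∀ f : Sm ℂ, X.I (rs (R + 2) f) = ∫ x in Ω, (f : E3 → ℂ) x)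
    (he : ∀ ζ, X.ex ζ = rs (R + 2) (exS ζ)) :
    X.Aless (L₁.map (emb (R + 2))) (L₂.map (emb (R + 2))) := by
  obtain ⟨C, hC, hA⟩ := alessR ho hR hΩ L₁ L₂ h
  have hc : ∀ j f, X.toDer.d j (emb (R + 2) f) = emb (R + 2) ((derS ℝ).d j f) := fun j f => by
    rw [hd]
    exact (derR_rs hρ j (toC f)).trans (congrArg _ (toC_d j f))
  have sp : ∀ U : Fin 3 → Rg (R + 2), ∃ u v : Fin 3 → Sm ℝ,
      U = fun k => emb (R + 2) (u k) + Complex.I • emb (R + 2) (v k) := fun U =>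
    ⟨fun k => reS (rep (U k)), fun k => imS (rep (U k)), funext fun k => by
      conv_lhs => rw [← rs_rep (U k), ← re_add_im (rep (U k)), map_add, map_smul]
      rfl⟩
  refine ⟨4 * 2 ^ 8 * C, 8, by positivity, fun ζ U V a b a' b' h1 h2 h3 h4 => ?_⟩
  obtain ⟨u, v, rfl⟩ := sp U
  obtain ⟨u', v', rfl⟩ := sp V
  have a0 := (norm_nonneg _).trans (h1 0)
  have b0 := (norm_nonneg _).trans (h2 0 0)
  have a1 := (norm_nonneg _).trans (h3 0)
  have b1 := (norm_nonneg _).trans (h4 0 0)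
  rw [← neg_neg ζ] at h3 h4
  simp only [conc_Lop (derS ℝ) X.toDer _ hc, he, map_add, Derivation.map_smul, hc] at h1 h2 h3 h4
  have k : ∀ {W W' : Fin 3 → Sm ℝ}, W = u ∨ W = v → W' = u' ∨ W' = v' →
      ‖X.I (emb (R + 2) ((derS ℝ).en L₁ W W') - emb (R + 2) ((derS ℝ).en L₂ W W'))‖ ≤
        2 ^ 8 * C * (1 + ‖ζ‖) ^ 8 * (a * b' + a' * b + a * a') := fun {W W'} hW hW' => by
    have e := hI (toC ((derS ℝ).en L₁ W W' - (derS ℝ).en L₂ W W'))
    simp only [toC_apply] at e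
    rw [← map_sub, show emb (R + 2) _ = rs (R + 2) (toC _) from rfl, e, integral_complex_ofReal,
      Complex.norm_real, Real.norm_eq_abs]
    refine (hA (concRe ζ) W W' a b a' b' a0 b0 a1 b1 (fun i x hx => ?_) (fun i j x hx => ?_)
      (fun i x hx => ?_) fun i j x hx => ?_).trans ?_
    · rcases hW with rfl | rfl
      exacts [(conc_bd (h1 i) x hx).1, (conc_bd (h1 i) x hx).2]
    · rcases hW with rfl | rfl
      exacts [(conc_bd (h2 i j) x hx).1, (conc_bd (h2 i j) x hx).2]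
    · rcases hW' with rfl | rfl
      exacts [(conc_bd (h3 i) x hx).1, (conc_bd (h3 i) x hx).2]
    · rcases hW' with rfl | rfl
      exacts [(conc_bd (h4 i j) x hx).1, (conc_bd (h4 i j) x hx).2]
    · rw [mul_comm (2 ^ 8) C, mul_assoc C (2 ^ 8), ← mul_pow]
      gcongr
      linarith [norm_concRe ζ]
  have e : ∀ p q r s p' q' r' s' : Rg (R + 2), p + Complex.I • q + Complex.I • r +
      Complex.I • Complex.I • s - (p' + Complex.I • q' + Complex.I • r' +
        Complex.I • Complex.I • s') = (p - p') + Complex.I • (q - q') + Complex.I • (r - r') +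
          Complex.I • Complex.I • (s - s') := fun _ _ _ _ _ _ _ _ => by
    simp only [smul_sub]
    abel
  rw [conc_en (derS ℝ) X.toDer _ hc, conc_en (derS ℝ) X.toDer _ hc, e, map_add, map_add, map_add,
    map_smul, map_smul, map_smul, map_smul]
  refine norm_add₄_le.trans ?_
  simp only [norm_smul, Complex.norm_I, one_mul]
  linarith [k (Or.inl rfl) (Or.inl rfl), k (Or.inl rfl) (Or.inr rfl), k (Or.inr rfl) (Or.inl rfl),
    k (Or.inr rfl) (Or.inr rfl)]

/-- A real smooth function that is null for the frame vanishes on `Ω`. -/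
theorem zero_of_nul (ho : IsOpen Ω) {ρ : ℝ} (hΩ : Ω ⊆ ball 0 ρ) (X : Fr (Rg ρ))
    (hI : ∀ f : Sm ℂ, X.I (rs ρ f) = ∫ x in Ω, (f : E3 → ℂ) x) (f : Sm ℝ)
    (h : X.Nul (emb ρ f)) : ∀ x ∈ Ω, (f : E3 → ℝ) x = 0 := by
  have e := h (emb ρ f)
  rw [← map_mul, show emb ρ _ = rs ρ (toC _) from rfl, hI] at e
  simp only [toC_apply] at e
  rw [integral_complex_ofReal, Complex.ofReal_eq_zero, setIntegral_eq_zero_iff_of_nonneg_ae (f := (f * f).1)
    (Filter.Eventually.of_forall fun x => mul_self_nonneg ((f : E3 → ℝ) x))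
    (conc_int hΩ (sco _))] at e
  exact fun x hx => mul_self_eq_zero.1
    (Measure.eqOn_open_of_ae_eq e ho (sco _).continuousOn continuousOn_const hx)

/-- Extension of admissible moduli to globally admissible ones:
`μ' = χ μ + (1 - χ)`, `λ' = χ λ`, `n = √μ'`, `c = (λ' + μ') / μ'`. -/
theorem exists_lame (hb : Bornology.IsBounded Ω) {lam mu : E3 → ℝ} (h : Admissible Ω lam mu) :
    ∃ L : Lame (Sm ℝ), (∀ x ∈ closure Ω, (L.lam : E3 → ℝ) x = lam x ∧ (L.mu : E3 → ℝ) x = mu x) ∧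
      ∀ x, 0 < (L.n : E3 → ℝ) x := by
  have _ := hb
  obtain ⟨hl, hm, hp⟩ := h
  have ho : IsOpen {x | 0 < mu x ∧ 0 < 3 * lam x + 2 * mu x} :=
    (isOpen_lt continuous_const hm.continuous).inter (isOpen_lt continuous_const
      ((continuous_const.mul hl.continuous).add (continuous_const.mul hm.continuous)))
  obtain ⟨χ, h0, h1, h2⟩ := exists_contMDiffMap_zero_one_of_isClosed (modelWithCornersSelf ℝ E3)
    (n := ⊤) ho.isClosed_compl isClosed_closure (disjoint_left.2 fun x hx k => hx (hp x k))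
  have hχ : ContDiff ℝ ∞ χ := χ.contMDiff.contDiff
  have p : ∀ x, 0 < χ x * mu x + (1 - χ x) ∧
      0 < 3 * (χ x * lam x) + 2 * (χ x * mu x + (1 - χ x)) := fun x => by
    obtain ⟨c0, c1⟩ := h2 x
    rcases c0.eq_or_lt with c | c
    · rw [← c]
      norm_num
    · have k : 0 < mu x ∧ 0 < 3 * lam x + 2 * mu x := by_contra fun k => c.ne' (h0 k)
      constructor <;> nlinarith [mul_pos c k.1, mul_pos c k.2]
  set m : E3 → ℝ := fun x => χ x * mu x + (1 - χ x) with hm'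
  set l : E3 → ℝ := fun x => χ x * lam x with hl'
  have sm : ContDiff ℝ ∞ m := (hχ.mul hm).add (contDiff_const.sub hχ)
  have sl : ContDiff ℝ ∞ l := hχ.mul hl
  have p1 : ∀ x, 0 < m x := fun x => (p x).1
  have p2 : ∀ x, 0 < l x + m x := fun x => by linarith [(p x).1, (p x).2]
  have p3 : ∀ x, 0 < l x + m x + m x := fun x => add_pos (p2 x) (p1 x)
  have p4 : ∀ x, 0 < √(m x) := fun x => Real.sqrt_pos.2 (p1 x)
  have sn := sm.sqrt fun x => (p1 x).ne'
  refine ⟨⟨⟨_, sn⟩, ⟨_, sn.inv fun x => (p4 x).ne'⟩, ⟨_, (sl.add sm).div sm fun x => (p1 x).ne'⟩,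
    ⟨_, sm.div (sl.add sm) fun x => (p2 x).ne'⟩,
    ⟨_, sm.div ((sl.add sm).add sm) fun x => (p3 x).ne'⟩, Subtype.ext (funext fun x => ?_),
    Subtype.ext (funext fun x => ?_), Subtype.ext (funext fun x => ?_)⟩, fun x hx => ?_, p4⟩
  · exact mul_inv_cancel₀ (p4 x).ne'
  · change (l x + m x) / m x * (m x / (l x + m x)) = 1
    field_simp [(p1 x).ne', (p2 x).ne']
  · change ((l x + m x) / m x + 1) * (m x / (l x + m x + m x)) = 1
    field_simp [(p1 x).ne', (p3 x).ne']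
  · change ((l x + m x) / m x - 1) * √(m x) ^ 2 = lam x ∧ √(m x) ^ 2 = mu x
    have c : χ x = 1 := h1 hx
    rw [Real.sq_sqrt (p1 x).le, sub_mul, div_mul_cancel₀ _ (p1 x).ne']
    simp [hm', hl', c]

end Vale.Agent.P136
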