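import Vale.Agent.P136.Orth

/-!
# Spinor coordinates for the transport systems
-/

noncomputable section

namespace Vale.Agent.P136

open Complex

/-- The null vector attached to a spinor. -/
def th (p q : ℂ) : Fin 3 → ℂ := ![p ^ 2 - q ^ 2, I * (p ^ 2 + q ^ 2), 2 * p * q]

/-- A basis of the orthogonal complement of `th p q`. -/
def ee (p q : ℂ) : Fin 2 → Fin 3 → ℂ := ![![p, I * p, q], ![-q, I * q, p]]

variable {R : Type*} [NormedCommRing R] [NormedAlgebra ℂ R]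

/-- `ε i = e i . g`. -/
def Der.eps (X : Der ℂ R) (L : Lame R) (p q : ℂ) (i : Fin 2) : R := X.t L (cst (ee p q i))

lemma th_null (p q : ℂ) : Null (th p q) := by
  simp only [Null, th, Matrix.cons_val_zero, Matrix.cons_val_one, Matrix.cons_val]
  linear_combination (p ^ 2 + q ^ 2) ^ 2 * I_sq

lemma th_ne {p : ℂ} (hp : p ≠ 0) (q : ℂ) : th p q ≠ 0 := by
  intro h
  have h0 := congrFun h 0
  have h1 := congrFun h 1
  simp only [th, Matrix.cons_val_zero, Matrix.cons_val_one, Pi.zero_apply] at h0 h1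
  apply pow_ne_zero 2 hp
  linear_combination (1 / 2 : ℂ) * h0 - (I / 2) * h1 + (p ^ 2 + q ^ 2) / 2 * I_sq

lemma th_eq (p q : ℂ) (j : Fin 3) : th p q j = p * ee p q 0 j + q * ee p q 1 j := by
  fin_cases j <;> simp [th, ee] <;> ring

lemma Der.t_th (X : Der ℂ R) (L : Lame R) (p q : ℂ) :
    X.t L (cst (th p q)) = p • X.eps L p q 0 + q • X.eps L p q 1 := by
  simp only [Der.eps, Der.t, cst_mul, th_eq, Fin.sum_univ_three]
  module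

/-- The transport matrix. -/
def Der.Bm (X : Der ℂ R) (L : Lame R) (p q : ℂ) : Matrix (Fin 3) (Fin 3) R :=
  !![(-p / 2) • X.eps L p q 0, (-p / 2) • X.eps L p q 1, (-p / 2) • L.a;
    (-q / 2) • X.eps L p q 0, (-q / 2) • X.eps L p q 1, (-q / 2) • L.a;
    X.t L (cst (th p q)) * X.eps L p q 0 - X.D (cst (th p q)) (X.eps L p q 0),
      X.t L (cst (th p q)) * X.eps L p q 1 - X.D (cst (th p q)) (X.eps L p q 1),
      (1 / 2 : ℂ) • X.t L (cst (th p q))]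

/-- The boundary value of the gauge. -/
def Der.G0 (X : Der ℂ R) (L₁ L₂ : Lame R) (p q : ℂ) : Matrix (Fin 3) (Fin 3) R :=
  !![1, 0, 0; 0, 1, 0;
    X.eps L₁ p q 0 - X.eps L₂ p q 0, X.eps L₁ p q 1 - X.eps L₂ p q 1, 1]

/-- Orthogonality of solutions of the first system and of the dual second system. -/
def Fr.Orth3 (X : Fr R) (θ : Fin 3 → ℂ) (B₁ B₂ G : Matrix (Fin 3) (Fin 3) R) : Prop :=
  ∀ a b : Fin 3 → R, (∀ i, X.D (cst θ) (a i) = ∑ j, B₁ i j * a j) →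
    (∀ i, X.D (cst θ) (b i) = - ∑ j, B₂ j i * b j) →
      X.I (X.D (cst θ) (∑ i, ∑ j, G i j * (b i * a j))) = 0

lemma th_dot (p q : ℂ) (a : Fin 2) : ∑ j, ee p q a j * th p q j = 0 := by
  fin_cases a <;> simp [ee, th, Fin.sum_univ_three]
  · linear_combination p * (p ^ 2 + q ^ 2) * I_sq
  · linear_combination q * (p ^ 2 + q ^ 2) * I_sq

lemma exists_dual {p : ℂ} (hp : p ≠ 0) (q : ℂ) : ∃ (ν : Fin 3 → ℂ) (f : Fin 2 → Fin 3 → ℂ),
    (∀ i j, ν i * th p q j + ee p q 0 i * f 0 j + ee p q 1 i * f 1 j = if i = j then 1 else 0) ∧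
      ∑ j, ν j * th p q j = 1 ∧ ∀ a b, ∑ j, ee p q a j * f b j = if a = b then 1 else 0 := by
  refine ⟨![1 / (2 * p ^ 2), -I / (2 * p ^ 2), 0],
    ![![1 / (2 * p), -I / (2 * p), 0], ![-q / (2 * p ^ 2), I * q / (2 * p ^ 2), 1 / p]],
    fun i j => ?_, ?_, fun a b => ?_⟩
  · fin_cases i <;> fin_cases j <;> simp [th, ee] <;> field_simp <;> ring_nf <;> simp
  · simp [th, Fin.sum_univ_three]; field_simp; ring_nf; simp; ring
  · fin_cases a <;> fin_cases b <;> simp [ee, Fin.sum_univ_three] <;> field_simp <;> ring_nf <;>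
      simp <;> ring

lemma half_smul (c : ℂ) (x : R) : (-c / 2) • x = -hf R * algebraMap ℂ R c * x := by
  rw [Algebra.smul_def, hf, ← map_neg, ← map_mul]; congr 2; ring

lemma half_smul' (x : R) : (1 / 2 : ℂ) • x = hf R * x := Algebra.smul_def _ _

section Ring

variable (X : Der ℂ R) (L : Lame R) {θ e₀ e₁ : Fin 3 → R} {P Q : R}
  (h₀ : ∀ i j, X.d i (e₀ j) = 0) (h₁ : ∀ i j, X.d i (e₁ j) = 0)
  (hθ : ∀ j, θ j = P * e₀ j + Q * e₁ j)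

include h₀ h₁ hθ in
lemma T1_coord (o₀ o₁ r : R) (i : Fin 3) :
    X.T1 L θ (fun k => L.ni * (o₀ * e₀ k + o₁ * e₁ k)) (L.ni * L.ki * r) i =
      L.ni * (e₀ i * (2 * X.D θ o₀ + P * (L.a * r + X.t L e₀ * o₀ + X.t L e₁ * o₁)) +
        e₁ i * (2 * X.D θ o₁ + Q * (L.a * r + X.t L e₀ * o₀ + X.t L e₁ * o₁))) := by
  simp only [Der.T1, Der.D, Der.t, Lame.a, Fin.sum_univ_three, X.d_mul, map_add, h₀, h₁]
  linear_combination (θ 0 * X.d_ni' L 0 + θ 1 * X.d_ni' L 1 + θ 2 * X.d_ni' L 2) *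
    (o₀ * e₀ i + o₁ * e₁ i) + L.ni * (L.c * L.ki * r + (e₀ 0 * X.g L 0 + e₀ 1 * X.g L 1 +
      e₀ 2 * X.g L 2) * o₀ + (e₁ 0 * X.g L 0 + e₁ 1 * X.g L 1 + e₁ 2 * X.g L 2) * o₁) * hθ i

include h₀ h₁ in
lemma T2_coord (o₀ o₁ r : R) :
    X.T2 L θ (fun k => L.ni * (o₀ * e₀ k + o₁ * e₁ k)) (L.ni * L.ki * r) =
      L.ni * (2 * X.D θ r - X.t L θ * r -
        2 * (o₀ * (X.t L θ * X.t L e₀ - X.D θ (X.t L e₀)) +
          o₁ * (X.t L θ * X.t L e₁ - X.D θ (X.t L e₁)))) := by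
  simp only [Der.T2, Der.D, Der.t, Der.gam, Fin.sum_univ_three, X.d_mul, map_add, h₀, h₁, X.d_ki,
    X.g10, X.g20, X.g21]
  linear_combination (θ 0 * X.d_ni' L 0 + θ 1 * X.d_ni' L 1 + θ 2 * X.d_ni' L 2) * r +
    (2 * (θ 0 * (X.d 0 L.ni * r + L.ni * X.d 0 r) + θ 1 * (X.d 1 L.ni * r + L.ni * X.d 1 r) +
      θ 2 * (X.d 2 L.ni * r + L.ni * X.d 2 r)) - 2 * L.ni * L.ki * r *
        (θ 0 * X.d 0 L.c + θ 1 * X.d 1 L.c + θ 2 * X.d 2 L.c)) * L.k_ki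

include h₀ in
lemma Ru_dot (w : Fin 3 → R) (F : R) : ∑ i, e₀ i * X.Ru L θ w F i =
    2 * X.D θ (∑ i, e₀ i * w i) - X.t L θ * ∑ i, e₀ i * w i - X.t L e₀ * ∑ i, θ i * w i -
      2 * (X.D θ (X.t L e₀) - X.t L θ * X.t L e₀) * F := by
  simp only [Der.Ru, Der.D, Der.t, Der.gam, Fin.sum_univ_three, X.d_mul, map_add, h₀,
    X.g10, X.g20, X.g21]
  ring

lemma D_n (f : R) : 2 * X.D θ (L.n * f) = L.n * (2 * X.D θ f + X.t L θ * f) := by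
  simp only [Der.D, Der.t, Fin.sum_univ_three, X.d_mul]
  linear_combination (θ 0 * X.d_n L 0 + θ 1 * X.d_n L 1 + θ 2 * X.d_n L 2) * f

end Ring

theorem orth3 (X : Fr R) (L₁ L₂ : Lame R) (hA : X.Aless L₁ L₂) (hJ : L₁.n - L₂.n ∈ X.J)
    {p : ℂ} (hp : p ≠ 0) (q : ℂ) :
    X.Orth3 (th p q) (X.Bm L₁ p q) (X.Bm L₂ p q) (X.G0 L₁ L₂ p q) := by
  intro a b ha hb
  have hθ := th_null p q
  have hθ0 := th_ne hp q
  obtain ⟨ν', f', d1, d2, d3⟩ := exists_dual hp q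
  set θ : Fin 3 → R := cst (th p q) with hθd
  set e₀ : Fin 3 → R := cst (ee p q 0) with he₀
  set e₁ : Fin 3 → R := cst (ee p q 1) with he₁
  set ν : Fin 3 → R := cst ν' with hν
  set f₀ : Fin 3 → R := cst (f' 0) with hf₀
  set f₁ : Fin 3 → R := cst (f' 1) with hf₁
  set P : R := algebraMap ℂ R p with hP
  set Q : R := algebraMap ℂ R q with hQ
  have hz : ∀ i j, X.d i (θ j) = 0 := cst_d _ _
  have z₀ : ∀ i j, X.d i (e₀ j) = 0 := cst_d _ _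
  have z₁ : ∀ i j, X.d i (e₁ j) = 0 := cst_d _ _
  have zν : ∀ i j, X.d i (ν j) = 0 := cst_d _ _
  have hn : θ 0 ^ 2 + θ 1 ^ 2 + θ 2 ^ 2 = 0 := hθ.cst
  have m := two_hf (R := R)
  have r0 : ∀ j, θ j = P * e₀ j + Q * e₁ j := fun j => by
    simp [hθd, he₀, he₁, hP, hQ, cst, th_eq]
  have r1 : ∀ i j, ν i * θ j + e₀ i * f₀ j + e₁ i * f₁ j = if i = j then 1 else 0 := fun i j => by
    have := congrArg (algebraMap ℂ R) (d1 i j)
    simp only [map_add, map_mul, apply_ite (algebraMap ℂ R), map_one, map_zero] at this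
    exact this
  have lift : ∀ (x y : Fin 3 → ℂ) (c : ℂ), ∑ j, x j * y j = c →
      (cst x 0 : R) * cst y 0 + cst x 1 * cst y 1 + cst x 2 * cst y 2 = algebraMap ℂ R c := by
    intro x y c h
    rw [← h]; simp [cst, Fin.sum_univ_three]
  have r2 : ν 0 * θ 0 + ν 1 * θ 1 + ν 2 * θ 2 = 1 := by simpa using lift _ _ _ d2
  have r00 : e₀ 0 * f₀ 0 + e₀ 1 * f₀ 1 + e₀ 2 * f₀ 2 = 1 := by simpa using lift _ _ _ (d3 0 0)
  have r01 : e₀ 0 * f₁ 0 + e₀ 1 * f₁ 1 + e₀ 2 * f₁ 2 = 0 := by simpa using lift _ _ _ (d3 0 1)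
  have r10 : e₁ 0 * f₀ 0 + e₁ 1 * f₀ 1 + e₁ 2 * f₀ 2 = 0 := by simpa using lift _ _ _ (d3 1 0)
  have r11 : e₁ 0 * f₁ 0 + e₁ 1 * f₁ 1 + e₁ 2 * f₁ 2 = 1 := by simpa using lift _ _ _ (d3 1 1)
  have t0 : e₀ 0 * θ 0 + e₀ 1 * θ 1 + e₀ 2 * θ 2 = 0 := by simpa using lift _ _ _ (th_dot p q 0)
  have t1 : e₁ 0 * θ 0 + e₁ 1 * θ 1 + e₁ 2 * θ 2 = 0 := by simpa using lift _ _ _ (th_dot p q 1)
  have dec : ∀ (v : Fin 3 → R) i, v i = ν i * ∑ j, θ j * v j + e₀ i * ∑ j, f₀ j * v j +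
      e₁ i * ∑ j, f₁ j * v j := fun v i => by
    have : v i = ∑ j, (if i = j then 1 else 0) * v j := by simp
    rw [this]
    simp only [← r1, Fin.sum_univ_three]; ring
  have dec' : ∀ (v : Fin 3 → R) j, v j = θ j * ∑ i, ν i * v i + f₀ j * ∑ i, e₀ i * v i +
      f₁ j * ∑ i, e₁ i * v i := fun v j => by
    have : v j = ∑ i, (if i = j then 1 else 0) * v i := by simp
    rw [this]
    simp only [← r1, Fin.sum_univ_three]; ring
  have row : ∀ (L : Lame R) (x : Fin 3 → R),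
      ∑ j, X.Bm L p q 0 j * x j = -hf R * P * (L.a * x 2 + X.t L e₀ * x 0 + X.t L e₁ * x 1) ∧
      ∑ j, X.Bm L p q 1 j * x j = -hf R * Q * (L.a * x 2 + X.t L e₀ * x 0 + X.t L e₁ * x 1) ∧
      ∑ j, X.Bm L p q 2 j * x j = hf R * X.t L θ * x 2 +
        (x 0 * (X.t L θ * X.t L e₀ - X.D θ (X.t L e₀)) +
          x 1 * (X.t L θ * X.t L e₁ - X.D θ (X.t L e₁))) := fun L x => by
    simp only [Der.Bm, Der.eps, half_smul, half_smul', Fin.sum_univ_three, Matrix.of_apply,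
      Matrix.cons_val', Matrix.cons_val_zero, Matrix.cons_val_one, Matrix.cons_val]
    refine ⟨by ring, by ring, by ring⟩
  have col : ∑ j, X.Bm L₂ p q j 0 * b j = -hf R * X.t L₂ e₀ * (P * b 0 + Q * b 1) +
        (X.t L₂ θ * X.t L₂ e₀ - X.D θ (X.t L₂ e₀)) * b 2 ∧
      ∑ j, X.Bm L₂ p q j 1 * b j = -hf R * X.t L₂ e₁ * (P * b 0 + Q * b 1) +
        (X.t L₂ θ * X.t L₂ e₁ - X.D θ (X.t L₂ e₁)) * b 2 ∧
      ∑ j, X.Bm L₂ p q j 2 * b j = -hf R * L₂.a * (P * b 0 + Q * b 1) +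
        hf R * X.t L₂ θ * b 2 := by
    simp only [Der.Bm, Der.eps, half_smul, half_smul', Fin.sum_univ_three, Matrix.of_apply,
      Matrix.cons_val', Matrix.cons_val_zero, Matrix.cons_val_one, Matrix.cons_val]
    refine ⟨by ring, by ring, by ring⟩
  have sys : ∀ x φ : Fin 3 → R, (∀ i, X.D θ (x i) = ∑ j, X.Bm L₁ p q i j * x j + hf R * φ i) →
      (∀ i, X.T1 L₁ θ (fun k => L₁.ni * (x 0 * e₀ k + x 1 * e₁ k)) (L₁.ni * L₁.ki * x 2) i =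
        L₁.ni * (e₀ i * φ 0 + e₁ i * φ 1)) ∧
      X.T2 L₁ θ (fun k => L₁.ni * (x 0 * e₀ k + x 1 * e₁ k)) (L₁.ni * L₁.ki * x 2) =
        L₁.ni * φ 2 ∧ ∑ i, θ i * (L₁.ni * (x 0 * e₀ i + x 1 * e₁ i)) = 0 := by
    intro x φ hx
    obtain ⟨w0, w1, w2⟩ := row L₁ x
    refine ⟨fun i => ?_, ?_, ?_⟩
    · rw [T1_coord X.toDer L₁ z₀ z₁ r0, hx, hx, w0, w1]
      linear_combination L₁.ni * (e₀ i * (φ 0 - P * (L₁.a * x 2 + X.t L₁ e₀ * x 0 +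
        X.t L₁ e₁ * x 1)) + e₁ i * (φ 1 - Q * (L₁.a * x 2 + X.t L₁ e₀ * x 0 +
          X.t L₁ e₁ * x 1))) * m
    · rw [T2_coord X.toDer L₁ z₀ z₁, hx, w2]
      linear_combination L₁.ni * (X.t L₁ θ * x 2 + φ 2) * m
    · simp only [Fin.sum_univ_three]
      linear_combination L₁.ni * x 0 * t0 + L₁.ni * x 1 * t1
  have hs : ∀ (r : Fin 3 → R) (r' ε : R), ∑ i, θ i * r i = 2 * X.D θ ε + X.t L₁ θ * ε →
      ∃ u e, ∑ i, θ i * u i = ε ∧ X.T1 L₁ θ u e = r ∧ X.T2 L₁ θ u e = r' := by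
    intro r r' ε hr
    have a0 : ∑ i, θ i * (ε * ν i) = ε := by
      simp only [Fin.sum_univ_three]; linear_combination ε * r2
    have a1 := X.I8a L₁ hz hn (fun i => ε * ν i) 0
    rw [a0, ← hr] at a1
    set ρ : Fin 3 → R := fun i => r i - X.T1 L₁ θ (fun i => ε * ν i) 0 i with hρ
    have a2 : ∑ j, θ j * ρ j = 0 := by
      simp only [hρ, mul_sub, Finset.sum_sub_distrib, a1, sub_self]
    obtain ⟨x, hx⟩ := X.solv0 hθ hθ0 (fun i j => X.Bm L₁ p q i j) (fun i => hf R *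
      ![L₁.n * ∑ j, f₀ j * ρ j, L₁.n * ∑ j, f₁ j * ρ j,
        L₁.n * (r' - X.T2 L₁ θ (fun i => ε * ν i) 0)] i)
    obtain ⟨s1, s2, s3⟩ := sys x _ hx
    refine ⟨fun k => ε * ν k + 1 * (L₁.ni * (x 0 * e₀ k + x 1 * e₁ k)),
      0 + 1 * (L₁.ni * L₁.ki * x 2), ?_, ?_, ?_⟩
    · simp only [mul_add (θ _), one_mul, Finset.sum_add_distrib, a0, s3, add_zero]
    · funext i
      rw [X.T1_lin L₁ X.d_one, s1]
      have := dec ρ i
      rw [a2] at this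
      simp only [Matrix.cons_val_zero, Matrix.cons_val_one]
      linear_combination -this + (e₀ i * ∑ j, f₀ j * ρ j + e₁ i * ∑ j, f₁ j * ρ j) * L₁.n_ni
    · rw [X.T2_lin L₁ X.d_one, s2]
      simp only [Matrix.cons_val]
      linear_combination (r' - X.T2 L₁ θ (fun i => ε * ν i) 0) * L₁.n_ni
  obtain ⟨s1, s2, s3⟩ := sys a 0 (by simpa using ha)
  obtain ⟨c0, c1, c2⟩ := col
  obtain ⟨s, hs'⟩ := X.solv1 hθ hθ0 (hf R * X.t L₂ θ) (-hf R * ∑ i, ν i *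
    X.Ru L₂ θ (fun k => L₂.n * (b 0 * f₀ k + b 1 * f₁ k)) (L₂.n * b 2) i)
  set w : Fin 3 → R := fun k => L₂.n * (b 0 * f₀ k + b 1 * f₁ k) + 1 * (s * θ k) with hw
  have w0 : ∑ i, e₀ i * w i = L₂.n * b 0 := by
    simp only [hw, Fin.sum_univ_three]
    linear_combination L₂.n * b 0 * r00 + L₂.n * b 1 * r01 + s * t0
  have w1 : ∑ i, e₁ i * w i = L₂.n * b 1 := by
    simp only [hw, Fin.sum_univ_three]
    linear_combination L₂.n * b 0 * r10 + L₂.n * b 1 * r11 + s * t1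
  have w2 : ∑ i, θ i * w i = L₂.n * (P * b 0 + Q * b 1) := by
    simp only [r0, Fin.sum_univ_three] at w0 w1 ⊢
    linear_combination P * w0 + Q * w1
  have k3 : X.Ru L₂ θ w (L₂.n * b 2) = 0 := by
    have q0 : ∑ i, e₀ i * X.Ru L₂ θ w (L₂.n * b 2) i = 0 := by
      rw [Ru_dot X.toDer L₂ z₀, w0, w2, D_n, hb, c0]
      linear_combination L₂.n * X.t L₂ e₀ * (P * b 0 + Q * b 1) * m
    have q1 : ∑ i, e₁ i * X.Ru L₂ θ w (L₂.n * b 2) i = 0 := by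
      rw [Ru_dot X.toDer L₂ z₁, w1, w2, D_n, hb, c1]
      linear_combination L₂.n * X.t L₂ e₁ * (P * b 0 + Q * b 1) * m
    have q2 : ∑ i, ν i * X.Ru L₂ θ w (L₂.n * b 2) i = 0 := by
      have l := X.Ru_lin L₂ X.d_one θ (fun k => L₂.n * (b 0 * f₀ k + b 1 * f₁ k))
        (fun k => s * θ k) (L₂.n * b 2) 0
      rw [mul_zero, add_zero] at l
      have l2 : ∀ i, X.Ru L₂ θ (fun k => s * θ k) 0 i = θ i * (2 * X.D θ s - X.t L₂ θ * s) := by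
        intro i
        simp only [Der.Ru, Der.D, Fin.sum_univ_three, X.d_mul, hz]
        linear_combination (-X.g L₂ i * s) * hn
      simp only [hw, l, l2, Fin.sum_univ_three] at hs' ⊢
      linear_combination (2 * X.D θ s - X.t L₂ θ * s) * r2 + 2 * hs' +
        (X.t L₂ θ * s - (ν 0 * X.Ru L₂ θ (fun k => L₂.n * (b 0 * f₀ k + b 1 * f₁ k)) (L₂.n * b 2) 0 +
          ν 1 * X.Ru L₂ θ (fun k => L₂.n * (b 0 * f₀ k + b 1 * f₁ k)) (L₂.n * b 2) 1 +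
          ν 2 * X.Ru L₂ θ (fun k => L₂.n * (b 0 * f₀ k + b 1 * f₁ k)) (L₂.n * b 2) 2)) * m
    funext j
    rw [dec' (X.Ru L₂ θ w (L₂.n * b 2)) j, q0, q1, q2]; simp
  have k4 : X.Rd L₂ θ w (L₂.n * b 2) = 0 := by
    have := D_n X.toDer L₂ (θ := θ) (b 2)
    rw [hb, c2] at this
    rw [Der.Rd, w2]
    unfold Lame.a at this
    linear_combination (L₂.c + 1) * this + (L₂.c + 1) * L₂.n * (L₂.c * L₂.ki *
      (P * b 0 + Q * b 1) - X.t L₂ θ * b 2) * m + L₂.n * L₂.c * (P * b 0 + Q * b 1) * L₂.k_ki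
  have key := orth X L₁ L₂ hA hJ hθ hθ0 _ w _ (L₂.n * b 2) hs s3
    (funext fun i => by rw [s1]; simp) (by rw [s2]; simp) k3 k4
  have j1 := X.I_D (th p q) (X.J.mul_mem_left
    (L₁.ni * ∑ i, ∑ j, X.G0 L₁ L₂ p q i j * (b i * a j)) hJ)
  rw [← add_zero (0 : ℂ)]
  nth_rewrite 1 [← key]
  rw [← j1, ← map_add, ← X.D_add]
  congr 2
  simp only [Der.G0, Der.eps, Der.t, Fin.sum_univ_three, Matrix.of_apply, Matrix.cons_val',
    Matrix.cons_val_zero, Matrix.cons_val_one, Matrix.cons_val] at w0 w1 ⊢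
  rw [← he₀, ← he₁]
  linear_combination (-L₁.ni * a 0) * w0 - L₁.ni * a 1 * w1 -
    L₁.ni * L₂.n * a 2 * b 2 * L₁.k_ki - (b 0 * a 0 + b 1 * a 1 + b 2 * a 2 +
      (e₀ 0 * X.g L₁ 0 + e₀ 1 * X.g L₁ 1 + e₀ 2 * X.g L₁ 2 -
        (e₀ 0 * X.g L₂ 0 + e₀ 1 * X.g L₂ 1 + e₀ 2 * X.g L₂ 2)) * (b 2 * a 0) +
      (e₁ 0 * X.g L₁ 0 + e₁ 1 * X.g L₁ 1 + e₁ 2 * X.g L₁ 2 -
        (e₁ 0 * X.g L₂ 0 + e₁ 1 * X.g L₂ 1 + e₁ 2 * X.g L₂ 2)) * (b 2 * a 1)) * L₁.n_ni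

end Vale.Agent.P136
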