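import Vale.Agent.P136.Api

/-!
# Poincare and Korn inequalities, the Dirichlet problem, the Alessandrini identity
-/

open MeasureTheory Set Metric
open scoped ContDiff RealInnerProductSpace

noncomputable section

namespace Vale.Agent.P136

variable {Ω : Set E3} {lam mu : E3 → ℝ}

lemma dir_pd_coord (x : E3) : pd 0 (fun y : E3 => y 0) x = 1 := by
  have h : fderiv ℝ (fun y : E3 => y 0) x = EuclideanSpace.proj (𝕜 := ℝ) (0 : Fin 3) :=
    (EuclideanSpace.proj (𝕜 := ℝ) (0 : Fin 3)).fderiv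
  simp [pd, h]

/-- Integrate `x 0 * pd 0 (φ ^ 2)` by parts and use Cauchy-Schwarz. -/
lemma poincare (hb : Bornology.IsBounded Ω) : ∃ C, 0 ≤ C ∧ ∀ φ, IsTest Ω φ →
    ∫ x in Ω, φ x ^ 2 ≤ C * ∫ x in Ω, pd 0 φ x ^ 2 := by
  have hc : ContDiff ℝ ∞ (fun y : E3 => y 0) :=
    (EuclideanSpace.proj (𝕜 := ℝ) (0 : Fin 3)).contDiff
  obtain ⟨R, -, hR⟩ := exists_bound_of_cont hb hc.continuous
  refine ⟨4 * R ^ 2, by positivity, fun φ hφ => ?_⟩
  have h1 := ibp_test hc 0 _ (hφ.mul_left hφ.1)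
  simp only [pd_mul hφ.1 hφ.1, dir_pd_coord, one_mul] at h1
  have m1 := hφ.memLp (volume.restrict Ω)
  have m2 := (hφ.pd 0).memLp (volume.restrict Ω)
  have m3 := (hφ.mul_left hc).memLp (volume.restrict Ω)
  have h2 : ∫ x in Ω, -(x 0 * (pd 0 φ x * φ x + φ x * pd 0 φ x)) ≤
      ∫ x in Ω, ((1 / 2) * φ x ^ 2 + (2 * R ^ 2) * pd 0 φ x ^ 2) := by
    refine integral_mono ?_ ((m1.integrable_sq.const_mul _).add (m2.integrable_sq.const_mul _))
      fun x => ?_
    · refine ((l2_int m3 m2).const_mul (-2)).congr (Filter.Eventually.of_forall fun x => ?_)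
      simp only; ring
    · by_cases hx : x ∈ Ω
      · have h3 : x 0 ^ 2 ≤ R ^ 2 := by
          rw [← sq_abs (x 0)]; exact pow_le_pow_left₀ (abs_nonneg _) (hR x hx) 2
        have h4 := mul_le_mul_of_nonneg_right h3 (sq_nonneg (pd 0 φ x))
        simp only
        nlinarith [sq_nonneg (φ x + 2 * x 0 * pd 0 φ x)]
      · simp [hφ.eq_zero hx, (hφ.pd 0).eq_zero hx]
  rw [integral_neg, h1, neg_neg, integral_add (m1.integrable_sq.const_mul _)
    (m2.integrable_sq.const_mul _), integral_const_mul, integral_const_mul] at h2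
  simp only [← sq] at h2
  linarith

lemma dir_int_sum2 {F : Fin 3 → Fin 3 → E3 → ℝ} {μ : Measure E3}
    (h : ∀ i j, Integrable (F i j) μ) :
    ∫ x, ∑ i, ∑ j, F i j x ∂μ = ∑ i, ∑ j, ∫ x, F i j x ∂μ := by
  rw [integral_finsetSum _ fun i _ => integrable_finsetSum _ fun j _ => h i j]
  exact Finset.sum_congr rfl fun i _ => integral_finsetSum _ fun j _ => h i j

/-- First Korn inequality: integrate `pd j (φ i) * pd i (φ j)` by parts twice. -/
lemma korn {φ : Fin 3 → E3 → ℝ} (hφ : ∀ i, IsTest Ω (φ i)) :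
    ∑ i, ∑ j, ∫ x in Ω, pd j (φ i) x ^ 2 ≤
      2 * ∫ x in Ω, ∑ i, ∑ j, ((pd j (φ i) x + pd i (φ j) x) / 2) ^ 2 := by
  have m : ∀ i j, MemLp (pd j (φ i)) 2 (volume.restrict Ω) := fun i j =>
    ((hφ i).pd j).memLp _
  have h1 : ∀ i j, ∫ x in Ω, pd j (φ i) x * pd i (φ j) x =
      ∫ x in Ω, pd i (φ i) x * pd j (φ j) x := by
    intro i j
    rw [ibp_test (contDiff_pd (hφ i).1 j) i _ (hφ j), ibp_test (contDiff_pd (hφ i).1 i) j _ (hφ j),
      pd_comm (hφ i).1 i j]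
  have h2 : 0 ≤ ∑ i, ∑ j, ∫ x in Ω, pd j (φ i) x * pd i (φ j) x := by
    rw [Finset.sum_congr rfl fun i _ => Finset.sum_congr rfl fun j _ => h1 i j,
      ← dir_int_sum2 fun i j => l2_int (m i i) (m j j)]
    refine integral_nonneg fun x => ?_
    simp only [← Finset.mul_sum, ← Finset.sum_mul]
    exact mul_self_nonneg _
  have h3 : 2 * ∫ x in Ω, ∑ i, ∑ j, ((pd j (φ i) x + pd i (φ j) x) / 2) ^ 2 =
      ∑ i, ∑ j, (∫ x in Ω, pd j (φ i) x ^ 2) + ∑ i, ∑ j, ∫ x in Ω, pd j (φ i) x * pd i (φ j) x := by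
    rw [← dir_int_sum2 fun i j => (m i j).integrable_sq,
      ← dir_int_sum2 fun i j => l2_int (m i j) (m j i), ← integral_const_mul, ← integral_add
        (integrable_finsetSum _ fun i _ => integrable_finsetSum _ fun j _ => (m i j).integrable_sq)
        (integrable_finsetSum _ fun i _ => integrable_finsetSum _ fun j _ => l2_int (m i j) (m j i))]
    refine integral_congr_ae (Filter.Eventually.of_forall fun x => ?_)
    simp only [Fin.sum_univ_three]; ring
  linarith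

lemma dir_pointwise {l m c t E : ℝ} (h1 : c ≤ 2 * m) (h2 : c ≤ 3 * l + 2 * m) (hE : 0 ≤ E)
    (ht : t * t ≤ 3 * E) : c * E ≤ l * (t * t) + 2 * m * E := by
  rcases le_total 0 l with hl | hl
  · nlinarith [mul_nonneg hl (mul_self_nonneg t), mul_le_mul_of_nonneg_right h1 hE]
  · nlinarith [mul_le_mul_of_nonpos_left ht hl, mul_le_mul_of_nonneg_right h2 hE]

/-- Pointwise `λ (tr e) ^ 2 + 2 μ |e| ^ 2 ≥ min (2 μ) (3 λ + 2 μ) |e| ^ 2` since
`(tr e) ^ 2 ≤ 3 |e| ^ 2`; compactness of the closure. -/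
lemma coercive (hb : Bornology.IsBounded Ω) (hm : MeasurableSet Ω) (hA : Admissible Ω lam mu) :
    ∃ c, 0 < c ∧ ∀ φ : Fin 3 → E3 → ℝ, (∀ i, IsTest Ω (φ i)) →
      c * ∑ i, ∑ j, ∫ x in Ω, pd j (φ i) x ^ 2 ≤ form Ω lam mu (gr φ) (gr φ) := by
  have hl := hA.1.continuous
  have hmu := hA.2.1.continuous
  have hcont : Continuous fun x => min (2 * mu x) (3 * lam x + 2 * mu x) := by fun_prop
  obtain ⟨c, hc, hc'⟩ := hb.isCompact_closure.exists_forall_le' hcont.continuousOn (a := 0)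
    fun x hx => lt_min (by linarith [(hA.2.2 x hx).1]) (hA.2.2 x hx).2
  refine ⟨c / 2, by positivity, fun φ hφ => ?_⟩
  have m : ∀ i j, MemLp (pd j (φ i)) 2 (volume.restrict Ω) := fun i j =>
    ((hφ i).pd j).memLp _
  have h1 : c * ∫ x in Ω, ∑ i, ∑ j, ((pd j (φ i) x + pd i (φ j) x) / 2) ^ 2 ≤
      form Ω lam mu (gr φ) (gr φ) := by
    rw [← integral_const_mul]
    refine setIntegral_mono_on ?_ (form_integrable hb hm hl hmu m m) hm fun x hx => ?_
    · refine Integrable.const_mul (integrable_finsetSum _ fun i _ =>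
        integrable_finsetSum _ fun j _ => ?_) _
      have h2 : MemLp (fun x => (1 / 2 : ℝ) * (pd j (φ i) x + pd i (φ j) x)) 2
          (volume.restrict Ω) := ((m i j).add (m j i)).const_mul _
      refine h2.integrable_sq.congr (Filter.Eventually.of_forall fun x => ?_)
      simp only; ring
    · have h3 := hc' x (subset_closure hx)
      simp only [sq]
      refine dir_pointwise (h3.trans (min_le_left _ _)) (h3.trans (min_le_right _ _))
        (Finset.sum_nonneg fun i _ => Finset.sum_nonneg fun j _ => mul_self_nonneg _) ?_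
      simp only [Fin.sum_univ_three]
      nlinarith [sq_nonneg (pd 0 (φ 0) x - pd 1 (φ 1) x), sq_nonneg (pd 0 (φ 0) x - pd 2 (φ 2) x),
        sq_nonneg (pd 1 (φ 1) x - pd 2 (φ 2) x), sq_nonneg (pd 1 (φ 0) x + pd 0 (φ 1) x),
        sq_nonneg (pd 2 (φ 0) x + pd 0 (φ 2) x), sq_nonneg (pd 2 (φ 1) x + pd 1 (φ 2) x)]
  have h4 := mul_le_mul_of_nonneg_left (korn hφ) (half_pos hc).le
  linarith

/-- Abstract form of the Lax-Milgram argument on the closure of a subspace. -/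
lemma dir_lax {H : Type*} [NormedAddCommGroup H] [InnerProductSpace ℝ H] [CompleteSpace H]
    (B : H →L[ℝ] H →L[ℝ] ℝ) (V : Submodule ℝ H) {c : ℝ} (hc : 0 < c)
    (hB : ∀ v ∈ V, c * ‖v‖ * ‖v‖ ≤ B v v) (U : H) {M : ℝ} (hM0 : 0 ≤ M)
    (hM : ∀ v ∈ V, B U v ≤ M * ‖v‖) :
    ∃ r ∈ closure (V : Set H), (∀ v ∈ V, B r v = B U v) ∧ ‖r‖ ≤ c⁻¹ * M := by
  let W := V.topologicalClosure
  have hW : ∀ w : W, (w : H) ∈ closure (V : Set H) := fun w => w.2
  have hB' : ∀ v ∈ closure (V : Set H), c * ‖v‖ * ‖v‖ ≤ B v v := fun v hv =>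
    closure_minimal (t := {v | c * ‖v‖ * ‖v‖ ≤ B v v}) hB
      (isClosed_le (by fun_prop) (by fun_prop)) hv
  have hM' : ∀ v ∈ closure (V : Set H), B U v ≤ M * ‖v‖ := fun v hv =>
    closure_minimal (t := {v | B U v ≤ M * ‖v‖}) hM (isClosed_le (by fun_prop) (by fun_prop)) hv
  have hco : IsCoercive (B.bilinearComp W.subtypeL W.subtypeL) :=
    ⟨c, hc, fun w => hB' w (hW w)⟩
  let y : W := (InnerProductSpace.toDual ℝ W).symm ((B U).comp W.subtypeL)
  let r : W := hco.continuousLinearEquivOfBilin.symm y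
  have hr : ∀ w : W, B r w = B U w := by
    intro w
    have h1 := hco.continuousLinearEquivOfBilin_apply r w
    rw [ContinuousLinearEquiv.apply_symm_apply, InnerProductSpace.toDual_symm_apply] at h1
    exact h1.symm
  refine ⟨r, hW r, fun v hv => hr ⟨v, subset_closure hv⟩, ?_⟩
  have h2 : c * ‖(r : H)‖ * ‖(r : H)‖ ≤ M * ‖(r : H)‖ :=
    (hB' r (hW r)).trans ((hr r).le.trans (hM' r (hW r)))
  rcases (norm_nonneg (r : H)).eq_or_lt with h0 | h0
  · rw [← h0]; positivity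
  · rw [le_inv_mul_iff₀ hc]
    exact le_of_mul_le_mul_right h2 h0

/-- Tuples of square integrable functions: values and gradients. -/
abbrev DirH (Ω : Set E3) : Type :=
  PiLp 2 (fun _ : Fin 3 × Option (Fin 3) => Lp ℝ 2 (volume.restrict Ω))

/-- The gradient components. -/
def dirG (h : DirH Ω) : Fin 3 → Fin 3 → E3 → ℝ := fun i j => h (i, some j)

lemma dirG_mem (h : DirH Ω) (i j : Fin 3) : MemLp (dirG h i j) 2 (volume.restrict Ω) :=
  Lp.memLp _

lemma dir_nsq1 (f : Lp ℝ 2 (volume.restrict Ω)) : ‖f‖ ^ 2 = ∫ x in Ω, f x ^ 2 := by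
  rw [← l2_norm_sq (Lp.memLp f), Lp.toLp_coeFn]

lemma dir_nsq (h : DirH Ω) : ‖h‖ ^ 2 =
    (∑ i, ∫ x in Ω, h (i, none) x ^ 2) + ∑ i, ∑ j, ∫ x in Ω, h (i, some j) x ^ 2 := by
  rw [PiLp.norm_sq_eq_of_L2, Fintype.sum_prod_type, ← Finset.sum_add_distrib]
  refine Finset.sum_congr rfl fun i _ => ?_
  rw [Fintype.sum_option]
  simp only [dir_nsq1]

lemma dirG_WB (h : DirH Ω) (i j : Fin 3) : WB Ω 0 (dirG h i j) ‖h‖ := by
  refine (WB.of_memLp (dirG_mem h i j)).mono ?_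
  rw [Real.sqrt_le_left (norm_nonneg _)]
  exact (dir_nsq1 (h (i, some j))).symm.le.trans
    (pow_le_pow_left₀ (norm_nonneg _) (PiLp.norm_apply_le h _) 2)

lemma dir_form_ae {A A' B B' : Fin 3 → Fin 3 → E3 → ℝ}
    (hA : ∀ i j, A i j =ᵐ[volume.restrict Ω] A' i j)
    (hB : ∀ i j, B i j =ᵐ[volume.restrict Ω] B' i j) :
    form Ω lam mu A B = form Ω lam mu A' B' := by
  have h1 : ∀ᵐ x ∂(volume.restrict Ω), ∀ i j, A i j x = A' i j x :=
    ae_all_iff.2 fun i => ae_all_iff.2 fun j => hA i j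
  have h2 : ∀ᵐ x ∂(volume.restrict Ω), ∀ i j, B i j x = B' i j x :=
    ae_all_iff.2 fun i => ae_all_iff.2 fun j => hB i j
  unfold form
  refine integral_congr_ae ?_
  filter_upwards [h1, h2] with x hx hx'
  simp only [hx, hx']

lemma dir_form_add (hb : Bornology.IsBounded Ω) (hm : MeasurableSet Ω) (hl : Continuous lam)
    (hmu : Continuous mu) (h h' k : DirH Ω) : form Ω lam mu (dirG (h + h')) (dirG k) =
      form Ω lam mu (dirG h) (dirG k) + form Ω lam mu (dirG h') (dirG k) := by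
  rw [dir_form_ae (A := dirG (h + h')) (A' := fun i j x => dirG h i j x + dirG h' i j x)
    (B' := dirG k)
    (fun i j => Lp.coeFn_add (h (i, some j)) (h' (i, some j))) (fun _ _ => Filter.EventuallyEq.rfl)]
  unfold form
  rw [← integral_add (form_integrable hb hm hl hmu (dirG_mem h) (dirG_mem k))
    (form_integrable hb hm hl hmu (dirG_mem h') (dirG_mem k))]
  refine integral_congr_ae (Filter.Eventually.of_forall fun x => ?_)
  simp only [Fin.sum_univ_three]; ring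

lemma dir_form_smul (c : ℝ) (h k : DirH Ω) : form Ω lam mu (dirG (c • h)) (dirG k) =
      c • form Ω lam mu (dirG h) (dirG k) := by
  rw [dir_form_ae (A := dirG (c • h)) (A' := fun i j x => c * dirG h i j x) (B' := dirG k)
    (fun i j => Lp.coeFn_smul c (h (i, some j))) (fun _ _ => Filter.EventuallyEq.rfl)]
  unfold form
  rw [smul_eq_mul, ← integral_const_mul]
  refine integral_congr_ae (Filter.Eventually.of_forall fun x => ?_)
  simp only [Fin.sum_univ_three]; ring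

lemma dir_exists_bilin (hb : Bornology.IsBounded Ω) (hm : MeasurableSet Ω) (hl : Continuous lam)
    (hmu : Continuous mu) : ∃ B : DirH Ω →L[ℝ] DirH Ω →L[ℝ] ℝ,
      ∀ h k, B h k = form Ω lam mu (dirG h) (dirG k) := by
  obtain ⟨C, -, hC⟩ := form_bound hb hm hl hmu
  let B0 : DirH Ω →ₗ[ℝ] DirH Ω →ₗ[ℝ] ℝ :=
    LinearMap.mk₂ ℝ (fun h k => form Ω lam mu (dirG h) (dirG k))
      (dir_form_add hb hm hl hmu) (fun c h k => dir_form_smul c h k)
      (fun h k k' => by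
        rw [form_symm, dir_form_add hb hm hl hmu, form_symm, form_symm (A := dirG k')])
      (fun c h k => by rw [form_symm, dir_form_smul, form_symm])
  refine ⟨B0.mkContinuous₂ C fun h k => ?_, fun h k => rfl⟩
  rw [mul_assoc]
  exact hC 0 _ _ _ _ (dirG_WB h) (by rw [neg_zero]; exact dirG_WB k)

/-- Tuples coming from test fields. -/
def dirV (Ω : Set E3) : Submodule ℝ (DirH Ω) where
  carrier := {h | ∃ φ : Fin 3 → E3 → ℝ, (∀ i, IsTest Ω (φ i)) ∧
    (∀ i, h (i, none) =ᵐ[volume.restrict Ω] φ i) ∧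
      ∀ i j, h (i, some j) =ᵐ[volume.restrict Ω] pd j (φ i)}
  add_mem' := by
    rintro h k ⟨φ, hφ, h1, h2⟩ ⟨ψ, hψ, k1, k2⟩
    refine ⟨fun i x => φ i x + ψ i x, fun i => (hφ i).add (hψ i), fun i => ?_, fun i j => ?_⟩
    · filter_upwards [Lp.coeFn_add (h (i, none)) (k (i, none)), h1 i, k1 i] with x a b c
      rw [← b, ← c]; exact a
    · filter_upwards [Lp.coeFn_add (h (i, some j)) (k (i, some j)), h2 i j, k2 i j] with x a b c
      rw [pd_add (hφ i).1 (hψ i).1, ← b, ← c]; exact a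
  zero_mem' := by
    refine ⟨fun _ _ => 0, fun _ => IsTest.zero, fun i => Lp.coeFn_zero _ _ _, fun i j => ?_⟩
    filter_upwards [Lp.coeFn_zero ℝ 2 (volume.restrict Ω)] with x a
    rw [pd_const]; exact a
  smul_mem' := by
    rintro c h ⟨φ, hφ, h1, h2⟩
    refine ⟨fun i x => c * φ i x, fun i => (hφ i).mul_left contDiff_const, fun i => ?_,
      fun i j => ?_⟩
    · filter_upwards [Lp.coeFn_smul c (h (i, none)), h1 i] with x a b
      rw [← b]; exact a
    · filter_upwards [Lp.coeFn_smul c (h (i, some j)), h2 i j] with x a b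
      rw [pd_mul contDiff_const (hφ i).1, pd_const, zero_mul, zero_add, ← b]; exact a

/-- A Sobolev field as a tuple. -/
def dirT (u : H1 Ω) : DirH Ω := WithLp.toLp 2 fun p =>
  match p.2 with
  | none => (u.val_mem p.1).toLp _
  | some j => (u.grad_mem p.1 j).toLp _

lemma dirT_none (u : H1 Ω) (i : Fin 3) : dirT u (i, none) =ᵐ[volume.restrict Ω] u.val i :=
  (u.val_mem i).coeFn_toLp

lemma dirT_some (u : H1 Ω) (i j : Fin 3) :
    dirT u (i, some j) =ᵐ[volume.restrict Ω] u.grad i j :=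
  (u.grad_mem i j).coeFn_toLp

lemma dir_inner (f : Lp ℝ 2 (volume.restrict Ω)) {g : E3 → ℝ}
    (hg : MemLp g 2 (volume.restrict Ω)) : ⟪f, hg.toLp g⟫ = ∫ x in Ω, f x * g x := by
  rw [← l2_inner (Lp.memLp f) hg, Lp.toLp_coeFn]

lemma dir_weak {r : DirH Ω} (hr : r ∈ closure (dirV Ω : Set (DirH Ω))) (i j : Fin 3) :
    IsWD Ω j (r (i, none)) (r (i, some j)) := by
  intro ψ hψ
  have m1 := (hψ.pd j).memLp (volume.restrict Ω)
  have m2 := hψ.memLp (volume.restrict Ω)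
  rw [← dir_inner _ m1, ← dir_inner _ m2]
  refine closure_minimal (t := {h : DirH Ω |
    ⟪h (i, none), m1.toLp _⟫ = -⟪h (i, some j), m2.toLp _⟫}) ?_
      (isClosed_eq (by fun_prop) (by fun_prop)) hr
  rintro h ⟨φ, hφ, h1, h2⟩
  change ⟪h (i, none), m1.toLp _⟫ = -⟪h (i, some j), m2.toLp _⟫
  have e1 : ∫ x in Ω, h (i, none) x * pd j ψ x = ∫ x in Ω, φ i x * pd j ψ x :=
    integral_congr_ae (by filter_upwards [h1 i] with x a; rw [a])
  have e2 : ∫ x in Ω, h (i, some j) x * ψ x = ∫ x in Ω, pd j (φ i) x * ψ x :=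
    integral_congr_ae (by filter_upwards [h2 i j] with x a; rw [a])
  rw [dir_inner, dir_inner, e1, e2]
  exact ibp_test (hφ i).1 j ψ hψ

/-- Solvability of the Dirichlet problem with a bound for the corrector. -/
theorem dirichlet (ho : IsOpen Ω) (hb : Bornology.IsBounded Ω) (hA : Admissible Ω lam mu) :
    ∃ C, 0 ≤ C ∧ ∀ (u : H1 Ω) (M : ℝ), 0 ≤ M →
      (∀ φ : Fin 3 → E3 → ℝ, (∀ i, IsTest Ω (φ i)) →
        |form Ω lam mu u.grad (gr φ)| ≤ M * √(∑ i, ∑ j, ∫ x in Ω, pd j (φ i) x ^ 2)) →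
      ∃ v : H1 Ω, IsSol Ω lam mu v ∧ SameTrace Ω u v ∧
        ∀ i j, WB Ω 0 (fun x => u.grad i j x - v.grad i j x) (C * M) := by
  have hm := ho.measurableSet
  have hl := hA.1.continuous
  have hmu := hA.2.1.continuous
  obtain ⟨P, hP0, hP⟩ := poincare hb
  obtain ⟨c, hc0, hc⟩ := coercive hb hm hA
  obtain ⟨B, hB⟩ := dir_exists_bilin hb hm hl hmu
  have hc1 : 0 < c / (P + 1) := by positivity
  refine ⟨(c / (P + 1))⁻¹, by positivity, fun u M hM0 hM => ?_⟩
  have nsq : ∀ (h : DirH Ω) (φ : Fin 3 → E3 → ℝ),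
      (∀ i, h (i, none) =ᵐ[volume.restrict Ω] φ i) →
      (∀ i j, h (i, some j) =ᵐ[volume.restrict Ω] pd j (φ i)) →
      ‖h‖ ^ 2 = (∑ i, ∫ x in Ω, φ i x ^ 2) + ∑ i, ∑ j, ∫ x in Ω, pd j (φ i) x ^ 2 := by
    intro h φ h1 h2
    rw [dir_nsq]
    congr 1
    · exact Finset.sum_congr rfl fun i _ =>
        integral_congr_ae (by filter_upwards [h1 i] with x a; rw [a])
    · exact Finset.sum_congr rfl fun i _ => Finset.sum_congr rfl fun j _ =>
        integral_congr_ae (by filter_upwards [h2 i j] with x a; rw [a])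
  have hco : ∀ v ∈ dirV Ω, c / (P + 1) * ‖v‖ * ‖v‖ ≤ B v v := by
    rintro v ⟨φ, hφ, h1, h2⟩
    have a1 : ∑ i, ∫ x in Ω, φ i x ^ 2 ≤ P * ∑ i, ∑ j, ∫ x in Ω, pd j (φ i) x ^ 2 := by
      rw [Finset.mul_sum]
      refine Finset.sum_le_sum fun i _ => (hP _ (hφ i)).trans
        (mul_le_mul_of_nonneg_left ?_ hP0)
      exact Finset.single_le_sum (f := fun j => ∫ x in Ω, pd j (φ i) x ^ 2)
        (fun j _ => integral_nonneg fun x => sq_nonneg _) (Finset.mem_univ 0)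
    rw [hB, dir_form_ae (A := dirG v) (B := dirG v) (A' := gr φ) (B' := gr φ) h2 h2, mul_assoc,
      ← sq, nsq v φ h1 h2]
    refine le_trans ?_ (hc φ hφ)
    rw [div_mul_eq_mul_div, div_le_iff₀ (by positivity), mul_assoc]
    exact mul_le_mul_of_nonneg_left (by linarith) hc0.le
  have hbd : ∀ v ∈ dirV Ω, B (dirT u) v ≤ M * ‖v‖ := by
    rintro v ⟨φ, hφ, h1, h2⟩
    rw [hB, dir_form_ae (A := dirG (dirT u)) (B := dirG v) (A' := u.grad) (B' := gr φ)
      (dirT_some u) h2]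
    refine (le_abs_self _).trans ((hM φ hφ).trans (mul_le_mul_of_nonneg_left ?_ hM0))
    rw [Real.sqrt_le_left (norm_nonneg _), nsq v φ h1 h2]
    exact le_add_of_nonneg_left
      (Finset.sum_nonneg fun i _ => integral_nonneg fun x => sq_nonneg _)
  obtain ⟨r, hr, hr1, hr2⟩ := dir_lax B (dirV Ω) hc1 hco (dirT u) hM0 hbd
  let R : H1 Ω :=
    { val := fun i => r (i, none)
      grad := dirG r
      val_mem := fun i => Lp.memLp _
      grad_mem := dirG_mem r
      weak := fun i j => dir_weak hr i j }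
  refine ⟨u.sub R, fun φ hφ => ?_, fun ε hε => ?_, fun i j => ?_⟩
  · let w := H1.ofSmooth hb φ fun i => (hφ i).1
    have hw : dirT w ∈ dirV Ω := ⟨φ, hφ, dirT_none w, dirT_some w⟩
    have h1 := hr1 _ hw
    rw [hB, hB, dir_form_ae (A' := dirG r) (B := dirG (dirT w)) (B' := gr φ)
      (fun _ _ => Filter.EventuallyEq.rfl) (dirT_some w),
      dir_form_ae (A := dirG (dirT u)) (B := dirG (dirT w)) (A' := u.grad) (B' := gr φ)
        (dirT_some u) (dirT_some w)] at h1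
    have h2 := form_sub_left (lam := lam) (mu := mu) hb hm hl hmu u.grad_mem (dirG_mem r) w.grad_mem
    exact h2.trans (sub_eq_zero.2 h1.symm)
  · obtain ⟨h, ⟨φ, hφ, h1, h2⟩, hd⟩ := Metric.mem_closure_iff.1 hr _ (Real.sqrt_pos.2 hε)
    refine ⟨φ, hφ, ?_⟩
    have h3 : ‖r - h‖ ^ 2 ≤ ε := by
      rw [← dist_eq_norm, ← Real.sq_sqrt hε.le]
      exact pow_le_pow_left₀ dist_nonneg hd.le 2
    rw [dir_nsq] at h3
    refine le_of_eq_of_le ?_ h3
    congr 1
    · refine Finset.sum_congr rfl fun i _ => integral_congr_ae ?_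
      filter_upwards [h1 i, Lp.coeFn_sub (r (i, none)) (h (i, none))] with x a b
      change (u.val i x - (u.val i x - r (i, none) x) - φ i x) ^ 2 =
        (r (i, none) - h (i, none)) x ^ 2
      rw [b, Pi.sub_apply, a, sub_sub_cancel]
    · refine Finset.sum_congr rfl fun i _ => Finset.sum_congr rfl fun j _ => integral_congr_ae ?_
      filter_upwards [h2 i j, Lp.coeFn_sub (r (i, some j)) (h (i, some j))] with x a b
      change (u.grad i j x - (u.grad i j x - r (i, some j) x) - pd j (φ i) x) ^ 2 =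
        (r (i, some j) - h (i, some j)) x ^ 2
      rw [b, Pi.sub_apply, a, sub_sub_cancel]
  · exact ((dirG_WB r i j).mono hr2).congr hm fun x _ => (sub_sub_cancel _ _).symm

/-- The Alessandrini identity. -/
def Aless0 (Ω : Set E3) (lam₁ mu₁ lam₂ mu₂ : E3 → ℝ) : Prop :=
  ∀ u₁ u₂ : H1 Ω, IsSol Ω lam₁ mu₁ u₁ → IsSol Ω lam₂ mu₂ u₂ →
    form Ω lam₁ mu₁ u₁.grad u₂.grad = form Ω lam₂ mu₂ u₁.grad u₂.grad

lemma Aless0.symm {lam₁ mu₁ lam₂ mu₂ : E3 → ℝ} (h : Aless0 Ω lam₁ mu₁ lam₂ mu₂) :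
    Aless0 Ω lam₂ mu₂ lam₁ mu₁ := fun u₂ u₁ h₂ h₁ => by
  rw [form_symm, ← h u₁ u₂ h₁ h₂, form_symm]

lemma dir_WB_sum {A : Fin 3 → Fin 3 → E3 → ℝ} (hA : ∀ i j, MemLp (A i j) 2 (volume.restrict Ω))
    (i j : Fin 3) : WB Ω 0 (A i j) √(∑ i, ∑ j, ∫ x in Ω, A i j x ^ 2) := by
  refine (WB.of_memLp (hA i j)).mono (Real.sqrt_le_sqrt ?_)
  have h0 : ∀ i j, 0 ≤ ∫ x in Ω, A i j x ^ 2 := fun i j => integral_nonneg fun x => sq_nonneg _
  exact (Finset.single_le_sum (f := fun j => ∫ x in Ω, A i j x ^ 2) (fun j _ => h0 i j)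
    (Finset.mem_univ j)).trans (Finset.single_le_sum (f := fun i => ∑ j, ∫ x in Ω, A i j x ^ 2)
      (fun i _ => Finset.sum_nonneg fun j _ => h0 i j) (Finset.mem_univ i))

/-- Solve the second Dirichlet problem with the trace of `u₁`, get `v`; then
`form₁ u₁ u₂ = form₂ v u₂` and `form₂ (u₁ - v) u₂ = 0` by approximation with test fields. -/
theorem alessandrini (ho : IsOpen Ω) (hb : Bornology.IsBounded Ω) {lam₁ mu₁ lam₂ mu₂ : E3 → ℝ}
    (h₂ : Admissible Ω lam₂ mu₂) (h : SameDN Ω lam₁ mu₁ lam₂ mu₂) :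
    Aless0 Ω lam₁ mu₁ lam₂ mu₂ := by
  intro u₁ u₂ s₁ s₂
  have hm := ho.measurableSet
  have hl := h₂.1.continuous
  have hmu := h₂.2.1.continuous
  obtain ⟨C, hC0, hC⟩ := form_bound hb hm hl hmu
  have hC' := hC 0
  rw [neg_zero] at hC'
  obtain ⟨D, -, hD⟩ := dirichlet ho hb h₂
  obtain ⟨v, sv, tv, -⟩ := hD u₁ (C * √(∑ i, ∑ j, ∫ x in Ω, u₁.grad i j x ^ 2)) (by positivity)
    fun φ hφ => by
      rw [mul_assoc]
      exact hC' _ _ _ _ (dir_WB_sum u₁.grad_mem)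
        (dir_WB_sum (A := gr φ) fun i j => ((hφ i).pd j).memLp _)
  rw [h u₁ v u₂ s₁ sv tv]
  symm
  rw [← sub_eq_zero, ← form_sub_left hb hm hl hmu u₁.grad_mem v.grad_mem u₂.grad_mem]
  set b := √(∑ i, ∑ j, ∫ x in Ω, u₂.grad i j x ^ 2) with hb2
  have hb0 : 0 ≤ b := Real.sqrt_nonneg _
  refine abs_nonpos_iff.1 (le_of_forall_pos_le_add fun δ hδ => ?_)
  have hη : 0 < δ / (C * b + 1) := by positivity
  obtain ⟨φ, hφ, hε⟩ := tv ((δ / (C * b + 1)) ^ 2) (by positivity)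
  have mφ : ∀ i j, MemLp (gr φ i j) 2 (volume.restrict Ω) := fun i j => ((hφ i).pd j).memLp _
  have e := form_sub_left (lam := lam₂) (mu := mu₂) hb hm hl hmu (u₁.sub v).grad_mem mφ u₂.grad_mem
  have e0 : form Ω lam₂ mu₂ (gr φ) u₂.grad = 0 := by rw [form_symm]; exact s₂ φ hφ
  rw [e0, sub_zero] at e
  have w : ∀ i j, WB Ω 0 (fun x => (u₁.sub v).grad i j x - gr φ i j x) (δ / (C * b + 1)) := by
    intro i j
    refine (dir_WB_sum (A := fun i j x => (u₁.sub v).grad i j x - gr φ i j x)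
      (fun i j => ((u₁.sub v).grad_mem i j).sub (mφ i j)) i j).mono ?_
    rw [Real.sqrt_le_left hη.le]
    refine le_trans ?_ hε
    exact le_add_of_nonneg_left
      (Finset.sum_nonneg fun i _ => integral_nonneg fun x => sq_nonneg _)
  have h3 := hC' _ _ _ _ w (dir_WB_sum u₂.grad_mem)
  rw [e] at h3
  refine le_trans h3 ?_
  rw [zero_add, ← hb2]
  calc C * (δ / (C * b + 1) * b) = δ * (C * b / (C * b + 1)) := by ring
    _ ≤ δ * 1 := mul_le_mul_of_nonneg_left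
        ((div_le_one (by positivity)).2 (by linarith)) hδ.le
    _ = δ := mul_one δ

end Vale.Agent.P136
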