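import Vale.Agent.P136.H2
import Vale.Agent.P136.Dir

/-!
# Auxiliary algebra and integration by parts for the correctors
-/

open MeasureTheory Set Metric
open scoped ContDiff RealInnerProductSpace

noncomputable section

namespace Vale.Agent.P136

section Ring

variable {K R : Type*} [CommRing K] [CommRing R] [Algebra K R] (X : Der K R) (L : Lame R)

/-- First order coefficients of the system. -/
def Der.sysA (j : Fin 3) : Option (Fin 3) → Option (Fin 3) → R
  | some i, some k => (if k = i then X.g L j else 0) + (if j = i then X.g L k else 0)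
  | some i, none => if j = i then L.c else 0
  | none, some k => L.ki * (X.gam L k j + X.gam L j k)
  | none, none => 2 * L.ki * X.d j L.c

/-- Zeroth order coefficients of the system. -/
def Der.sysA0 : Option (Fin 3) → Option (Fin 3) → R
  | some _, some _ => 0
  | some i, none => X.h L i
  | none, some _ => 0
  | none, none => L.ki * (X.div (X.h L) - ∑ i, X.g L i * X.h L i)

/-- The system operator in the ring. -/
def Der.sysR (v : Option (Fin 3) → R) (a : Option (Fin 3)) : R :=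
  ∑ j, X.d j (X.d j (v a)) + ∑ j, ∑ b, X.sysA L j a b * X.d j (v b) + ∑ b, X.sysA0 L a b * v b

lemma Der.sysR_some (v : Option (Fin 3) → R) (i : Fin 3) :
    X.sysR L v (some i) = X.P1 L (fun k => v (some k)) (v none) i := by
  fin_cases i <;>
  simp [Der.sysR, Der.sysA, Der.sysA0, Der.P1, Der.lap, Fintype.sum_option, Fin.sum_univ_three] <;>
  ring

lemma Der.sysR_none (v : Option (Fin 3) → R) :
    X.sysR L v none = L.ki * X.P2 L (fun k => v (some k)) (v none) := by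
  simp only [Der.sysR, Der.sysA, Der.sysA0, Der.P2, Der.lap, Fintype.sum_option,
    Fin.sum_univ_three]
  linear_combination (-(X.d 0 (X.d 0 (v none)) + X.d 1 (X.d 1 (v none)) +
    X.d 2 (X.d 2 (v none)))) * L.k_ki

lemma Der.corr_id (U : Fin 3 → R) :
    ∑ i, X.d i (L.ki * X.P1 L U (X.div U) i) -
        ∑ i, (X.d i L.ki + X.g L i * L.ki) * X.P1 L U (X.div U) i =
      L.ki * X.P2 L U (X.div U) := by
  have h := X.I2 L U (X.div U)
  rw [sub_self, X.D_zero] at h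
  have h0 : X.lap (0 : R) = 0 := by simp [Der.lap]
  rw [h0] at h
  simp only [Der.div, Fin.sum_univ_three, Der.d_mul] at h ⊢
  linear_combination L.ki * h

end Ring

variable {Ω : Set E3}

lemma sm_sum_apply {ι : Type*} (s : Finset ι) (f : ι → Sm ℝ) (x : E3) :
    ((∑ i ∈ s, f i : Sm ℝ) : E3 → ℝ) x = ∑ i ∈ s, (f i : E3 → ℝ) x := by
  rw [AddSubmonoidClass.coe_finsetSum, Finset.sum_apply]

lemma sm_zero_apply (x : E3) : ((0 : Sm ℝ) : E3 → ℝ) x = 0 := rfl

lemma sm_add_apply (f g : Sm ℝ) (x : E3) :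
    ((f + g : Sm ℝ) : E3 → ℝ) x = (f : E3 → ℝ) x + (g : E3 → ℝ) x := rfl

lemma sm_sub_apply (f g : Sm ℝ) (x : E3) :
    ((f - g : Sm ℝ) : E3 → ℝ) x = (f : E3 → ℝ) x - (g : E3 → ℝ) x := rfl

lemma sm_mul_apply (f g : Sm ℝ) (x : E3) :
    ((f * g : Sm ℝ) : E3 → ℝ) x = (f : E3 → ℝ) x * (g : E3 → ℝ) x := rfl

lemma sysOp_eq_sysR (L : Lame (Sm ℝ)) (v : Option (Fin 3) → Sm ℝ) (a : Option (Fin 3)) (x : E3) :
    sysOp (fun j a b => ((derS ℝ).sysA L j a b : E3 → ℝ))
      (fun a b => ((derS ℝ).sysA0 L a b : E3 → ℝ)) (fun a => v a) a x =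
        ((derS ℝ).sysR L v a : E3 → ℝ) x := by
  simp only [sysOp, Der.sysR, sm_add_apply, sm_sum_apply, sm_mul_apply, derS_pd]

/-- Test functions form an ideal of the ring of smooth functions. -/
def tI (Ω : Set E3) : Ideal (Sm ℝ) where
  carrier := {f | IsTest Ω (f : E3 → ℝ)}
  add_mem' := fun {_ _} h h' => IsTest.add h h'
  zero_mem' := IsTest.zero
  smul_mem' := fun c _ h => IsTest.mul_left h (smo c)

lemma mem_tI {f : Sm ℝ} : f ∈ tI Ω ↔ IsTest Ω (f : E3 → ℝ) := Iff.rfl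

lemma tI_d {f : Sm ℝ} (h : f ∈ tI Ω) (j : Fin 3) : (derS ℝ).d j f ∈ tI Ω := IsTest.pd h j

lemma tI_div {U : Fin 3 → Sm ℝ} (h : ∀ i, U i ∈ tI Ω) : (derS ℝ).div U ∈ tI Ω :=
  Ideal.sum_mem _ fun i _ => tI_d (h i) i

lemma tI_sig (L : Lame (Sm ℝ)) {U : Fin 3 → Sm ℝ} (h : ∀ i, U i ∈ tI Ω) (i j : Fin 3) :
    (derS ℝ).sig L U i j ∈ tI Ω := by
  unfold Der.sig
  refine Ideal.add_mem _ ?_ (Ideal.mul_mem_left _ _ (Ideal.add_mem _ (tI_d (h i) j) (tI_d (h j) i)))
  split_ifs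
  · exact Ideal.mul_mem_left _ _ (tI_div h)
  · exact Ideal.zero_mem _

lemma tI_P1 (L : Lame (Sm ℝ)) {U : Fin 3 → Sm ℝ} (h : ∀ i, U i ∈ tI Ω) {e : Sm ℝ}
    (he : e ∈ tI Ω) (i : Fin 3) : (derS ℝ).P1 L U e i ∈ tI Ω := by
  unfold Der.P1 Der.lap
  refine Ideal.add_mem _ (Ideal.add_mem _ (Ideal.add_mem _ ?_ ?_) ?_) ?_
  · exact Ideal.sum_mem _ fun j _ => tI_d (tI_d (h i) j) j
  · exact Ideal.mul_mem_left _ _ (tI_d he i)
  · exact Ideal.sum_mem _ fun j _ =>
      Ideal.mul_mem_right _ _ (Ideal.add_mem _ (tI_d (h i) j) (tI_d (h j) i))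
  · exact Ideal.mul_mem_right _ _ he

lemma exists_bound_finS (hb : Bornology.IsBounded Ω) {ι : Type*} [Fintype ι] (f : ι → Sm ℝ) :
    ∃ M, 0 ≤ M ∧ ∀ i, ∀ x ∈ Ω, |(f i : E3 → ℝ) x| ≤ M := by
  choose M hM0 hM using fun i => exists_bound_of_cont hb (sco (f i))
  exact ⟨∑ i, M i, Finset.sum_nonneg fun i _ => hM0 i, fun i x hx =>
    (hM i x hx).trans (Finset.single_le_sum (fun i _ => hM0 i) (Finset.mem_univ i))⟩

lemma integ_test {f t : E3 → ℝ} (hf : MemLp f 2 (volume.restrict Ω)) (ht : IsTest Ω t) :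
    Integrable (fun x => f x * t x) (volume.restrict Ω) :=
  hf.integrable_mul (ht.memLp _)

/-- The pairing of a function with a smooth function. -/
def prg (Ω : Set E3) (f : E3 → ℝ) (t : Sm ℝ) : ℝ := ∫ x in Ω, f x * (t : E3 → ℝ) x

lemma prg_sum {f : E3 → ℝ} (hf : MemLp f 2 (volume.restrict Ω)) {ι : Type*} (s : Finset ι)
    {t : ι → Sm ℝ} (ht : ∀ i, t i ∈ tI Ω) : prg Ω f (∑ i ∈ s, t i) = ∑ i ∈ s, prg Ω f (t i) := by
  unfold prg
  rw [← integral_finsetSum _ fun i _ => integ_test hf (ht i)]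
  simp only [sm_sum_apply, Finset.mul_sum]

lemma prg_sub {f : E3 → ℝ} (hf : MemLp f 2 (volume.restrict Ω)) {t t' : Sm ℝ}
    (ht : t ∈ tI Ω) (ht' : t' ∈ tI Ω) : prg Ω f (t - t') = prg Ω f t - prg Ω f t' := by
  unfold prg
  rw [← integral_sub (integ_test hf ht) (integ_test hf ht')]
  simp only [sm_sub_apply, mul_sub]

lemma prg_wd {f g : E3 → ℝ} {j : Fin 3} (h : IsWD Ω j f g) {t : Sm ℝ} (ht : t ∈ tI Ω) :
    prg Ω f ((derS ℝ).d j t) = - prg Ω g t := h _ ht

/-- Integration by parts of the form against a test field. -/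
lemma form_weak (L : Lame (Sm ℝ)) (r : H1 Ω) {U : Fin 3 → Sm ℝ} (hU : ∀ i, U i ∈ tI Ω) :
    form Ω (L.lam : Sm ℝ) (L.mu : Sm ℝ) r.grad (gr fun i => U i) =
      - ∑ i, prg Ω (r.val i) ((derS ℝ).Lop L U i) := by
  have e1 : form Ω (L.lam : Sm ℝ) (L.mu : Sm ℝ) r.grad (gr fun i => U i) =
      ∫ x in Ω, ∑ i, ∑ j, r.grad i j x * ((derS ℝ).sig L U i j : E3 → ℝ) x := by
    unfold form
    congr 1
    funext x
    simp only [Der.sig, Der.div, Fin.sum_univ_three, sm_add_apply, sm_mul_apply, derS_pd, gr,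
      if_true, show ((0 : Fin 3) = 1) = False by decide, show ((0 : Fin 3) = 2) = False by decide,
      show ((1 : Fin 3) = 0) = False by decide, show ((1 : Fin 3) = 2) = False by decide,
      show ((2 : Fin 3) = 0) = False by decide, show ((2 : Fin 3) = 1) = False by decide,
      if_false, sm_zero_apply]
    ring
  rw [e1, integral_finsetSum _ fun i _ => integrable_finsetSum _ fun j _ =>
    integ_test (r.grad_mem i j) (tI_sig L hU i j), ← Finset.sum_neg_distrib]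
  refine Finset.sum_congr rfl fun i _ => ?_
  rw [integral_finsetSum _ fun j _ => integ_test (r.grad_mem i j) (tI_sig L hU i j)]
  unfold Der.Lop
  rw [prg_sum (r.val_mem i) _ fun j => tI_d (tI_sig L hU i j) j, ← Finset.sum_neg_distrib]
  refine Finset.sum_congr rfl fun j _ => ?_
  rw [prg_wd (r.weak i j) (tI_sig L hU i j), neg_neg]
  rfl

end Vale.Agent.P136
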