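import Vale.Agent.P136.Frame

/-!
# Families of ring elements that are regular in a parameter with all derivatives
-/

noncomputable section

namespace Vale.Agent.P136

variable {R : Type*} [NormedCommRing R] [NormedAlgebra ℂ R]

/-- Iterated derivatives. -/
def ders (X : Der ℂ R) : List (Fin 3) → R → R
  | [], f => f
  | j :: w, f => ders X w (X.d j f)

lemma ders_add (X : Der ℂ R) (w : List (Fin 3)) (f g : R) :
    ders X w (f + g) = ders X w f + ders X w g := by
  induction w generalizing f g with
  | nil => rfl
  | cons j w ih => simp only [ders, map_add, ih]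

lemma ders_zero (X : Der ℂ R) (w : List (Fin 3)) : ders X w 0 = 0 := by
  induction w with
  | nil => rfl
  | cons j w ih => simp only [ders, map_zero, ih]

lemma ders_neg (X : Der ℂ R) (w : List (Fin 3)) (f : R) : ders X w (-f) = - ders X w f := by
  induction w generalizing f with
  | nil => rfl
  | cons j w ih => simp only [ders, map_neg, ih]

variable {α : Type*}

/-- All derivatives of the family lie in the class `S`. -/
def Fam (X : Der ℂ R) (S : Subring (α → R)) (F : α → R) : Prop :=
  ∀ w, (fun s => ders X w (F s)) ∈ S

namespace Fam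

variable {X : Der ℂ R} {S : Subring (α → R)} {F G : α → R}

lemma mem (h : Fam X S F) : F ∈ S := h []

lemma d (h : Fam X S F) (j : Fin 3) : Fam X S fun s => X.d j (F s) := fun w => h (j :: w)

lemma add (h : Fam X S F) (h' : Fam X S G) : Fam X S fun s => F s + G s := fun w => by
  simp only [ders_add]; exact S.add_mem (h w) (h' w)

lemma neg (h : Fam X S F) : Fam X S fun s => - F s := fun w => by
  simp only [ders_neg]; exact S.neg_mem (h w)

lemma sub (h : Fam X S F) (h' : Fam X S G) : Fam X S fun s => F s - G s := by
  simp only [sub_eq_add_neg]; exact h.add h'.neg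

lemma zero : Fam X S fun _ => 0 := fun w => by
  simp only [ders_zero]; exact S.zero_mem

lemma mul (h : Fam X S F) (h' : Fam X S G) : Fam X S fun s => F s * G s := by
  intro w
  induction w generalizing F G with
  | nil => exact S.mul_mem h.mem h'.mem
  | cons j w ih =>
    simp only [ders, Der.d_mul, ders_add]
    exact S.add_mem (ih (h.d j) h') (ih h (h'.d j))

lemma sum {ι : Type*} (t : Finset ι) {F : ι → α → R} (h : ∀ i, Fam X S (F i)) :
    Fam X S fun s => ∑ i ∈ t, F i s := by
  classical
  induction t using Finset.induction_on with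
  | empty => simpa using zero
  | insert a t ha ih => simp only [Finset.sum_insert ha]; exact (h a).add ih

lemma alg {c : α → ℂ} (hc : (fun s => algebraMap ℂ R (c s)) ∈ S) :
    Fam X S fun s => algebraMap ℂ R (c s) := by
  intro w
  cases w with
  | nil => exact hc
  | cons j w => simp only [ders, Der.d_alg, ders_zero]; exact S.zero_mem

lemma smul {c : α → ℂ} (hc : (fun s => algebraMap ℂ R (c s)) ∈ S) (h : Fam X S F) :
    Fam X S fun s => c s • F s := by
  simp only [Algebra.smul_def]; exact (alg hc).mul h

lemma D {z : Fin 3 → α → R} (hz : ∀ j, Fam X S (z j)) (h : Fam X S F) :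
    Fam X S fun s => X.D (fun j => z j s) (F s) :=
  sum _ fun j => (hz j).mul (h.d j)

end Fam

/-- Continuous families. -/
def ctsR (R : Type*) [NormedCommRing R] : Subring (ℝ → R) where
  carrier := {F | Continuous F}
  mul_mem' := fun {F G} (h : Continuous F) (h' : Continuous G) => h.mul h'
  add_mem' := fun {F G} (h : Continuous F) (h' : Continuous G) => h.add h'
  one_mem' := (continuous_const : Continuous fun _ : ℝ => (1 : R))
  zero_mem' := (continuous_const : Continuous fun _ : ℝ => (0 : R))
  neg_mem' := fun {F} (h : Continuous F) => h.neg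

/-- Holomorphic families in two variables. -/
def holR (R : Type*) [NormedCommRing R] [NormedAlgebra ℂ R] : Subring (ℂ × ℂ → R) where
  carrier := {F | Differentiable ℂ F}
  mul_mem' := fun {F G} (h : Differentiable ℂ F) (h' : Differentiable ℂ G) => h.mul h'
  add_mem' := fun {F G} (h : Differentiable ℂ F) (h' : Differentiable ℂ G) => h.add h'
  one_mem' := (differentiable_const (1 : R) : Differentiable ℂ fun _ : ℂ × ℂ => (1 : R))
  zero_mem' := (differentiable_const (0 : R) : Differentiable ℂ fun _ : ℂ × ℂ => (0 : R))
  neg_mem' := fun {F} (h : Differentiable ℂ F) => h.neg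

/-- Families depending continuously on a real parameter together with all derivatives. -/
abbrev Cts (X : Der ℂ R) (F : ℝ → R) : Prop := Fam X (ctsR R) F

/-- Families depending holomorphically on two parameters together with all derivatives. -/
abbrev Hol (X : Der ℂ R) (F : ℂ × ℂ → R) : Prop := Fam X (holR R) F

lemma cts_const (X : Der ℂ R) (f : R) : Cts X fun _ => f := fun w =>
  (continuous_const : Continuous fun _ : ℝ => ders X w f)

lemma hol_const (X : Der ℂ R) (f : R) : Hol X fun _ => f := fun w =>
  (differentiable_const _ : Differentiable ℂ fun _ : ℂ × ℂ => ders X w f)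

lemma cts_sc {c : ℝ → ℂ} (hc : Continuous c) : (fun s => algebraMap ℂ R (c s)) ∈ ctsR R := by
  simp only [Algebra.algebraMap_eq_smul_one]
  exact (hc.smul continuous_const : Continuous fun s => c s • (1 : R))

lemma hol_sc {c : ℂ × ℂ → ℂ} (hc : Differentiable ℂ c) :
    (fun s => algebraMap ℂ R (c s)) ∈ holR R := by
  simp only [Algebra.algebraMap_eq_smul_one]
  exact (hc.smul_const (1 : R) : Differentiable ℂ fun s => c s • (1 : R))

lemma Fam.cont {X : Der ℂ R} {F : ℝ → R} (h : Cts X F) : Continuous F := h.mem

lemma Fam.diff {X : Der ℂ R} {F : ℂ × ℂ → R} (h : Hol X F) : Differentiable ℂ F := h.mem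

lemma Fam.bdd {X : Der ℂ R} {ι : Type*} [Fintype ι] {F : ι → ℝ → R} (h : ∀ i, Cts X (F i)) :
    ∃ C, 0 ≤ C ∧ ∀ i s, s ∈ Set.Icc (0 : ℝ) 1 → ‖F i s‖ ≤ C := by
  have hc : Continuous fun s i => F i s := continuous_pi fun i => (h i).cont
  obtain ⟨C, hC⟩ := isCompact_Icc.exists_bound_of_continuousOn (s := Set.Icc (0 : ℝ) 1)
    hc.continuousOn
  exact ⟨C, (norm_nonneg _).trans (hC 0 (by simp)),
    fun i s hs => (norm_le_pi_norm (fun i => F i s) i).trans (hC s hs)⟩

end Vale.Agent.P136
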