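import Vale.Agent.P136.Func

/-!
# Rigidity of the gauge
-/

set_option linter.unusedSimpArgs false

noncomputable section

namespace Vale.Agent.P136

variable {R : Type*} [NormedCommRing R] [NormedAlgebra ℂ R]

lemma Fr.Nul.mul {X : Fr R} {f : R} (h : X.Nul f) (g : R) : X.Nul (g * f) := fun ψ => by
  rw [show g * f * ψ = f * (g * ψ) by ring]; exact h _

lemma Fr.nul_of_D (X : Fr R) {θ : Fin 3 → ℂ} (hθ : Null θ) (h0 : θ ≠ 0) {y β : R}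
    (h : ∀ ψ, X.I (y * (X.D (cst θ) ψ + β * ψ)) = 0) : X.Nul y := by
  intro φ
  obtain ⟨ψ, hψ⟩ := X.solv1 hθ h0 (-β) φ
  have := h ψ
  rwa [hψ, show -β * ψ + φ + β * ψ = φ by ring] at this

theorem abstract_main (X : Fr R) (L₁ L₂ : Lame R) (hA : X.Aless L₁ L₂)
    (hJ : L₁.n - L₂.n ∈ X.J) : X.Nul (L₁.mu - L₂.mu) ∧ X.Nul (L₁.c - L₂.c) := by
  obtain ⟨G, hE, hop, hc⟩ := gauge X L₁ L₂ fun p q hp => orth3 X L₁ L₂ hA hJ hp q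
  have hθ := th_null 1 1
  have hθ0 := th_ne (one_ne_zero (α := ℂ)) 1
  obtain ⟨b₁, hb₁⟩ : ∃ b, L₁.a * b = 1 := ⟨(L₁.c + 1) * L₁.ci, L₁.a_inv⟩
  have hb₂ := L₂.a_inv
  set b₂ := (L₂.c + 1) * L₂.ci with hb₂d
  have e02 : ∀ q ψ, G 0 0 0 (L₁.a * ψ) + q * G 0 0 1 (L₁.a * ψ) = G 0 2 2 (L₂.a * ψ) := by
    intro q ψ
    have := hE q 0 2 ψ
    obtain ⟨c1, c2, -, -, c5⟩ := hc q
    simp [Fin.sum_univ_three, Der.Bm, Der.G0, (hop q).1, (hop q).2, Der.D_zero, c1, c2, c5] at this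
    linear_combination (2 : ℂ) * this
  have e12 : ∀ q ψ, G 0 1 0 (L₁.a * ψ) + q * G 0 1 1 (L₁.a * ψ) = q * G 0 2 2 (L₂.a * ψ) := by
    intro q ψ
    have := hE q 1 2 ψ
    obtain ⟨-, -, c3, c4, c5⟩ := hc q
    simp [Fin.sum_univ_three, Der.Bm, Der.G0, (hop q).1, (hop q).2, Der.D_zero, c3, c4, c5] at this
    linear_combination (2 : ℂ) * this
  have u₁ : ∀ ψ, L₁.a * (b₁ * ψ) = ψ := fun ψ => by rw [← mul_assoc, hb₁, one_mul]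
  have u₂ : ∀ ψ, L₂.a * (b₂ * ψ) = ψ := fun ψ => by rw [← mul_assoc, hb₂, one_mul]
  have g01 : ∀ ψ, G 1 0 1 ψ = 0 := fun ψ => by
    have h0 := e02 0 (b₁ * ψ)
    have h1 := e02 1 (b₁ * ψ)
    rw [u₁] at h0 h1
    rw [(hc 1).2.1]; linear_combination h1 - h0
  have g10 : ∀ ψ, G 1 1 0 ψ = 0 := fun ψ => by
    have h0 := e12 0 (b₁ * ψ)
    rw [u₁] at h0
    rw [(hc 1).2.2.1]; linear_combination h0
  have g11 : ∀ ψ, G 1 1 1 ψ = G 1 0 0 ψ := fun ψ => by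
    have h0 := e12 0 (b₁ * ψ)
    have h1 := e12 1 (b₁ * ψ)
    have h2 := e02 0 (b₁ * ψ)
    rw [u₁] at h0 h1 h2
    rw [(hc 1).2.2.2.1, (hc 1).1]; linear_combination h1 - h0 - h2
  have g22 : ∀ ψ, G 1 2 2 ψ = G 1 0 0 (L₁.a * (b₂ * ψ)) := fun ψ => by
    have h2 := e02 0 (b₂ * ψ)
    rw [u₂] at h2
    rw [(hc 1).2.2.2.2, (hc 1).1]; linear_combination -h2
  have o1 := (hop 1).1
  have o2 := (hop 1).2
  set D := X.D (cst (th 1 1)) with hD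
  set t₁ := X.t L₁ (cst (th 1 1)) with ht₁
  set t₂ := X.t L₂ (cst (th 1 1)) with ht₂
  have s₁ : t₁ = X.eps L₁ 1 1 0 + X.eps L₁ 1 1 1 := by rw [ht₁, X.t_th]; simp
  have s₂ : t₂ = X.eps L₂ 1 1 0 + X.eps L₂ 1 1 1 := by rw [ht₂, X.t_th]; simp
  set x₁ := X.eps L₁ 1 1 0
  set y₁ := X.eps L₁ 1 1 1
  set x₂ := X.eps L₂ 1 1 0
  set y₂ := X.eps L₂ 1 1 1
  have e10 : ∀ ψ, G 1 2 0 (L₂.a * ψ) = G 1 0 0 (x₁ * ψ) - G 1 0 0 (x₂ * ψ) := fun ψ => by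
    have := hE 1 1 0 ψ
    simp [Fin.sum_univ_three, Der.Bm, Der.G0, o1, o2, Der.D_zero, g01, g10, g11] at this
    linear_combination (-2 : ℂ) * this
  have e01 : ∀ ψ, G 1 2 1 (L₂.a * ψ) = G 1 0 0 (y₁ * ψ) - G 1 0 0 (y₂ * ψ) := fun ψ => by
    have := hE 1 0 1 ψ
    simp [Fin.sum_univ_three, Der.Bm, Der.G0, o1, o2, Der.D_zero, g01, g10, g11] at this
    linear_combination (-2 : ℂ) * this
  have g00 : ∀ φ, G 1 0 0 φ = X.I φ := fun φ => by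
    obtain ⟨ψ, hψ⟩ := X.solv1 hθ hθ0 0 φ
    rw [zero_mul, zero_add] at hψ
    have := hE 1 0 0 ψ
    simp [Fin.sum_univ_three, Der.Bm, Der.G0, o1, o2, Der.D_zero, g01, g10, g11] at this
    rw [hψ] at this
    linear_combination this + (1 / 2 : ℂ) * e10 ψ
  have g20 : ∀ ψ, G 1 2 0 ψ = X.I (b₂ * (x₁ - x₂) * ψ) := fun ψ => by
    have := e10 (b₂ * ψ)
    rw [u₂, g00, g00, ← map_sub] at this
    rw [this]; congr 1; ring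
  have g21 : ∀ ψ, G 1 2 1 ψ = X.I (b₂ * (y₁ - y₂) * ψ) := fun ψ => by
    have := e01 (b₂ * ψ)
    rw [u₂, g00, g00, ← map_sub] at this
    rw [this]; congr 1; ring
  have two : ∀ f, X.I (2 * f) = 2 * X.I f := fun f => by rw [two_mul, map_add, two_mul]
  have npp : X.Nul (L₁.a * b₂ - 1) := by
    refine X.nul_of_D hθ hθ0 (β := 0) fun ψ => ?_
    have := hE 1 2 2 ψ
    simp [Fin.sum_univ_three, Der.Bm, Der.G0, o1, o2, g20, g21, g22, g00] at this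
    have e : X.I (2 * ((L₁.a * b₂ - 1) * (D ψ + 0 * ψ))) =
        X.I (2 * (L₁.a * (b₂ * D ψ))) + X.I (L₁.a * (b₂ * (t₂ * ψ))) +
          X.I (b₂ * (x₁ - x₂) * (L₁.a * ψ)) + X.I (b₂ * (y₁ - y₂) * (L₁.a * ψ)) -
            X.I (L₁.a * (b₂ * (t₁ * ψ))) - X.I (2 * D ψ) := by
      simp only [← map_add, ← map_sub]; congr 1; rw [s₁, s₂]; ring
    simp only [two] at e
    linear_combination (1 / 2 : ℂ) * e + this
  have g22' : ∀ ψ, G 1 2 2 ψ = X.I ψ := fun ψ => by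
    have := npp ψ
    rw [g22, g00, ← sub_eq_zero, ← map_sub, ← this]; congr 1; ring
  have nL : X.Nul (L₂.ci * (t₁ - t₂)) := by
    refine X.nul_of_D hθ hθ0 (β := (1 / 2 : ℂ) • ((t₁ + t₂) * (b₂ - 2) * L₂.c)) fun ψ => ?_
    have h0 := hE 1 2 0 ψ
    have h1 := hE 1 2 1 ψ
    simp [Fin.sum_univ_three, Der.Bm, Der.G0, o1, o2, g20, g21, g22', g00, g01, g10, g11] at h0 h1
    have e0 : 2 * X.I (L₂.ci * (t₁ - t₂) * (D ψ + (1 / 2 : ℂ) • ((t₁ + t₂) * (b₂ - 2) * L₂.c) * ψ))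
        = X.I (L₂.ci * (t₁ - t₂) * (2 * D ψ + (t₁ + t₂) * (b₂ - 2) * L₂.c * ψ)) := by
      simp only [mul_add, map_add, smul_mul_assoc, mul_smul_comm, map_smul, smul_eq_mul,
        mul_left_comm _ (2 : R), two]
      ring
    have e : X.I (L₂.ci * (t₁ - t₂) * (2 * D ψ + (t₁ + t₂) * (b₂ - 2) * L₂.c * ψ)) =
        X.I (2 * (b₂ * (x₁ - x₂) * D ψ)) + X.I (2 * ((t₂ * x₂ - D x₂) * ψ)) +
          X.I (b₂ * (x₁ - x₂) * (t₂ * ψ)) + X.I (b₂ * (x₁ - x₂) * (x₁ * ψ)) +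
          X.I (b₂ * (y₁ - y₂) * (x₁ * ψ)) - X.I (2 * ((t₁ * x₁ - D x₁) * ψ)) -
          X.I (2 * D ((x₁ - x₂) * ψ)) +
        (X.I (2 * (b₂ * (y₁ - y₂) * D ψ)) + X.I (2 * ((t₂ * y₂ - D y₂) * ψ)) +
          X.I (b₂ * (y₁ - y₂) * (t₂ * ψ)) + X.I (b₂ * (x₁ - x₂) * (y₁ * ψ)) +
          X.I (b₂ * (y₁ - y₂) * (y₁ * ψ)) - X.I (2 * ((t₁ * y₁ - D y₁) * ψ)) -
          X.I (2 * D ((y₁ - y₂) * ψ))) := by
      simp only [← map_add, ← map_sub]; congr 1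
      simp only [hD, Der.D_mul, Der.D_sub]
      rw [s₁, s₂, hb₂d]
      linear_combination (-2 * (x₁ + y₁ - (x₂ + y₂)) * X.D (cst (th 1 1)) ψ +
        (x₁ + y₁ - (x₂ + y₂)) * (x₁ + y₁ + (x₂ + y₂)) * ((L₂.c + 1) * L₂.ci - 2) * ψ) * L₂.c_ci
    simp only [two] at e
    linear_combination (1 / 2 : ℂ) * e0 + (1 / 2 : ℂ) * e + h0 + h1
  have nL' : X.Nul (L₁.mu * L₂.m * (t₁ - t₂)) := by
    have := nL.mul (L₁.mu * L₂.m * L₂.c)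
    rwa [show L₁.mu * L₂.m * L₂.c * (L₂.ci * (t₁ - t₂)) = L₁.mu * L₂.m * (t₁ - t₂) by
      linear_combination (L₁.mu * L₂.m * (t₁ - t₂)) * L₂.c_ci] at this
  have nρ : X.Nul (L₁.mu * L₂.m - 1) := by
    refine X.nul_of_D hθ hθ0 (β := 0) fun ψ => ?_
    have h1 := X.I_D (th 1 1) (X.J.mul_mem_right ψ (rho_mem hJ))
    have h2 := nL' ψ
    rw [X.D_mul, X.D_rho, map_add, h2, zero_add] at h1
    rwa [zero_mul, add_zero]
  refine ⟨?_, ?_⟩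
  · have := nρ.mul L₂.mu
    rwa [show L₂.mu * (L₁.mu * L₂.m - 1) = L₁.mu - L₂.mu by
      linear_combination L₁.mu * L₂.mu_m] at this
  · have := npp.mul (L₂.c * (L₁.c + 1))
    rwa [show L₂.c * (L₁.c + 1) * (L₁.a * b₂ - 1) = L₁.c - L₂.c by
      rw [hb₂d]; unfold Lame.a
      linear_combination (L₁.c * (L₂.c + 1) * L₂.c * L₂.ci) * L₁.k_ki +
        (L₁.c * (L₂.c + 1)) * L₂.c_ci] at this

end Vale.Agent.P136
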