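import Vale.Agent.P136.Alg

/-!
# The abstract analytic frame
-/

noncomputable section

namespace Vale.Agent.P136

/-- Constant vectors as vectors of ring elements. -/
def cst {R : Type*} [CommRing R] [Algebra ℂ R] (θ : Fin 3 → ℂ) : Fin 3 → R :=
  fun j => algebraMap ℂ R (θ j)

/-- Null vectors. -/
def Null (θ : Fin 3 → ℂ) : Prop := θ 0 ^ 2 + θ 1 ^ 2 + θ 2 ^ 2 = 0

/-- Uniform solvability of transport systems along null directions. -/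
def Solv {R : Type*} [NormedCommRing R] [NormedAlgebra ℂ R] (X : Der ℂ R) : Prop :=
  ∀ (ι : Type) [Fintype ι] (M r : ℝ), 0 < r → ∃ C, 0 ≤ C ∧ ∀ θ : Fin 3 → ℂ, Null θ → r ≤ ‖θ‖ →
    ∀ A : ι → ι → R, (∀ i j, ‖A i j‖ ≤ M) → ∀ φ : ι → R, ∃ ψ : ι → R,
      (∀ i, X.D (cst θ) (ψ i) = ∑ j, A i j * ψ j + φ i) ∧ ‖ψ‖ ≤ C * ‖φ‖

/-- Enough matrix solutions: their determinants generate the unit ideal. -/
def Bez {R : Type*} [NormedCommRing R] [NormedAlgebra ℂ R] (X : Der ℂ R) : Prop :=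
  ∀ θ : Fin 3 → ℂ, Null θ → θ ≠ 0 → ∀ A : Matrix (Fin 3) (Fin 3) R,
    ∃ (k : ℕ) (C : Fin k → Matrix (Fin 3) (Fin 3) R) (η : Fin k → R),
      (∀ c i j, X.D (cst θ) (C c i j) = (A * C c) i j) ∧ ∑ c, η c * (C c).det = 1

/-- A normed differential ring with an integral, a boundary ideal, exponentials and solvers. -/
structure Fr (R : Type*) [NormedCommRing R] [NormedAlgebra ℂ R] extends Der ℂ R where
  I : R →L[ℂ] ℂ
  J : Ideal R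
  IJ : ∀ j f, f ∈ J → I (d j f) = 0
  ex : (Fin 3 → ℂ) → R
  ex_d : ∀ ζ j, d j (ex ζ) = algebraMap ℂ R (ζ j) * ex ζ
  ex_neg : ∀ ζ, ex ζ * ex (-ζ) = 1
  solv : Solv toDer
  bez : Bez toDer

variable {R : Type*} [NormedCommRing R] [NormedAlgebra ℂ R]

/-- The weighted Alessandrini bound. -/
def Fr.Aless (X : Fr R) (L₁ L₂ : Lame R) : Prop :=
  ∃ (C : ℝ) (k : ℕ), 0 ≤ C ∧ ∀ (ζ : Fin 3 → ℂ) (U V : Fin 3 → R) (a b a' b' : ℝ),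
    (∀ i, ‖X.ex (-ζ) * X.Lop L₁ U i‖ ≤ a) → (∀ i j, ‖X.ex (-ζ) * X.d j (U i)‖ ≤ b) →
    (∀ i, ‖X.ex ζ * X.Lop L₂ V i‖ ≤ a') → (∀ i j, ‖X.ex ζ * X.d j (V i)‖ ≤ b') →
    ‖X.I (X.en L₁ U V - X.en L₂ U V)‖ ≤ C * (1 + ‖ζ‖) ^ k * (a * b' + a' * b + a * a')

/-- Elements killed by the integral against everything. -/
def Fr.Nul (X : Fr R) (f : R) : Prop := ∀ ψ, X.I (f * ψ) = 0

lemma cst_d (X : Der ℂ R) (θ : Fin 3 → ℂ) (i j : Fin 3) : X.d i (cst θ j) = 0 := X.d_alg _ _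

lemma Null.cst {θ : Fin 3 → ℂ} (h : Null θ) :
    (cst θ 0 : R) ^ 2 + cst θ 1 ^ 2 + cst θ 2 ^ 2 = 0 := by
  have := congrArg (algebraMap ℂ R) h
  simpa [P136.cst] using this

lemma Null.smul {θ : Fin 3 → ℂ} (h : Null θ) (c : ℂ) : Null (c • θ) := by
  unfold Null at h ⊢
  simp only [Pi.smul_apply, smul_eq_mul]
  linear_combination c ^ 2 * h

lemma Null.neg {θ : Fin 3 → ℂ} (h : Null θ) : Null (-θ) := by
  unfold Null at h ⊢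
  simpa using h

lemma cst_mul (θ : Fin 3 → ℂ) (j : Fin 3) (f : R) : cst θ j * f = θ j • f :=
  (Algebra.smul_def _ _).symm

lemma Fr.solv0 (X : Fr R) {θ : Fin 3 → ℂ} (hθ : Null θ) (h0 : θ ≠ 0) {ι : Type} [Fintype ι]
    (A : ι → ι → R) (φ : ι → R) :
    ∃ ψ : ι → R, ∀ i, X.D (cst θ) (ψ i) = ∑ j, A i j * ψ j + φ i := by
  obtain ⟨C, -, h⟩ := X.solv ι ‖A‖ ‖θ‖ (norm_pos_iff.2 h0)
  obtain ⟨ψ, h1, -⟩ := h θ hθ le_rfl A
    (fun i j => (norm_le_pi_norm (A i) j).trans (norm_le_pi_norm A i)) φ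
  exact ⟨ψ, h1⟩

lemma Fr.solv1 (X : Fr R) {θ : Fin 3 → ℂ} (hθ : Null θ) (h0 : θ ≠ 0) (β φ : R) :
    ∃ ψ : R, X.D (cst θ) ψ = β * ψ + φ := by
  obtain ⟨ψ, h⟩ := X.solv0 hθ h0 (ι := Unit) (fun _ _ => β) (fun _ => φ)
  exact ⟨ψ (), by simpa using h ()⟩

lemma Fr.I_div (X : Fr R) {Y : Fin 3 → R} (h : ∀ j, Y j ∈ X.J) : X.I (X.div Y) = 0 := by
  unfold Der.div
  rw [map_sum]
  exact Finset.sum_eq_zero fun j _ => X.IJ j _ (h j)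

lemma Fr.I_D (X : Fr R) (θ : Fin 3 → ℂ) {f : R} (h : f ∈ X.J) : X.I (X.D (cst θ) f) = 0 := by
  rw [X.D_eq_div (cst_d X.toDer θ)]
  exact X.I_div fun j => X.J.mul_mem_left _ h

lemma Lame.a_inv {S : Type*} [CommRing S] (L : Lame S) : L.a * ((L.c + 1) * L.ci) = 1 := by
  unfold Lame.a
  linear_combination (L.c * L.ci) * L.k_ki + L.c_ci

lemma mu_mem {S : Type*} [CommRing S] {J : Ideal S} {L₁ L₂ : Lame S} (h : L₁.n - L₂.n ∈ J) :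
    L₁.mu - L₂.mu ∈ J := by
  rw [show L₁.mu - L₂.mu = (L₁.n + L₂.n) * (L₁.n - L₂.n) by unfold Lame.mu; ring]
  exact J.mul_mem_left _ h

lemma rho_mem {S : Type*} [CommRing S] {J : Ideal S} {L₁ L₂ : Lame S} (h : L₁.n - L₂.n ∈ J) :
    L₁.mu * L₂.m - 1 ∈ J := by
  rw [show L₁.mu * L₂.m - 1 = L₂.m * (L₁.mu - L₂.mu) by linear_combination L₂.mu_m]
  exact J.mul_mem_left _ (mu_mem h)

lemma Der.d_rho (X : Der ℂ R) (L₁ L₂ : Lame R) (j : Fin 3) :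
    X.d j (L₁.mu * L₂.m - 1) = L₁.mu * L₂.m * (X.g L₁ j - X.g L₂ j) := by
  rw [map_sub, X.d_one, X.d_mul, X.d_mu, X.d_m]; ring

lemma Der.D_rho (X : Der ℂ R) (L₁ L₂ : Lame R) (z : Fin 3 → R) :
    X.D z (L₁.mu * L₂.m - 1) = L₁.mu * L₂.m * (X.t L₁ z - X.t L₂ z) := by
  simp only [Der.D, Der.t, X.d_rho, Fin.sum_univ_three]; ring

end Vale.Agent.P136
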