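import Vale.Agent.P136.Cech

/-!
# The gauge functional
-/

open Filter Topology

set_option linter.unusedSimpArgs false

noncomputable section

namespace Vale.Agent.P136

lemma holo {Y Z : Type*} [AddCommGroup Y] [Module ℂ Y] [NormedAddCommGroup Z] [NormedSpace ℂ Z]
    (T : ℂ → Y →ₗ[ℂ] Z) (l : ℂ → Y →ₗ[ℂ] ℂ) (G : ℂ → Z →ₗ[ℂ] ℂ)
    (hT : ∀ y, Differentiable ℂ fun q => T q y) (hl : ∀ y, Differentiable ℂ fun q => l q y)
    (hG : ∀ q y, G q (T q y) = l q y) (hs : ∀ q, Function.Surjective (T q))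
    (hb : ∀ ρ : ℝ, ∃ C, ∀ q, ‖q‖ ≤ ρ → ∀ z, ‖G q z‖ ≤ C * ‖z‖) (z : Z) :
    Differentiable ℂ fun q => G q z := by
  intro s
  obtain ⟨C, hC⟩ := hb (‖s‖ + 1)
  have hev : ∀ᶠ q in 𝓝 s, ‖q‖ ≤ ‖s‖ + 1 :=
    (continuous_norm.tendsto s).eventually (eventually_le_nhds (by linarith))
  have small : ∀ (f : Filter ℂ) (_ : f ≤ 𝓝 s) (u : ℂ → Z), Tendsto u f (𝓝 0) →
      Tendsto (fun q => G q (u q)) f (𝓝 0) := by
    intro f hf u hu
    refine squeeze_zero_norm' (a := fun q => C * ‖u q‖) ((hev.filter_mono hf).mono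
      fun q hq => hC q hq _) ?_
    simpa using hu.norm.const_mul C
  have cont : ∀ z, Tendsto (fun q => G q z) (𝓝 s) (𝓝 (G s z)) := by
    intro z
    obtain ⟨y, rfl⟩ := hs s z
    have h1 := small _ le_rfl (fun q => T q y - T s y)
      (tendsto_sub_nhds_zero_iff.2 ((hT y).continuous.tendsto s))
    have h2 := ((hl y).continuous.tendsto s).sub h1
    rw [sub_zero, ← hG] at h2
    refine h2.congr fun q => ?_
    rw [map_sub, hG]; ring
  obtain ⟨y, rfl⟩ := hs s z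
  have dT := hasDerivAt_iff_tendsto_slope.1 (hT y s).hasDerivAt
  have dl := hasDerivAt_iff_tendsto_slope.1 (hl y s).hasDerivAt
  have h1 := small _ nhdsWithin_le_nhds _ (tendsto_sub_nhds_zero_iff.2 dT)
  have h2 := (cont (deriv (fun q => T q y) s)).mono_left (nhdsWithin_le_nhds (s := {s}ᶜ))
  refine (hasDerivAt_iff_tendsto_slope.2 (((dl.sub h1).sub h2).congr fun q => ?_)).differentiableAt
  simp only [slope, vsub_eq_sub, map_sub, map_smul, hG, smul_eq_mul]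
  ring

variable {R : Type*} [NormedCommRing R] [NormedAlgebra ℂ R]

lemma homog (X : Fr R) {θ θ' : Fin 3 → ℂ} {κ : ℂ} (hκ : κ ≠ 0) (hθ : θ' = κ • θ) {w : Fin 3 → ℂ}
    (hw : ∀ i, w i ≠ 0) {B₁ B₂ G B₁' B₂' G' : Matrix (Fin 3) (Fin 3) R}
    (h₁ : ∀ i j, B₁' i j = (κ * w i / w j) • B₁ i j) (h₂ : ∀ i j, B₂' i j = (κ * w i / w j) • B₂ i j)
    (h₃ : ∀ i j, G' i j = (w i / w j) • G i j) {g g' : (Fin 3 → Fin 3 → R) →ₗ[ℂ] ℂ}
    (hg : ∀ Ψ, g (TT X.toDer θ B₁ B₂ Ψ) = ell X θ G Ψ)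
    (hg' : ∀ Ψ, g' (TT X.toDer θ' B₁' B₂' Ψ) = ell X θ' G' Ψ)
    (hs : Function.Surjective (TT X.toDer θ B₁ B₂)) (F : Fin 3 → Fin 3 → R) :
    g' (fun a b => (w b / w a) • F a b) = g F := by
  obtain ⟨Ψ, rfl⟩ := hs F
  have hD : ∀ f, X.D (cst θ') f = κ • X.D (cst θ) f := by
    intro f
    simp only [Der.D, cst_mul, hθ, Finset.smul_sum, Pi.smul_apply, smul_smul, smul_eq_mul]
  have e : TT X.toDer θ' B₁' B₂' (fun a b => (w b / w a) • Ψ a b) =
      κ • fun a b => (w b / w a) • TT X.toDer θ B₁ B₂ Ψ a b := by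
    funext a b
    simp only [TT_apply, hD, X.D_smul, h₁, h₂, Pi.smul_apply, smul_mul_smul_comm, smul_sub,
      smul_add, Finset.smul_sum, smul_smul]
    congr 1
    · congr 1
      refine Finset.sum_congr rfl fun k _ => ?_
      congr 1
      field_simp [hw a, hw b, hw k]
    · refine Finset.sum_congr rfl fun k _ => ?_
      congr 1
      field_simp [hw a, hw b, hw k]
  have e' : ell X θ' G' (fun a b => (w b / w a) • Ψ a b) = κ * ell X θ G Ψ := by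
    rw [ell_apply, ell_apply, hD, map_smul, smul_eq_mul]
    congr 3
    refine Finset.sum_congr rfl fun a _ => Finset.sum_congr rfl fun b _ => ?_
    rw [h₃, smul_mul_smul_comm]
    rw [show w a / w b * (w b / w a) = 1 by field_simp [hw a, hw b], one_smul]
  have := hg' (fun a b => (w b / w a) • Ψ a b)
  rw [e, e', map_smul, ← hg, smul_eq_mul] at this
  exact mul_left_cancel₀ hκ this

lemma th_smul (c p q : ℂ) : th (c * p) (c * q) = c ^ 2 • th p q := by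
  funext j; fin_cases j <;> simp [th] <;> ring

lemma ee_smul (c p q : ℂ) (i : Fin 2) : ee (c * p) (c * q) i = c • ee p q i := by
  funext j; fin_cases i <;> fin_cases j <;> simp [ee] <;> ring

lemma t_smul (X : Der ℂ R) (L : Lame R) (c : ℂ) (θ : Fin 3 → ℂ) :
    X.t L (cst (c • θ)) = c • X.t L (cst θ) := by
  simp only [Der.t, cst_mul, Finset.smul_sum, Pi.smul_apply, smul_smul, smul_eq_mul]

lemma D_cst_smul (X : Der ℂ R) (c : ℂ) (θ : Fin 3 → ℂ) (f : R) :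
    X.D (cst (c • θ)) f = c • X.D (cst θ) f := by
  simp only [Der.D, cst_mul, Finset.smul_sum, Pi.smul_apply, smul_smul, smul_eq_mul]

lemma eps_smul (X : Der ℂ R) (L : Lame R) (c p q : ℂ) (i : Fin 2) :
    X.eps L (c * p) (c * q) i = c • X.eps L p q i := by
  rw [Der.eps, ee_smul, t_smul, Der.eps]

lemma Bm_smul (X : Der ℂ R) (L : Lame R) {c : ℂ} (hc : c ≠ 0) (p q : ℂ) (i j : Fin 3) :
    X.Bm L (c * p) (c * q) i j = (c ^ 2 * ![1, 1, c] i / ![1, 1, c] j) • X.Bm L p q i j := by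
  fin_cases i <;> fin_cases j <;>
  simp [Der.Bm, eps_smul, th_smul, t_smul, D_cst_smul, X.D_smul, smul_smul, smul_sub] <;>
  match_scalars <;> field_simp

lemma G0_smul (X : Der ℂ R) (L₁ L₂ : Lame R) {c : ℂ} (hc : c ≠ 0) (p q : ℂ) (i j : Fin 3) :
    X.G0 L₁ L₂ (c * p) (c * q) i j = (![1, 1, c] i / ![1, 1, c] j) • X.G0 L₁ L₂ p q i j := by
  fin_cases i <;> fin_cases j <;> simp [Der.G0, eps_smul, smul_sub, hc]

lemma hol_th (X : Der ℂ R) (j : Fin 3) : Hol X fun z => cst (th z.1 z.2) j :=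
  Fam.alg (hol_sc (by fin_cases j <;> simp [th] <;> fun_prop))

lemma hol_ee (X : Der ℂ R) (i : Fin 2) (j : Fin 3) : Hol X fun z => cst (ee z.1 z.2 i) j :=
  Fam.alg (hol_sc (by fin_cases i <;> fin_cases j <;> simp [ee]))

lemma hol_eps (X : Der ℂ R) (L : Lame R) (i : Fin 2) : Hol X fun z => X.eps L z.1 z.2 i :=
  Fam.sum Finset.univ fun j => (hol_ee X i j).mul (hol_const X (X.g L j))

lemma hol_t (X : Der ℂ R) (L : Lame R) : Hol X fun z => X.t L (cst (th z.1 z.2)) :=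
  Fam.sum _ fun j => (hol_th X j).mul (hol_const X _)

lemma hol_D (X : Der ℂ R) {F : ℂ × ℂ → R} (h : Hol X F) :
    Hol X fun z => X.D (cst (th z.1 z.2)) (F z) := Fam.D (hol_th X) h

lemma hol_Bm (X : Der ℂ R) (L : Lame R) (i j : Fin 3) : Hol X fun z => X.Bm L z.1 z.2 i j := by
  have h1 : (fun z : ℂ × ℂ => algebraMap ℂ R (-z.1 / 2)) ∈ holR R := hol_sc (by fun_prop)
  have h2 : (fun z : ℂ × ℂ => algebraMap ℂ R (-z.2 / 2)) ∈ holR R := hol_sc (by fun_prop)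
  have h3 : (fun _ : ℂ × ℂ => algebraMap ℂ R (1 / 2)) ∈ holR R := hol_sc (by fun_prop)
  fin_cases i <;> fin_cases j
  · exact Fam.smul h1 (hol_eps X L 0)
  · exact Fam.smul h1 (hol_eps X L 1)
  · exact Fam.smul h1 (hol_const X _)
  · exact Fam.smul h2 (hol_eps X L 0)
  · exact Fam.smul h2 (hol_eps X L 1)
  · exact Fam.smul h2 (hol_const X _)
  · exact ((hol_t X L).mul (hol_eps X L 0)).sub (hol_D X (hol_eps X L 0))
  · exact ((hol_t X L).mul (hol_eps X L 1)).sub (hol_D X (hol_eps X L 1))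
  · exact Fam.smul h3 (hol_t X L)

lemma hol_G0 (X : Der ℂ R) (L₁ L₂ : Lame R) (i j : Fin 3) :
    Hol X fun z => X.G0 L₁ L₂ z.1 z.2 i j := by
  fin_cases i <;> fin_cases j
  · exact hol_const X 1
  · exact hol_const X 0
  · exact hol_const X 0
  · exact hol_const X 0
  · exact hol_const X 1
  · exact hol_const X 0
  · exact (hol_eps X L₁ 0).sub (hol_eps X L₂ 0)
  · exact (hol_eps X L₁ 1).sub (hol_eps X L₂ 1)
  · exact hol_const X 1

lemma hol_bdd {X : Der ℂ R} {F : Fin 3 → Fin 3 → ℂ × ℂ → R} (h : ∀ i j, Hol X (F i j)) (ρ : ℝ) :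
    ∃ M, ∀ z, ‖z‖ ≤ ρ → ∀ i j, ‖F i j z‖ ≤ M := by
  have hc : Continuous fun z i j => F i j z :=
    continuous_pi fun i => continuous_pi fun j => (h i j).diff.continuous
  obtain ⟨M, hM⟩ := (isCompact_closedBall (0 : ℂ × ℂ) ρ).exists_bound_of_continuousOn
    hc.continuousOn
  exact ⟨M, fun z hz i j => ((norm_le_pi_norm (fun j => F i j z) j).trans
    (norm_le_pi_norm (fun i j => F i j z) i)).trans (hM z (mem_closedBall_zero_iff.2 hz))⟩

lemma th_norm (p q : ℂ) : ‖p‖ ^ 2 ≤ ‖th p q‖ ∧ ‖q‖ ^ 2 ≤ ‖th p q‖ := by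
  have h0 := norm_le_pi_norm (th p q) 0
  have h1 := norm_le_pi_norm (th p q) 1
  have e1 : 2 * p ^ 2 = th p q 0 - Complex.I * th p q 1 := by
    simp only [th, Matrix.cons_val_zero, Matrix.cons_val_one]
    linear_combination (p ^ 2 + q ^ 2) * Complex.I_sq
  have e2 : 2 * q ^ 2 = -th p q 0 - Complex.I * th p q 1 := by
    simp only [th, Matrix.cons_val_zero, Matrix.cons_val_one]
    linear_combination (p ^ 2 + q ^ 2) * Complex.I_sq
  have a1 := norm_sub_le (th p q 0) (Complex.I * th p q 1)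
  have a2 := norm_sub_le (-th p q 0) (Complex.I * th p q 1)
  rw [← e1] at a1
  rw [← e2] at a2
  simp only [norm_mul, norm_pow, Complex.norm_I, norm_neg, Complex.norm_ofNat] at a1 a2
  constructor <;> linarith

lemma Bm_trace (X : Der ℂ R) (L : Lame R) (p q : ℂ) :
    X.Bm L p q 0 0 + X.Bm L p q 1 1 + X.Bm L p q 2 2 = 0 := by
  simp only [Der.Bm, X.t_th, Matrix.of_apply, Matrix.cons_val', Matrix.cons_val_zero,
    Matrix.cons_val_one, Matrix.cons_val]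
  module

/-- Elementary matrices as linear maps. -/
def sgl (a b : Fin 3) : R →ₗ[ℂ] (Fin 3 → Fin 3 → R) :=
  LinearMap.single ℂ (fun _ => Fin 3 → R) a ∘ₗ LinearMap.single ℂ (fun _ => R) b

lemma sgl_apply (a b : Fin 3) (f : R) (i j : Fin 3) :
    sgl a b f i j = if i = a ∧ j = b then f else 0 := by
  simp only [sgl, LinearMap.comp_apply, LinearMap.single_apply]
  by_cases h1 : i = a
  · subst h1; simp [Pi.single_apply]
  · simp [h1]

theorem gauge (X : Fr R) (L₁ L₂ : Lame R)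
    (h : ∀ p q : ℂ, p ≠ 0 → X.Orth3 (th p q) (X.Bm L₁ p q) (X.Bm L₂ p q) (X.G0 L₁ L₂ p q)) :
    ∃ G : ℂ → Fin 3 → Fin 3 → (R →ₗ[ℂ] ℂ),
      (∀ q a b ψ, G q a b (X.D (cst (th 1 q)) ψ) + ∑ k, G q k b (X.Bm L₂ 1 q a k * ψ) -
        ∑ k, G q a k (X.Bm L₁ 1 q k b * ψ) = X.I (X.D (cst (th 1 q)) (X.G0 L₁ L₂ 1 q a b * ψ))) ∧
      (∀ q, G q 0 2 = 0 ∧ G q 1 2 = 0) ∧
      (∀ q, G q 0 0 = G 0 0 0 ∧ G q 0 1 = G 0 0 1 ∧ G q 1 0 = G 0 1 0 ∧ G q 1 1 = G 0 1 1 ∧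
        G q 2 2 = G 0 2 2) := by
  choose! g hg using fun p q (hp : p ≠ 0) =>
    exists_G X (th_null p q) (th_ne hp q) (Bm_trace X.toDer L₁ p q) (h p q hp)
  have bd : ∀ ρ : ℝ, ∃ C, 0 ≤ C ∧ ∀ p q, p ≠ 0 → ‖p‖ ≤ ρ → ‖q‖ ≤ ρ → (‖p‖ = 1 ∨ ‖q‖ = 1) →
      ∀ F, ‖g p q F‖ ≤ C * ‖F‖ := by
    intro ρ
    obtain ⟨M₁, b₁⟩ := hol_bdd (hol_Bm X.toDer L₁) ρ
    obtain ⟨M₂, b₂⟩ := hol_bdd (hol_Bm X.toDer L₂) ρ
    obtain ⟨M₃, b₃⟩ := hol_bdd (hol_G0 X.toDer L₁ L₂) ρ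
    obtain ⟨M₄, b₄⟩ := hol_bdd (fun i j => hol_D X.toDer (hol_G0 X.toDer L₁ L₂ i j)) ρ
    obtain ⟨C, hC, hb⟩ := G_bound X (max (max M₁ M₂) (max M₃ M₄)) 1 one_pos
    refine ⟨C, hC, fun p q hp h1 h2 h3 => ?_⟩
    have hz : ‖(p, q)‖ ≤ ρ := by rw [Prod.norm_def]; exact max_le h1 h2
    refine hb _ (th_null p q) ?_ _ _ _ (fun i j => (b₁ _ hz i j).trans (by simp))
      (fun i j => (b₂ _ hz i j).trans (by simp)) (fun i j => (b₃ _ hz i j).trans (by simp))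
      (fun i j => (b₄ _ hz i j).trans (by simp)) _ (hg p q hp)
    rcases h3 with h3 | h3
    · simpa [h3] using (th_norm p q).1
    · simpa [h3] using (th_norm p q).2
  have hline : ∀ {F : ℂ × ℂ → R}, Hol X.toDer F → Differentiable ℂ fun q => F (1, q) :=
    fun hF => hF.diff.comp (by fun_prop)
  have hdiff : ∀ F, Differentiable ℂ fun q => g 1 q F := by
    refine holo (fun q => TT X.toDer (th 1 q) (X.Bm L₁ 1 q) (X.Bm L₂ 1 q))
      (fun q => ell X (th 1 q) (X.G0 L₁ L₂ 1 q)) (g 1) (fun Ψ => ?_) (fun Ψ => ?_)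
      (fun q => hg 1 q one_ne_zero)
      (fun q => TT_surj X (th_null 1 q) (th_ne one_ne_zero q) _ _) fun ρ => ?_
    · refine differentiable_pi.2 fun i => differentiable_pi.2 fun j => ?_
      exact hline (((hol_D X.toDer (hol_const _ (Ψ i j))).add (Fam.sum _ fun k =>
        (hol_Bm X.toDer L₂ k i).mul (hol_const _ (Ψ k j)))).sub (Fam.sum _ fun k =>
          (hol_Bm X.toDer L₁ j k).mul (hol_const _ (Ψ i k))))
    · exact X.I.differentiable.comp (hline (hol_D X.toDer (Fam.sum _ fun i => Fam.sum _ fun j =>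
        (hol_G0 X.toDer L₁ L₂ i j).mul (hol_const _ (Ψ i j)))))
    · obtain ⟨C, -, hC⟩ := bd (max 1 ρ)
      exact ⟨C, fun q hq => hC 1 q one_ne_zero (by simp) (hq.trans (le_max_right _ _))
        (Or.inl norm_one)⟩
  have hhom : ∀ q : ℂ, q ≠ 0 → ∀ a b f, (![1, 1, q] b / ![1, 1, q] a) * g 1 q (sgl a b f) =
      g q⁻¹ 1 (sgl a b f) := by
    intro q hq a b f
    have hq' := inv_ne_zero hq
    have hw : ∀ i, (![1, 1, q] : Fin 3 → ℂ) i ≠ 0 := fun i => by fin_cases i <;> simp [hq]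
    have g1 := hg (q * q⁻¹) (q * 1) (mul_ne_zero hq hq')
    have := homog X (pow_ne_zero 2 hq) (th_smul q q⁻¹ 1) hw (Bm_smul X.toDer L₁ hq q⁻¹ 1)
      (Bm_smul X.toDer L₂ hq q⁻¹ 1) (G0_smul X.toDer L₁ L₂ hq q⁻¹ 1) (hg q⁻¹ 1 hq') g1
      (TT_surj X (th_null _ _) (th_ne hq' _) _ _) (sgl a b f)
    rw [mul_inv_cancel₀ hq, mul_one] at this
    rw [← this, ← smul_eq_mul, ← map_smul]
    congr 1
    funext i j
    simp only [Pi.smul_apply, sgl_apply]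
    split_ifs with hij
    · rw [hij.1, hij.2]
    · simp
  obtain ⟨C, hC, hb⟩ := bd 1
  have liou : ∀ (a b : Fin 3) (f : R) (u : ℂ → ℂ), Differentiable ℂ u →
      (∀ q, ‖q‖ ≤ 1 → ‖u q‖ ≤ 1) → (∀ q, 1 ≤ ‖q‖ → ‖u q‖ ≤ ‖![1, 1, q] b / ![1, 1, q] a‖) →
      ∀ q, u q * g 1 q (sgl a b f) = u 0 * g 1 0 (sgl a b f) := by
    intro a b f u hu h1 h2 q
    refine (hu.mul (hdiff (sgl a b f))).apply_eq_apply_of_bounded ?_ q 0
    refine isBounded_iff_forall_norm_le.2 ⟨C * ‖sgl a b f‖, ?_⟩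
    rintro _ ⟨q, rfl⟩
    simp only [Pi.mul_apply, norm_mul]
    rcases le_total ‖q‖ 1 with hq | hq
    · refine (mul_le_of_le_one_left (norm_nonneg _) (h1 q hq)).trans ?_
      exact hb 1 q one_ne_zero (by simp) hq (Or.inl norm_one) _
    · have hq0 : q ≠ 0 := by rintro rfl; norm_num at hq
      refine (mul_le_mul_of_nonneg_right (h2 q hq) (norm_nonneg _)).trans ?_
      rw [← norm_mul, hhom q hq0]
      exact hb _ 1 (inv_ne_zero hq0) (by rw [norm_inv]; exact inv_le_one_of_one_le₀ hq) (by simp)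
        (Or.inr norm_one) _
  have cst0 : ∀ (a b : Fin 3), (∀ q : ℂ, 1 ≤ ‖q‖ → 1 ≤ ‖![1, 1, q] b / ![1, 1, q] a‖) →
      ∀ q, g 1 q ∘ₗ sgl a b = g 1 0 ∘ₗ sgl a b := by
    intro a b hab q
    ext f
    simpa using liou a b f (fun _ => 1) (differentiable_const _) (by simp)
      (fun q hq => by simpa using hab q hq) q
  have zer : ∀ a : Fin 3, (∀ q : ℂ, (![1, 1, q] : Fin 3 → ℂ) a = 1) →
      ∀ q, g 1 q ∘ₗ sgl a 2 = 0 := by
    intro a ha q
    have c0 := cst0 a 2 (fun q hq => by simpa [ha] using hq)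
    rw [c0 q, ← c0 1]
    ext f
    simpa using liou a 2 f (fun q => q) differentiable_id (fun q hq => hq)
      (fun q _ => by simp [ha]) 1
  have one : ∀ q : ℂ, 1 ≤ ‖q‖ → (1 : ℝ) ≤ ‖q / q‖ := fun q hq => by
    rw [div_self (by rintro rfl; norm_num at hq), norm_one]
  refine ⟨fun q a b => g 1 q ∘ₗ sgl a b, fun q a b ψ => ?_,
    fun q => ⟨zer 0 (by simp) q, zer 1 (by simp) q⟩,
    fun q => ⟨cst0 0 0 (by simp) q, cst0 0 1 (by simp) q, cst0 1 0 (by simp) q,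
      cst0 1 1 (by simp) q, cst0 2 2 (by simpa using one) q⟩⟩
  have e := hg 1 q one_ne_zero (sgl a b ψ)
  have e1 : TT X.toDer (th 1 q) (X.Bm L₁ 1 q) (X.Bm L₂ 1 q) (sgl a b ψ) =
      sgl a b (X.D (cst (th 1 q)) ψ) + ∑ k, sgl k b (X.Bm L₂ 1 q a k * ψ) -
        ∑ k, sgl a k (X.Bm L₁ 1 q k b * ψ) := by
    funext i j
    simp only [TT_apply, Pi.sub_apply, Pi.add_apply, Finset.sum_apply, sgl_apply]
    by_cases h1 : i = a <;> by_cases h2 : j = b <;> simp [h1, h2, X.D_zero]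
  have e2 : ell X (th 1 q) (X.G0 L₁ L₂ 1 q) (sgl a b ψ) =
      X.I (X.D (cst (th 1 q)) (X.G0 L₁ L₂ 1 q a b * ψ)) := by
    rw [ell_apply]
    congr 2
    simp only [sgl_apply, mul_ite, mul_zero]
    rw [Finset.sum_eq_single a (fun i _ hi => by simp [hi]) (by simp)]
    simp
  rw [e1, e2, map_sub, map_add, map_sum, map_sum] at e
  exact e

end Vale.Agent.P136
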