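import Vale.Agent.P136.Reg

/-!
# Weighted interior regularity and solutions with two derivatives
-/

open MeasureTheory Set Metric
open scoped ContDiff RealInnerProductSpace

noncomputable section

namespace Vale.Agent.P136

namespace H2

variable {Ω : Set E3} {Ψ h f g : E3 → ℝ} {F : Fin 3 → E3 → ℝ} {ξ : E3} {b : ℝ}

/-- The weak equation `Δ Ψ = div F + h`. -/
def WEq (Ω : Set E3) (Ψ h : E3 → ℝ) (F : Fin 3 → E3 → ℝ) : Prop :=
  ∀ φ, IsTest Ω φ → ∫ x in Ω, Ψ x * ∑ j, pd j (pd j φ) x =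
    - (∑ j, ∫ x in Ω, F j x * pd j φ x) + ∫ x in Ω, h x * φ x

lemma int_test {Ω' : Set E3} {φ : E3 → ℝ} (hf : MemLp f 2 (volume.restrict Ω))
    (hφ : IsTest Ω' φ) : Integrable (fun x => f x * φ x) (volume.restrict Ω) :=
  hf.integrable_mul (hφ.memLp _)

lemma lap_test {φ : E3 → ℝ} (hφ : IsTest Ω φ) : IsTest Ω (fun x => ∑ j, pd j (pd j φ) x) :=
  IsTest.sum _ fun j => (hφ.pd j).pd j

lemma weq_iff (hΨ : MemLp Ψ 2 (volume.restrict Ω)) (hh : MemLp h 2 (volume.restrict Ω))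
    (hF : ∀ j, MemLp (F j) 2 (volume.restrict Ω)) : WEq Ω Ψ h F ↔ ∀ φ, IsTest Ω φ →
      ∫ x in Ω, (Ψ x * ∑ j, pd j (pd j φ) x + ∑ j, F j x * pd j φ x - h x * φ x) = 0 := by
  refine forall₂_congr fun φ hφ => ?_
  have i1 := int_test hΨ (lap_test hφ)
  have i2 := fun j => int_test (hF j) (hφ.pd j)
  have i3 := integrable_finsetSum Finset.univ fun j _ => i2 j
  rw [integral_sub (i1.fun_add i3) (int_test hh hφ), integral_add i1 i3,
    integral_finsetSum _ fun j _ => i2 j]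
  constructor <;> intro h <;> linarith

lemma int_mono {Ω' : Set E3} (hs : Ω' ⊆ Ω) {φ : E3 → ℝ} (hφ : IsTest Ω' φ) (f : E3 → ℝ) :
    ∫ x in Ω', f x * φ x = ∫ x in Ω, f x * φ x := by
  rw [hφ.setIntegral_mul, (hφ.mono hs).setIntegral_mul]

lemma WEq.mono {Ω' : Set E3} (H : WEq Ω Ψ h F) (hs : Ω' ⊆ Ω) : WEq Ω' Ψ h F := by
  intro φ hφ
  rw [int_mono hs (lap_test hφ), int_mono hs hφ, H φ (hφ.mono hs)]
  simp only [fun j => int_mono hs (hφ.pd j) (F j)]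

lemma wb_ind (hb : Bornology.IsBounded Ω) (hm : MeasurableSet Ω) (H : WB Ω ξ f b) :
    WB univ 0 (Ω.indicator fun x => Real.exp ⟪-ξ, x⟫ * f x) b := by
  refine ⟨H.1, ?_, ?_⟩
  · rw [Measure.restrict_univ, memLp_indicator_iff_restrict hm]
    exact memLp_cont_mul hb hm (contDiff_expw (-ξ)).continuous H.2.1
  · refine le_of_eq_of_le ?_ H.2.2
    rw [Measure.restrict_univ, ← integral_indicator hm]
    refine integral_congr_ae (.of_forall fun x => ?_)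
    by_cases hx : x ∈ Ω <;> simp [hx, inner_neg_left]

lemma wb_unw (hb : Bornology.IsBounded Ω) (hm : MeasurableSet Ω) (H : WB univ 0 f b) :
    WB Ω ξ (fun x => Real.exp ⟪ξ, x⟫ * f x) b := by
  obtain ⟨h0, h1, h2⟩ := H
  rw [Measure.restrict_univ] at h1 h2
  refine ⟨h0, memLp_cont_mul hb hm (contDiff_expw ξ).continuous (h1.restrict _), ?_⟩
  simp only [← mul_assoc, ← Real.exp_add, neg_add_cancel, Real.exp_zero, one_mul]
  simp only [inner_zero_left, neg_zero, Real.exp_zero, one_mul] at h2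
  exact (setIntegral_le_integral h1.integrable_sq (.of_forall fun x => sq_nonneg _)).trans h2

lemma exists_bound_fin (hb : Bornology.IsBounded Ω) {κ : Type} [Fintype κ] {a : κ → E3 → ℝ}
    (ha : ∀ i, Continuous (a i)) : ∃ M, 0 ≤ M ∧ ∀ i, ∀ x ∈ Ω, |a i x| ≤ M := by
  choose M h0 hM using fun i => exists_bound_of_cont hb (ha i)
  exact ⟨∑ i, M i, Finset.sum_nonneg fun i _ => h0 i, fun i x hx =>
    (hM i x hx).trans (Finset.single_le_sum (fun i _ => h0 i) (Finset.mem_univ i))⟩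

lemma pd_mul' (hf : ContDiff ℝ ∞ f) (hg : ContDiff ℝ ∞ g) (j : Fin 3) :
    pd j (fun y => f y * g y) = fun x => pd j f x * g x + f x * pd j g x :=
  funext (pd_mul hf hg j)

lemma pd_pd_mul (hf : ContDiff ℝ ∞ f) (hg : ContDiff ℝ ∞ g) (j : Fin 3) (x : E3) :
    pd j (pd j fun y => f y * g y) x =
      pd j (pd j f) x * g x + 2 * pd j f x * pd j g x + f x * pd j (pd j g) x := by
  rw [pd_mul' hf hg, pd_add ((contDiff_pd hf j).mul hg) (hf.mul (contDiff_pd hg j)),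
    pd_mul (contDiff_pd hf j) hg, pd_mul hf (contDiff_pd hg j)]
  ring

lemma pd_pd_expw (ξ : E3) (j : Fin 3) (x : E3) :
    pd j (pd j fun x : E3 => Real.exp ⟪ξ, x⟫) x = ξ j * (ξ j * Real.exp ⟪ξ, x⟫) := by
  rw [funext (pd_expw ξ j), pd_mul contDiff_const (contDiff_expw ξ), pd_const, pd_expw]
  ring

/-- The equation for a first derivative. -/
lemma WEq.deriv {k : Fin 3} {D : Fin 3 → E3 → ℝ} (H : WEq Ω Ψ h F) (hg : IsWD Ω k Ψ g)
    (hD : ∀ j, IsWD Ω j (F j) (D j)) (hh : MemLp h 2 (volume.restrict Ω))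
    (hD' : ∀ j, MemLp (D j) 2 (volume.restrict Ω)) :
    WEq Ω g (fun _ => 0) (fun j => if j = k then fun x => h x + ∑ j, D j x else fun _ => 0) := by
  intro φ hφ
  have h1 := hg _ (lap_test hφ)
  have h2 := H _ (hφ.pd k)
  have h3 := fun j => hD j _ (hφ.pd k)
  have e : ∀ x, pd k (fun x => ∑ j, pd j (pd j φ) x) x = ∑ j, pd j (pd j (pd k φ)) x := by
    intro x
    rw [pd_sum _ fun j => contDiff_pd (contDiff_pd hφ.1 j) j]
    refine Finset.sum_congr rfl fun j _ => ?_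
    rw [pd_comm (contDiff_pd hφ.1 j) k j, pd_comm hφ.1 k j]
  have i2 := fun j => int_test (hD' j) (hφ.pd k)
  simp only [e] at h1
  simp only [h3] at h2
  rw [Finset.sum_eq_single k (fun j _ hj => by simp [hj]) (by simp)]
  simp only [if_true, add_mul, Finset.sum_mul, zero_mul, integral_zero]
  rw [integral_add (int_test hh (hφ.pd k)) (integrable_finsetSum _ fun j _ => i2 j),
    integral_finsetSum _ fun j _ => i2 j]
  rw [Finset.sum_neg_distrib] at h2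
  linarith

/-- The scalar equations contained in the system. -/
lemma weq_sys {ι : Type} [Fintype ι] {A : Fin 3 → ι → ι → E3 → ℝ} {A0 : ι → ι → E3 → ℝ}
    (hA : ∀ j a b, ContDiff ℝ ∞ (A j a b)) (hA0 : ∀ a b, ContDiff ℝ ∞ (A0 a b))
    (hb : Bornology.IsBounded Ω) (hm : MeasurableSet Ω) {Φ G : ι → E3 → ℝ}
    (hΦ : ∀ a, MemLp (Φ a) 2 (volume.restrict Ω)) (hG : ∀ a, MemLp (G a) 2 (volume.restrict Ω))
    (H : ∀ v : ι → E3 → ℝ, (∀ a, IsTest Ω (v a)) →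
      ∑ a, ∫ x in Ω, Φ a x * sysOp A A0 v a x = ∑ a, ∫ x in Ω, G a x * v a x) (a : ι) :
    WEq Ω (Φ a) (fun x => G a x - ∑ c, A0 c a x * Φ c x)
      (fun j x => ∑ c, A j c a x * Φ c x) := by
  classical
  refine (weq_iff (hΦ a) ((hG a).sub (memLp_finsetSum _ fun c _ =>
    memLp_cont_mul hb hm (hA0 c a).continuous (hΦ c))) fun j => memLp_finsetSum _ fun c _ =>
      memLp_cont_mul hb hm (hA j c a).continuous (hΦ c)).2 fun φ hφ => ?_
  obtain ⟨v, hv⟩ : ∃ v : ι → E3 → ℝ, ∀ c, v c = if c = a then φ else fun _ => 0 :=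
    ⟨_, fun _ => rfl⟩
  have hvt : ∀ c, IsTest Ω (v c) := fun c => by
    rw [hv]; split_ifs
    exacts [hφ, IsTest.zero]
  have h1 := H v hvt
  have i1 := fun c => int_test (hΦ c) (sysOp_test hA hA0 hvt c)
  have i2 := fun c => int_test (hG c) (hvt c)
  rw [← integral_finsetSum _ fun c _ => i1 c, ← integral_finsetSum _ fun c _ => i2 c,
    ← sub_eq_zero, ← integral_sub (integrable_finsetSum _ fun c _ => i1 c)
      (integrable_finsetSum _ fun c _ => i2 c)] at h1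
  refine Eq.trans (integral_congr_ae (.of_forall fun x => ?_)) h1
  have z : ∀ j, pd j (fun _ : E3 => (0 : ℝ)) = fun _ => 0 := fun j => funext (pd_const 0 j)
  have e0 : ∀ c, v c x = if c = a then φ x else 0 := fun c => by
    rw [hv]; split_ifs <;> rfl
  have e1 : ∀ j c, pd j (v c) x = if c = a then pd j φ x else 0 := fun j c => by
    rw [hv]; split_ifs <;> simp [z]
  have e2 : ∀ j c, pd j (pd j (v c)) x = if c = a then pd j (pd j φ) x else 0 := fun j c => by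
    rw [hv]; split_ifs <;> simp [z]
  simp only [sysOp, e0, e1, e2, mul_ite, mul_zero, Finset.sum_ite_eq', Finset.mem_univ, if_true,
    mul_add, Finset.sum_add_distrib, Fin.sum_univ_three, Pi.sub_apply, sub_mul, Finset.sum_mul]
  have e : ∀ (f : ι → ℝ) (y : ℝ), ∑ c, Φ c x * (f c * y) = ∑ c, f c * Φ c x * y := fun f y =>
    Finset.sum_congr rfl fun c _ => by ring
  simp only [e]
  ring

end H2

open H2

/-- Apply `reg1` to `w Ψ` extended by zero, `w = χ exp (-⟪ξ, x⟫)`, `χ` a bump equal to one on the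
small ball, with data `F' j = w F j + 2 Ψ pd j w`, `h' = w h - ∑ F j pd j w - Ψ Δ w`. -/
theorem reg_loc {r₁ r₂ : ℝ} (h₁ : 0 < r₁) (h₂ : r₁ < r₂) : ∃ C, 0 ≤ C ∧
    ∀ (ξ : E3) (Ψ h : E3 → ℝ) (F : Fin 3 → E3 → ℝ) (b : ℝ), WB (ball 0 r₂) ξ Ψ b →
      WB (ball 0 r₂) ξ h b → (∀ j, WB (ball 0 r₂) ξ (F j) b) →
      (∀ φ, IsTest (ball 0 r₂) φ → ∫ x in ball 0 r₂, Ψ x * ∑ j, pd j (pd j φ) x =
        - (∑ j, ∫ x in ball 0 r₂, F j x * pd j φ x) + ∫ x in ball 0 r₂, h x * φ x) →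
      ∃ G : Fin 3 → E3 → ℝ, ∀ j, WB (ball 0 r₁) ξ (G j) (C * (1 + ‖ξ‖) ^ 2 * b) ∧
        IsWD (ball 0 r₁) j Ψ (G j) := by
  have hb : Bornology.IsBounded (ball (0 : E3) r₂) := isBounded_ball
  have hm : MeasurableSet (ball (0 : E3) r₂) := measurableSet_ball
  have hb' : Bornology.IsBounded (ball (0 : E3) r₁) := isBounded_ball
  have hm' : MeasurableSet (ball (0 : E3) r₁) := measurableSet_ball
  obtain ⟨χ, hχ, hχ1⟩ : ∃ χ : E3 → ℝ, IsTest (ball 0 r₂) χ ∧ ∀ x ∈ ball (0 : E3) r₁, χ x = 1 := by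
    let c : ContDiffBump (0 : E3) := ⟨r₁, (r₁ + r₂) / 2, h₁, by linarith⟩
    refine ⟨c, ⟨c.contDiff, c.hasCompactSupport, ?_⟩, fun x hx =>
      c.one_of_mem_closedBall (ball_subset_closedBall hx)⟩
    rw [c.tsupport_eq]
    exact closedBall_subset_ball (by change (r₁ + r₂) / 2 < r₂; linarith)
  have s1 := fun j => contDiff_pd hχ.1 j
  have s2 := fun j => contDiff_pd (s1 j) j
  obtain ⟨M0, p0, hM0⟩ := exists_bound_of_cont hb hχ.1.continuous
  obtain ⟨M1, p1, hM1⟩ := exists_bound_fin hb fun j => (s1 j).continuous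
  obtain ⟨M2, p2, hM2⟩ := exists_bound_fin hb fun j => (s2 j).continuous
  obtain ⟨M, hM⟩ : ∃ M, M = M0 + M1 + M2 := ⟨_, rfl⟩
  have p : 0 ≤ M := by linarith
  refine ⟨1 + 21 * M, by linarith, fun ξ Ψ h F b hΨ hh hF H => ?_⟩
  have hb0 := hΨ.1
  have hn := norm_nonneg ξ
  have hξ : ∀ j, |ξ j| ≤ ‖ξ‖ := fun j => PiLp.norm_apply_le ξ j
  obtain ⟨t, ht⟩ : ∃ t, t = 1 + ‖ξ‖ := ⟨_, rfl⟩
  have t1 : 1 ≤ t := by linarith
  have t2 : t ≤ t ^ 2 := by nlinarith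
  rw [← ht]
  obtain ⟨c, hc⟩ : ∃ c : Fin 3 → E3 → ℝ, ∀ j, c j = fun x => pd j χ x - ξ j * χ x :=
    ⟨_, fun _ => rfl⟩
  obtain ⟨d, hd⟩ : ∃ d : Fin 3 → E3 → ℝ, ∀ j, d j = fun x =>
      pd j (pd j χ) x - 2 * ξ j * pd j χ x + ξ j ^ 2 * χ x := ⟨_, fun _ => rfl⟩
  have cc : ∀ j, Continuous (c j) := fun j =>
    hc j ▸ (s1 j).continuous.sub (continuous_const.mul hχ.1.continuous)
  have cd : ∀ j, Continuous (d j) := fun j =>
    hd j ▸ ((s2 j).continuous.sub (continuous_const.mul (s1 j).continuous)).add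
      (continuous_const.mul hχ.1.continuous)
  have b0 : ∀ x ∈ ball (0 : E3) r₂, |χ x| ≤ M * t ^ 2 := fun x hx =>
    (hM0 x hx).trans (by nlinarith)
  have b1 : ∀ j, ∀ x ∈ ball (0 : E3) r₂, |c j x| ≤ M * t ^ 2 := fun j x hx => by
    rw [hc]
    refine (abs_sub _ _).trans ?_
    rw [abs_mul]
    have := mul_le_mul (hξ j) (hM0 x hx) (abs_nonneg _) hn
    have := hM1 j x hx
    nlinarith [mul_nonneg hn p1, mul_nonneg hn p2, mul_le_mul_of_nonneg_left t2 p]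
  have b2 : ∀ j, ∀ x ∈ ball (0 : E3) r₂, |d j x| ≤ M * t ^ 2 := fun j x hx => by
    rw [hd]
    refine (abs_add_le _ _).trans ((add_le_add_left (abs_sub _ _) _).trans ?_)
    rw [abs_mul, abs_mul, abs_mul, abs_pow, abs_two, mul_assoc]
    have a1 := mul_le_mul (hξ j) ((hM1 j x hx).trans (by linarith : M1 ≤ M)) (abs_nonneg _) hn
    have a2 := mul_le_mul (pow_le_pow_left₀ (abs_nonneg _) (hξ j) 2)
      ((hM0 x hx).trans (by linarith : M0 ≤ M)) (abs_nonneg _) (sq_nonneg _)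
    have a3 := (hM2 j x hx).trans (by linarith : M2 ≤ M)
    rw [ht]
    nlinarith
  have q : 0 ≤ M * t ^ 2 := by positivity
  have qb : 0 ≤ M * t ^ 2 * b := by positivity
  have m0 := fun {f : E3 → ℝ} (hf : WB (ball 0 r₂) ξ f b) =>
    WB.mul_bdd hb hm hχ.1.continuous q b0 hf
  have m1 := fun j {f : E3 → ℝ} (hf : WB (ball 0 r₂) ξ f b) => WB.mul_bdd hb hm (cc j) q (b1 j) hf
  have m2 := fun j {f : E3 → ℝ} (hf : WB (ball 0 r₂) ξ f b) => WB.mul_bdd hb hm (cd j) q (b2 j) hf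
  have w1 := (wb_ind hb hm (m0 hΨ)).mono (b' := 7 * (M * t ^ 2 * b)) (by linarith)
  have w2 := (wb_ind hb hm (((m0 hh).sub hb hm (WB.sum hb hm Finset.univ fun j =>
    m1 j (hF j))).sub hb hm (WB.sum hb hm Finset.univ fun j => m2 j hΨ))).mono
      (b' := 7 * (M * t ^ 2 * b)) (by simp; linarith)
  have w3 := fun j => (wb_ind hb hm ((m0 (hF j)).add hb hm ((m1 j hΨ).add hb hm (m1 j hΨ)))).mono
    (b' := 7 * (M * t ^ 2 * b)) (by linarith)
  have H2 := (weq_iff w1.2.1 w2.2.1 fun j => (w3 j).2.1).2 fun φ hφ => by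
    have hE := contDiff_expw (-ξ)
    have h1 := (weq_iff hΨ.2.1 hh.2.1 fun j => (hF j).2.1).1 H
      (fun x => (Real.exp ⟪-ξ, x⟫ * φ x) * χ x) (hχ.mul_left (hE.mul hφ.1))
    rw [← integral_indicator hm] at h1
    rw [Measure.restrict_univ]
    refine Eq.trans (integral_congr_ae (.of_forall fun x => ?_)) h1
    by_cases hx : x ∈ ball (0 : E3) r₂
    · simp only [indicator_of_mem hx, pd_pd_mul (hE.mul hφ.1) hχ.1, pd_pd_mul hE hφ.1,
        pd_mul (hE.mul hφ.1) hχ.1, pd_mul hE hφ.1, pd_pd_expw, pd_expw, hc, hd,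
        Fin.sum_univ_three, PiLp.neg_apply]
      ring
    · simp [indicator_of_notMem hx]
  obtain ⟨G, hG⟩ := reg1 w1 w2 w3 (by simpa only [WEq, Measure.restrict_univ] using H2)
  have hs : ball (0 : E3) r₁ ⊆ ball 0 r₂ := ball_subset_ball h₂.le
  refine ⟨fun j x => ξ j * Ψ x + Real.exp ⟪ξ, x⟫ * G j x, fun j => ⟨?_, ?_⟩⟩
  · refine ((WB.mul_bdd hb' hm' continuous_const hn (fun x _ => hξ j)
      (hΨ.restrict hb hm hs)).add hb' hm' (wb_unw hb' hm' (hG j).1)).mono ?_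
    nlinarith [mul_le_mul_of_nonneg_right (by linarith : ‖ξ‖ ≤ t ^ 2) hb0]
  · have e : ∀ x ∈ ball (0 : E3) r₁, Real.exp ⟪ξ, x⟫ * (ball (0 : E3) r₂).indicator
        (fun x => Real.exp ⟪-ξ, x⟫ * (χ x * Ψ x)) x = Ψ x := fun x hx => by
      rw [indicator_of_mem (hs hx), hχ1 x hx, ← mul_assoc, ← Real.exp_add, inner_neg_left]
      simp
    refine (((hG j).2.mono (subset_univ _)).mul_smooth (contDiff_expw ξ)
      (w1.2.1.mono_measure (Measure.restrict_mono (subset_univ _) le_rfl))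
      ((hG j).1.2.1.mono_measure (Measure.restrict_mono (subset_univ _) le_rfl))).congr hm' e
        fun x hx => ?_
    rw [pd_expw, mul_assoc, e x hx]

/-- `l2solve` on the ball of radius `R + 2`, then `reg_loc` twice. -/
theorem solveH2 {ι : Type} [Fintype ι] {A : Fin 3 → ι → ι → E3 → ℝ} {A0 : ι → ι → E3 → ℝ}
    (hA : ∀ j a b, ContDiff ℝ ∞ (A j a b)) (hA0 : ∀ a b, ContDiff ℝ ∞ (A0 a b)) {R : ℝ}
    (hR : 0 < R) : ∃ C, 0 ≤ C ∧ ∀ (ξ : E3) (G : ι → E3 → ℝ) (b : ℝ),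
      (∀ a, WB (ball 0 (R + 2)) ξ (G a) b) →
      ∃ (Φ : ι → E3 → ℝ) (Φ₁ : ι → Fin 3 → E3 → ℝ) (Φ₂ : ι → Fin 3 → Fin 3 → E3 → ℝ),
        (∀ a, WB (ball 0 R) ξ (Φ a) (C * (1 + ‖ξ‖) ^ 4 * b)) ∧
        (∀ a k, WB (ball 0 R) ξ (Φ₁ a k) (C * (1 + ‖ξ‖) ^ 4 * b)) ∧
        (∀ a k j, WB (ball 0 R) ξ (Φ₂ a k j) (C * (1 + ‖ξ‖) ^ 4 * b)) ∧
        (∀ a k, IsWD (ball 0 R) k (Φ a) (Φ₁ a k)) ∧
        (∀ a k j, IsWD (ball 0 R) j (Φ₁ a k) (Φ₂ a k j)) ∧
        ∀ v : ι → E3 → ℝ, (∀ a, IsTest (ball 0 R) (v a)) →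
          ∑ a, ∫ x in ball 0 R, Φ a x * sysOp A A0 v a x =
            ∑ a, ∫ x in ball 0 R, G a x * v a x := by
  have hb : ∀ r, Bornology.IsBounded (ball (0 : E3) r) := fun _ => isBounded_ball
  have hm : ∀ r, MeasurableSet (ball (0 : E3) r) := fun _ => measurableSet_ball
  obtain ⟨C0, p0, h0⟩ := l2solve hA hA0 (R + 2)
  obtain ⟨C1, p1, h1⟩ := reg_loc (by linarith : 0 < R + 1) (by linarith : R + 1 < R + 2)
  obtain ⟨C2, p2, h2⟩ := reg_loc hR (by linarith : R < R + 1)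
  obtain ⟨M1, q1, hM1⟩ := exists_bound_fin (hb (R + 2)) (κ := Fin 3 × ι × ι)
    fun p => (hA p.1 p.2.1 p.2.2).continuous
  obtain ⟨M2, q2, hM2⟩ := exists_bound_fin (hb (R + 2)) (κ := Fin 3 × ι × ι)
    fun p => (contDiff_pd (hA p.1 p.2.1 p.2.2) p.1).continuous
  obtain ⟨M0, q0, hM0⟩ := exists_bound_fin (hb (R + 2)) (κ := ι × ι)
    fun p => (hA0 p.1 p.2).continuous
  obtain ⟨n, hn⟩ : ∃ n : ℝ, n = Fintype.card ι := ⟨_, rfl⟩
  have n0 : 0 ≤ n := hn ▸ Nat.cast_nonneg _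
  obtain ⟨K1, hK1⟩ : ∃ K1, K1 = 1 + C0 + n * (M0 * C0) + n * (M1 * C0) := ⟨_, rfl⟩
  obtain ⟨K2, hK2⟩ : ∃ K2, K2 = K1 + C1 * K1 + 3 * (n * (M2 * K1 + M1 * (C1 * K1))) := ⟨_, rfl⟩
  have k1 : 0 ≤ K1 := by rw [hK1]; positivity
  have k2 : 0 ≤ K2 := by rw [hK2]; positivity
  refine ⟨K2 + C2 * K2, by positivity, fun ξ G b hG => ?_⟩
  obtain ⟨Φ, hΦ, hE⟩ := h0 ξ G b hG
  obtain ⟨t, ht⟩ : ∃ t, t = (1 + ‖ξ‖) ^ 2 := ⟨_, rfl⟩
  have t1 : 1 ≤ t := ht ▸ one_le_pow₀ (by linarith [norm_nonneg ξ])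
  have s1 : ball (0 : E3) (R + 1) ⊆ ball 0 (R + 2) := ball_subset_ball (by linarith)
  have s0 : ball (0 : E3) R ⊆ ball 0 (R + 1) := ball_subset_ball (by linarith)
  have E := weq_sys hA hA0 (hb _) (hm _) (fun a => (hΦ a).2.1) (fun a => (hG a).2.1) hE
  have wΦ : ∀ a, WB (ball 0 (R + 2)) ξ (Φ a) (K1 * b) := fun a => (hΦ a).mono (by
    have := (hG a).1
    rw [hK1]
    have : 0 ≤ (1 + n * (M0 * C0) + n * (M1 * C0)) * b := by positivity
    linarith)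
  have wh : ∀ a, WB (ball 0 (R + 2)) ξ (fun x => G a x - ∑ c, A0 c a x * Φ c x) (K1 * b) :=
    fun a => ((hG a).sub (hb _) (hm _) (WB.sum (hb _) (hm _) Finset.univ fun c =>
      WB.mul_bdd (hb _) (hm _) (hA0 c a).continuous q0 (hM0 (c, a)) (hΦ c))).mono (by
        have := (hG a).1
        rw [hK1, Finset.sum_const, Finset.card_univ, nsmul_eq_mul, ← hn]
        have : 0 ≤ (C0 + n * (M1 * C0)) * b := by positivity
        linarith)
  have wF : ∀ a j, WB (ball 0 (R + 2)) ξ (fun x => ∑ c, A j c a x * Φ c x) (K1 * b) :=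
    fun a j => (WB.sum (hb _) (hm _) Finset.univ fun c =>
      WB.mul_bdd (hb _) (hm _) (hA j c a).continuous q1 (hM1 (j, c, a)) (hΦ c)).mono (by
        have := (hG a).1
        rw [hK1, Finset.sum_const, Finset.card_univ, nsmul_eq_mul, ← hn]
        have : 0 ≤ (1 + C0 + n * (M0 * C0)) * b := by positivity
        linarith)
  choose Φ₁ hΦ₁ using fun a => h1 ξ _ _ _ _ (wΦ a) (wh a) (wF a) (E a)
  rw [← ht] at hΦ₁
  have r1 := fun {f : E3 → ℝ} {b : ℝ} (hf : WB (ball 0 (R + 2)) ξ f b) =>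
    hf.restrict (hb _) (hm _) s1
  have r0 := fun {f : E3 → ℝ} {b : ℝ} (hf : WB (ball 0 (R + 1)) ξ f b) =>
    hf.restrict (hb _) (hm _) s0
  have wD : ∀ a j c, WB (ball 0 (R + 1)) ξ
      (fun x => pd j (A j c a) x * Φ c x + A j c a x * Φ₁ c j x)
      (M2 * (K1 * b) + M1 * (C1 * t * (K1 * b))) := fun a j c =>
    (r1 (WB.mul_bdd (hb _) (hm _) (contDiff_pd (hA j c a) j).continuous q2 (hM2 (j, c, a))
      (wΦ c))).add (hb _) (hm _) (WB.mul_bdd (hb _) (hm _) (hA j c a).continuous q1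
        (fun x hx => hM1 (j, c, a) x (s1 hx)) (hΦ₁ c j).1)
  have wD' := fun a j => WB.sum (hb _) (hm _) Finset.univ (wD a j)
  have dD : ∀ a j, IsWD (ball 0 (R + 1)) j (fun x => ∑ c, A j c a x * Φ c x)
      (fun x => ∑ c, (pd j (A j c a) x * Φ c x + A j c a x * Φ₁ c j x)) := fun a j =>
    IsWD.sum Finset.univ
      (fun c => (hΦ₁ c j).2.mul_smooth (hA j c a) (r1 (wΦ c)).2.1 (hΦ₁ c j).1.2.1)
      (fun c => memLp_cont_mul (hb _) (hm _) (hA j c a).continuous (r1 (wΦ c)).2.1)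
      (fun c => (wD a j c).2.1)
  have tb : ∀ a : ι, K1 * b ≤ K1 * t * b := fun a => by
    have := mul_le_mul_of_nonneg_left t1 (mul_nonneg k1 (hG a).1)
    linarith
  have w1 : ∀ a k, WB (ball 0 (R + 1)) ξ (Φ₁ a k) (K2 * t * b) := fun a k => (hΦ₁ a k).1.mono (by
    have := (hG a).1
    rw [hK2]
    have : 0 ≤ (K1 + 3 * (n * (M2 * K1 + M1 * (C1 * K1)))) * t * b := by positivity
    linarith)
  have wz : ∀ a : ι, WB (ball (0 : E3) (R + 1)) ξ (fun _ => 0) (K2 * t * b) := fun a =>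
    WB.zero.mono (w1 a 0).1
  have w2 : ∀ a, WB (ball 0 (R + 1)) ξ (fun x => (G a x - ∑ c, A0 c a x * Φ c x) +
      ∑ j, ∑ c, (pd j (A j c a) x * Φ c x + A j c a x * Φ₁ c j x)) (K2 * t * b) := fun a =>
    ((r1 (wh a)).add (hb _) (hm _) (WB.sum (hb _) (hm _) Finset.univ (wD' a))).mono (by
      have := (hG a).1
      simp only [Finset.sum_const, Finset.card_univ, nsmul_eq_mul, ← hn, Fintype.card_fin,
        Nat.cast_ofNat]
      rw [hK2]
      have a1 := tb a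
      have a2 := mul_le_mul_of_nonneg_left a1 (mul_nonneg n0 q2)
      have : 0 ≤ C1 * K1 * t * b := by positivity
      linarith)
  choose Φ₂ hΦ₂ using fun a k => h2 ξ _ _ _ _ (w1 a k) (wz a) (fun j => by
    split_ifs
    exacts [w2 a, wz a]) (((E a).mono s1).deriv (hΦ₁ a k).2 (dD a) (r1 (wh a)).2.1
      fun j => (wD' a j).2.1)
  rw [← ht] at hΦ₂
  rw [show (1 + ‖ξ‖) ^ 4 = t * t by rw [ht]; ring]
  have f1 : ∀ a : ι, K2 * t * b ≤ (K2 + C2 * K2) * (t * t) * b := fun a => by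
    have := (hG a).1
    have a1 := mul_le_mul_of_nonneg_left t1 (w1 a 0).1
    have : 0 ≤ C2 * K2 * (t * t) * b := by positivity
    linarith
  refine ⟨Φ, Φ₁, Φ₂, fun a => (r0 (r1 (wΦ a))).mono ((tb a).trans (le_trans ?_ (f1 a))),
    fun a k => (r0 (w1 a k)).mono (f1 a), fun a k j => (hΦ₂ a k j).1.mono ?_,
    fun a k => (hΦ₁ a k).2.mono s0, fun a k j => (hΦ₂ a k j).2, fun v hv => ?_⟩
  · have := (hG a).1
    rw [hK2]
    have : 0 ≤ (C1 * K1 + 3 * (n * (M2 * K1 + M1 * (C1 * K1)))) * t * b := by positivity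
    linarith
  · have := (hG a).1
    have : 0 ≤ K2 * (t * t) * b := by positivity
    linarith
  · simp only [fun a => int_mono (s0.trans s1) (sysOp_test hA hA0 hv a) (Φ a),
      fun a => int_mono (s0.trans s1) (hv a) (G a)]
    exact hE v fun a => (hv a).mono (s0.trans s1)

end Vale.Agent.P136
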