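import Vale.Agent.P136.FamS

/-!
# Formal expansions
-/

set_option linter.unusedSimpArgs false

noncomputable section

namespace Vale.Agent.P136

namespace Der

variable {K R : Type*} [CommRing K] [CommRing R] [Algebra K R] (X : Der K R) (L : Lame R)
  {κ : R} (hκ : ∀ j, X.d j κ = 0) (z U U' : Fin 3 → R) (e e' : R)

include hκ

lemma div_lin : X.div (fun k => U k + κ * U' k) = X.div U + κ * X.div U' := by
  simp only [div, Fin.sum_univ_three, map_add, d_mul, hκ]; ring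

lemma P1_lin (i : Fin 3) : X.P1 L (fun k => U k + κ * U' k) (e + κ * e') i =
    X.P1 L U e i + κ * X.P1 L U' e' i := by
  simp only [P1, lap, Fin.sum_univ_three, map_add, d_mul, hκ, map_zero]; ring

lemma P2_lin : X.P2 L (fun k => U k + κ * U' k) (e + κ * e') =
    X.P2 L U e + κ * X.P2 L U' e' := by
  simp only [P2, lap, Fin.sum_univ_three, map_add, d_mul, hκ, map_zero]; ring

lemma T1_lin (i : Fin 3) : X.T1 L z (fun k => U k + κ * U' k) (e + κ * e') i =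
    X.T1 L z U e i + κ * X.T1 L z U' e' i := by
  simp only [T1, D, Fin.sum_univ_three, map_add, d_mul, hκ]; ring

lemma T2_lin : X.T2 L z (fun k => U k + κ * U' k) (e + κ * e') =
    X.T2 L z U e + κ * X.T2 L z U' e' := by
  simp only [T2, D, Fin.sum_univ_three, map_add, d_mul, hκ]; ring

lemma Qu_lin (i : Fin 3) : X.Qu L (fun k => U k + κ * U' k) (e + κ * e') i =
    X.Qu L U e i + κ * X.Qu L U' e' i := by
  simp only [Qu, lap, Fin.sum_univ_three, map_add, d_mul, hκ, map_zero, d_two]; ring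

lemma Qd_lin : X.Qd L (fun k => U k + κ * U' k) (e + κ * e') =
    X.Qd L U e + κ * X.Qd L U' e' := by
  simp only [Qd, lap, div, Fin.sum_univ_three, map_add, d_mul, hκ, map_zero]; ring

lemma Ru_lin (i : Fin 3) : X.Ru L z (fun k => U k + κ * U' k) (e + κ * e') i =
    X.Ru L z U e i + κ * X.Ru L z U' e' i := by
  simp only [Ru, D, Fin.sum_univ_three, map_add, d_mul, hκ]; ring

lemma Rd_lin : X.Rd L z (fun k => U k + κ * U' k) (e + κ * e') =
    X.Rd L z U e + κ * X.Rd L z U' e' := by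
  simp only [Rd, D, Fin.sum_univ_three, map_add, d_mul, hκ]; ring

omit hκ

lemma T1_sc (κ : R) (i : Fin 3) : X.T1 L (fun j => κ * z j) U e i = κ * X.T1 L z U e i := by
  simp only [T1, D, t, Fin.sum_univ_three]; ring

lemma T2_sc (κ : R) : X.T2 L (fun j => κ * z j) U e = κ * X.T2 L z U e := by
  simp only [T2, D, t, Fin.sum_univ_three]; ring

lemma Ru_sc (κ : R) (i : Fin 3) : X.Ru L (fun j => κ * z j) U e i = κ * X.Ru L z U e i := by
  simp only [Ru, D, t, Fin.sum_univ_three]; ring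

lemma Rd_sc (κ : R) : X.Rd L (fun j => κ * z j) U e = κ * X.Rd L z U e := by
  simp only [Rd, D, t, Fin.sum_univ_three]; ring

end Der

variable {R : Type*} [NormedCommRing R] [NormedAlgebra ℂ R]

/-- The real parameter as a ring element. -/
def sg (R : Type*) [CommRing R] [Algebra ℂ R] (s : ℝ) : R := algebraMap ℂ R (s : ℂ)

/-- Its inverse. -/
def sgi (R : Type*) [CommRing R] [Algebra ℂ R] (s : ℝ) : R := algebraMap ℂ R (s : ℂ)⁻¹

lemma sg_mul {s : ℝ} (hs : s ≠ 0) : sg R s * sgi R s = 1 := by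
  rw [sg, sgi, ← map_mul, mul_inv_cancel₀ (by exact_mod_cast hs), map_one]

lemma sg_zero : sg R 0 = 0 := by simp [sg]

lemma sg_d (X : Der ℂ R) (s : ℝ) (j : Fin 3) : X.d j (sg R s) = 0 := X.d_alg _ _

lemma sgi_d (X : Der ℂ R) (s : ℝ) (j : Fin 3) : X.d j (sgi R s) = 0 := X.d_alg _ _

lemma sg_pow_d (X : Der ℂ R) (s : ℝ) (N : ℕ) (j : Fin 3) : X.d j (sg R s ^ N) = 0 := by
  rw [sg, ← map_pow]; exact X.d_alg _ _

lemma cts_sg (X : Der ℂ R) : Cts X (sg R) := Fam.alg (cts_sc Complex.continuous_ofReal)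

lemma cts_sg_pow (X : Der ℂ R) (N : ℕ) : Cts X fun s => sg R s ^ N := by
  simp only [sg, ← map_pow]; exact Fam.alg (cts_sc (by fun_prop))

lemma cst_inv (s : ℝ) (θ : Fin 3 → ℂ) :
    (cst ((s : ℂ)⁻¹ • θ) : Fin 3 → R) = fun j => sgi R s * cst θ j := by
  funext j; simp [cst, sgi]

lemma cst_neg_inv (s : ℝ) (θ : Fin 3 → ℂ) :
    (cst (-((s : ℂ)⁻¹ • θ)) : Fin 3 → R) = fun j => -sgi R s * cst θ j := by
  funext j; simp [cst, sgi]

lemma sg_smul (s : ℝ) (N : ℕ) (f : R) : (s : ℂ) ^ N • f = sg R s ^ N * f := by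
  rw [Algebra.smul_def, map_pow, sg]

lemma hier1_aux (X : Fr R) (L : Lame R) {θ : Fin 3 → ℂ} (u₀ : Fin 3 → R) (e₀ : R)
    (hs : ∀ (r : Fin 3 → R) (r' ε : R), ∑ i, cst θ i * r i = 2 * X.D (cst θ) ε + X.t L (cst θ) * ε →
      ∃ u e, ∑ i, cst θ i * u i = ε ∧ X.T1 L (cst θ) u e = r ∧ X.T2 L (cst θ) u e = r')
    (h0 : ∑ i, cst θ i * u₀ i = 0) (h1 : X.T1 L (cst θ) u₀ e₀ = 0)
    (h2 : X.T2 L (cst θ) u₀ e₀ = 0) (N : ℕ) :
    ∃ (u : Fin 3 → ℝ → R) (e : ℝ → R) (v : Fin 3 → R) (f : R), (∀ i, Cts X.toDer (u i)) ∧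
      Cts X.toDer e ∧ (∀ i, u i 0 = u₀ i) ∧ e 0 = e₀ ∧
      ∑ i, cst θ i * X.P1 L v f i =
        2 * X.D (cst θ) (X.div v - f) + X.t L (cst θ) * (X.div v - f) ∧
      ∀ s : ℝ, s ≠ 0 →
        (∀ i, X.P1 L (fun k => u k s) (e s) i + sgi R s * X.T1 L (cst θ) (fun k => u k s) (e s) i =
          sg R s ^ N * X.P1 L v f i) ∧
        X.P2 L (fun k => u k s) (e s) + sgi R s * X.T2 L (cst θ) (fun k => u k s) (e s) =
          sg R s ^ N * X.P2 L v f ∧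
        X.div (fun k => u k s) + sgi R s * ∑ i, cst θ i * u i s - e s =
          sg R s ^ N * (X.div v - f) := by
  have hz := cst_d X.toDer θ
  induction N with
  | zero =>
    refine ⟨fun i _ => u₀ i, fun _ => e₀, u₀, e₀, fun i => cts_const _ _, cts_const _ _,
      fun _ => rfl, rfl, ?_, fun s _ => ⟨fun i => ?_, ?_, ?_⟩⟩
    · have := X.I8b L hz u₀ e₀
      simpa [h0, h1, h2, Der.div, Der.lap, Der.D_zero] using this
    · simp [h1]
    · simp [h2]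
    · simp [h0]
  | succ N ih =>
    obtain ⟨u, e, v, f, cu, ce, u0, e0, hc, h⟩ := ih
    obtain ⟨v', f', a0, a1, a2⟩ := hs (fun i => - X.P1 L v f i) (- X.P2 L v f) (-(X.div v - f)) (by
      simp only [mul_neg, Finset.sum_neg_distrib, hc, X.D_neg]; ring)
    refine ⟨fun i s => u i s + sg R s ^ (N + 1) * v' i, fun s => e s + sg R s ^ (N + 1) * f', v', f',
      fun i => (cu i).add ((cts_sg_pow _ _).mul (cts_const _ _)),
      ce.add ((cts_sg_pow _ _).mul (cts_const _ _)), fun i => by simp [sg_zero, u0],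
      by simp [sg_zero, e0], ?_, fun s hs0 => ?_⟩
    · have b1 := X.I8b L hz v' f'
      have b2 := X.I2 L v f
      rw [a0, a1, a2] at b1
      simp only [Der.div, Der.lap, map_neg, X.D_neg, mul_neg, Finset.sum_neg_distrib] at b1 b2 ⊢
      linear_combination b1 + b2
    · obtain ⟨c1, c2, c3⟩ := h s hs0
      have hκ := sg_pow_d X.toDer s (N + 1)
      have m := sg_mul (R := R) hs0
      refine ⟨fun i => ?_, ?_, ?_⟩
      · rw [X.P1_lin L hκ, X.T1_lin L hκ, a1]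
        linear_combination c1 i - sg R s ^ N * X.P1 L v f i * m
      · rw [X.P2_lin L hκ, X.T2_lin L hκ, a2]
        linear_combination c2 - sg R s ^ N * X.P2 L v f * m
      · rw [X.div_lin hκ]
        simp only [Fin.sum_univ_three] at a0 c3 ⊢
        linear_combination c3 + sgi R s * sg R s ^ (N + 1) * a0 - sg R s ^ N * (X.div v - f) * m

theorem hier1 (X : Fr R) (L : Lame R) {θ : Fin 3 → ℂ} (hθ : Null θ) (u₀ : Fin 3 → R) (e₀ : R)
    (N : ℕ)
    (hs : ∀ (r : Fin 3 → R) (r' ε : R), ∑ i, cst θ i * r i = 2 * X.D (cst θ) ε + X.t L (cst θ) * ε →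
      ∃ u e, ∑ i, cst θ i * u i = ε ∧ X.T1 L (cst θ) u e = r ∧ X.T2 L (cst θ) u e = r')
    (h0 : ∑ i, cst θ i * u₀ i = 0) (h1 : X.T1 L (cst θ) u₀ e₀ = 0)
    (h2 : X.T2 L (cst θ) u₀ e₀ = 0) :
    ∃ (u : Fin 3 → ℝ → R) (e : ℝ → R) (G : Fin 3 → ℝ → R), (∀ i, Cts X.toDer (u i)) ∧
      Cts X.toDer e ∧ (∀ i, Cts X.toDer (G i)) ∧ (∀ i, u i 0 = u₀ i) ∧ e 0 = e₀ ∧
      ∀ s : ℝ, s ≠ 0 →
        X.div (fun i => X.ex ((s : ℂ)⁻¹ • θ) * u i s) = X.ex ((s : ℂ)⁻¹ • θ) * e s ∧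
        ∀ i, X.Lop L (fun i => X.ex ((s : ℂ)⁻¹ • θ) * u i s) i =
          sg R s ^ N * (X.ex ((s : ℂ)⁻¹ • θ) * G i s) := by
  obtain ⟨u, e, v, f, cu, ce, u0, e0, -, h⟩ := hier1_aux X L u₀ e₀ hs h0 h1 h2 (N + 1)
  refine ⟨u, fun s => e s + sg R s ^ (N + 1) * (X.div v - f),
    fun i s => L.mu * (sg R s * (X.P1 L v f i + X.P1 L 0 (X.div v - f) i) +
      X.T1 L (cst θ) 0 (X.div v - f) i), cu, ce.add ((cts_sg_pow _ _).mul (cts_const _ _)),
    fun i => (cts_const _ _).mul (((cts_sg _).mul (cts_const _ _)).add (cts_const _ _)), u0,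
    by simp [sg_zero, e0], fun s hs0 => ?_⟩
  obtain ⟨c1, -, c3⟩ := h s hs0
  have hE : ∀ j, X.d j (X.ex ((s : ℂ)⁻¹ • θ)) = cst ((s : ℂ)⁻¹ • θ) j * X.ex ((s : ℂ)⁻¹ • θ) :=
    X.ex_d _
  have hd : X.div (fun i => X.ex ((s : ℂ)⁻¹ • θ) * u i s) =
      X.ex ((s : ℂ)⁻¹ • θ) * (e s + sg R s ^ (N + 1) * (X.div v - f)) := by
    rw [← c3]
    simp only [Der.div, X.d_mul, hE, cst_inv, Fin.sum_univ_three]; ring
  refine ⟨hd, fun i => ?_⟩
  have hκ := sg_pow_d X.toDer s (N + 1)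
  have m := sg_mul (R := R) hs0
  have p1 := X.P1_lin L hκ (fun k => u k s) 0 (e s) (X.div v - f) i
  have t1 := X.T1_lin L hκ (cst θ) (fun k => u k s) 0 (e s) (X.div v - f) i
  simp only [Pi.zero_apply, mul_zero, add_zero] at p1 t1
  rw [X.I1, hd, X.I5 L hE (cst_d _ _) (hθ.smul _).cst, cst_inv, X.T1_sc, p1, t1]
  linear_combination L.mu * X.ex ((s : ℂ)⁻¹ • θ) * c1 i +
    L.mu * X.ex ((s : ℂ)⁻¹ • θ) * sg R s ^ N * X.T1 L (cst θ) 0 (X.div v - f) i * m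

/-- One half. -/
def hf (R : Type*) [CommRing R] [Algebra ℂ R] : R := algebraMap ℂ R (1 / 2)

lemma two_hf : 2 * hf R = 1 := by
  rw [hf, ← map_ofNat (algebraMap ℂ R) 2, ← map_mul]; simp

lemma solveR (X : Fr R) (L : Lame R) {θ : Fin 3 → ℂ} (hθ : Null θ) (hθ0 : θ ≠ 0)
    (r : Fin 3 → R) (r' : R) :
    ∃ w F, (∀ i, X.Ru L (cst θ) w F i = r i) ∧ X.Rd L (cst θ) w F = r' := by
  obtain ⟨ψ, h⟩ := X.solv0 hθ hθ0 (ι := Option (Fin 3))
    (fun a b => match a, b with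
      | some i, some j => hf R * ((if j = i then X.t L (cst θ) else 0) + X.g L i * cst θ j)
      | some i, none => ∑ j, X.gam L i j * cst θ j
      | none, some j => hf R * L.ki * L.c * cst θ j
      | none, none => 0)
    (fun a => match a with
      | some i => hf R * r i
      | none => hf R * L.ki * r')
  have m := two_hf (R := R)
  refine ⟨fun i => ψ (some i), ψ none, fun i => ?_, ?_⟩
  · have := h (some i)
    simp only [Fintype.sum_option, mul_add, add_mul, Finset.sum_add_distrib, mul_ite, ite_mul,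
      mul_zero, zero_mul, Finset.sum_ite_eq', Finset.mem_univ, if_true] at this
    simp only [Der.Ru, this, Fin.sum_univ_three]
    linear_combination (X.t L (cst θ) * ψ (some i) + X.g L i * (cst θ 0 * ψ (some 0) +
      cst θ 1 * ψ (some 1) + cst θ 2 * ψ (some 2)) + r i) * m
  · have := h none
    simp only [Fintype.sum_option] at this
    simp only [Der.Rd, this, Fin.sum_univ_three]
    linear_combination (L.c * (cst θ 0 * ψ (some 0) + cst θ 1 * ψ (some 1) +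
      cst θ 2 * ψ (some 2)) + r') * (((L.c + 1) * L.ki) * m + L.k_ki)

lemma hier2_aux (X : Fr R) (L : Lame R) {θ : Fin 3 → ℂ} (hθ : Null θ) (hθ0 : θ ≠ 0)
    (w₀ : Fin 3 → R) (F₀ : R) (h1 : X.Ru L (cst θ) w₀ F₀ = 0)
    (h2 : X.Rd L (cst θ) w₀ F₀ = 0) (N : ℕ) :
    ∃ (w : Fin 3 → ℝ → R) (F : ℝ → R) (v : Fin 3 → R) (f : R), (∀ i, Cts X.toDer (w i)) ∧
      Cts X.toDer F ∧ (∀ i, w i 0 = w₀ i) ∧ F 0 = F₀ ∧ ∀ s : ℝ, s ≠ 0 →
        (∀ i, X.Qu L (fun k => w k s) (F s) i - sgi R s * X.Ru L (cst θ) (fun k => w k s) (F s) i =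
          sg R s ^ N * X.Qu L v f i) ∧
        X.Qd L (fun k => w k s) (F s) - sgi R s * X.Rd L (cst θ) (fun k => w k s) (F s) =
          sg R s ^ N * X.Qd L v f := by
  induction N with
  | zero =>
    refine ⟨fun i _ => w₀ i, fun _ => F₀, w₀, F₀, fun i => cts_const _ _, cts_const _ _,
      fun _ => rfl, rfl, fun s _ => ⟨fun i => ?_, ?_⟩⟩
    · simp [h1]
    · simp [h2]
  | succ N ih =>
    obtain ⟨w, F, v, f, cw, cF, w0, F0, h⟩ := ih
    obtain ⟨v', f', a1, a2⟩ := solveR X L hθ hθ0 (X.Qu L v f) (X.Qd L v f)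
    refine ⟨fun i s => w i s + sg R s ^ (N + 1) * v' i, fun s => F s + sg R s ^ (N + 1) * f', v', f',
      fun i => (cw i).add ((cts_sg_pow _ _).mul (cts_const _ _)),
      cF.add ((cts_sg_pow _ _).mul (cts_const _ _)), fun i => by simp [sg_zero, w0],
      by simp [sg_zero, F0], fun s hs0 => ?_⟩
    obtain ⟨c1, c2⟩ := h s hs0
    have hκ := sg_pow_d X.toDer s (N + 1)
    have m := sg_mul (R := R) hs0
    refine ⟨fun i => ?_, ?_⟩
    · rw [X.Qu_lin L hκ, X.Ru_lin L hκ, a1]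
      linear_combination c1 i - sg R s ^ N * X.Qu L v f i * m
    · rw [X.Qd_lin L hκ, X.Rd_lin L hκ, a2]
      linear_combination c2 - sg R s ^ N * X.Qd L v f * m

theorem hier2 (X : Fr R) (L : Lame R) {θ : Fin 3 → ℂ} (hθ : Null θ) (hθ0 : θ ≠ 0)
    (w₀ : Fin 3 → R) (F₀ : R) (N : ℕ) (h1 : X.Ru L (cst θ) w₀ F₀ = 0)
    (h2 : X.Rd L (cst θ) w₀ F₀ = 0) :
    ∃ (w : Fin 3 → ℝ → R) (F : ℝ → R) (G : Fin 3 → ℝ → R), (∀ i, Cts X.toDer (w i)) ∧
      Cts X.toDer F ∧ (∀ i, Cts X.toDer (G i)) ∧ (∀ i, w i 0 = w₀ i) ∧ F 0 = F₀ ∧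
      ∀ s : ℝ, s ≠ 0 → ∀ i,
        X.Lop L (X.T L (fun i => X.ex (-((s : ℂ)⁻¹ • θ)) * w i s)
          (X.ex (-((s : ℂ)⁻¹ • θ)) * F s)) i =
            sg R s ^ N * (X.ex (-((s : ℂ)⁻¹ • θ)) * G i s) := by
  obtain ⟨w, F, v, f, cw, cF, w0, F0, h⟩ := hier2_aux X L hθ hθ0 w₀ F₀ h1 h2 (N + 1)
  refine ⟨w, F, fun i s => sg R s * (X.Qu L v f i - X.d i (X.Qd L v f)) + cst θ i * X.Qd L v f,
    cw, cF, fun i => ((cts_sg _).mul (cts_const _ _)).add (cts_const _ _), w0, F0,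
    fun s hs0 i => ?_⟩
  obtain ⟨c1, c2⟩ := h s hs0
  have hE : ∀ j, X.d j (X.ex (-((s : ℂ)⁻¹ • θ))) =
      cst (-((s : ℂ)⁻¹ • θ)) j * X.ex (-((s : ℂ)⁻¹ • θ)) := X.ex_d _
  have m := sg_mul (R := R) hs0
  have hn := (hθ.smul (s : ℂ)⁻¹).neg.cst (R := R)
  rw [X.I3, X.I7u L hE (cst_d _ _) hn, X.I7d L hE (cst_d _ _) hn, cst_neg_inv, X.Ru_sc, X.Rd_sc,
    neg_mul, neg_mul, ← sub_eq_add_neg, ← sub_eq_add_neg, c1, c2, X.d_mul, X.d_mul, sg_pow_d, hE,
    cst_neg_inv]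
  linear_combination X.ex (-((s : ℂ)⁻¹ • θ)) * sg R s ^ N * cst θ i * X.Qd L v f * m

end Vale.Agent.P136
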