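import Vale.Agent.P136.Treves

/-!
# Riesz representation and square integrable solutions
-/

open MeasureTheory Set Metric
open scoped ContDiff RealInnerProductSpace

noncomputable section

namespace Vale.Agent.P136

/-- Hahn-Banach and Riesz: the functional factors through the range of `T`. -/
lemma riesz_abs {H X : Type*} [NormedAddCommGroup H] [InnerProductSpace ℝ H] [CompleteSpace H]
    [AddCommGroup X] [Module ℝ X] (T : X →ₗ[ℝ] H) (l : X →ₗ[ℝ] ℝ) {C : ℝ} (hC : 0 ≤ C)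
    (h : ∀ v, |l v| ≤ C * ‖T v‖) : ∃ y : H, ‖y‖ ≤ C ∧ ∀ v, ⟪y, T v⟫ = l v := by
  have hk : LinearMap.ker T ≤ LinearMap.ker l := fun v hv => by
    have h1 := h v
    rw [LinearMap.mem_ker] at hv ⊢
    rw [hv, norm_zero, mul_zero] at h1
    exact abs_nonpos_iff.1 h1
  let l0 : LinearMap.range T →ₗ[ℝ] ℝ :=
    ((LinearMap.ker T).liftQ l hk).comp T.quotKerEquivRange.symm.toLinearMap
  have hl0 : ∀ v (hv : T v ∈ LinearMap.range T), l0 ⟨T v, hv⟩ = l v := fun v hv => by
    simp only [l0, LinearMap.comp_apply, LinearEquiv.coe_coe]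
    rw [LinearMap.quotKerEquivRange_symm_apply_image]
    simp
  have hb : ∀ w : LinearMap.range T, ‖l0 w‖ ≤ C * ‖w‖ := by
    rintro ⟨_, v, rfl⟩
    exact (congrArg norm (hl0 v _)).trans_le (h v)
  obtain ⟨g, hg, hn⟩ := exists_extension_norm_eq (LinearMap.range T) (l0.mkContinuous C hb)
  refine ⟨(InnerProductSpace.toDual ℝ H).symm g, ?_, fun v => ?_⟩
  · rw [LinearIsometryEquiv.norm_map, hn]
    exact l0.mkContinuous_norm_le hC hb
  · rw [InnerProductSpace.toDual_symm_apply]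
    exact (hg ⟨T v, v, rfl⟩).trans (hl0 v _)

lemma l2s_inner (μ : Measure E3) (f g : Lp ℝ 2 μ) : ⟪f, g⟫ = ∫ x, f x * g x ∂μ := by
  rw [L2.inner_def]
  refine integral_congr_ae (Filter.Eventually.of_forall fun x => ?_)
  simp [mul_comm]

lemma l2s_norm (μ : Measure E3) (f : Lp ℝ 2 μ) : ‖f‖ ^ 2 = ∫ x, f x ^ 2 ∂μ := by
  rw [← real_inner_self_eq_norm_sq, l2s_inner]
  simp only [sq]

/-- Concrete form with finitely many square integrable components
(use `H = PiLp 2 fun _ : ι => Lp ℝ 2 μ`). -/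
lemma riesz_L2 {ι X : Type} [Fintype ι] [AddCommGroup X] [Module ℝ X] (μ : Measure E3)
    (T : X →ₗ[ℝ] (ι → E3 → ℝ)) (hT : ∀ v a, MemLp (T v a) 2 μ) (l : X →ₗ[ℝ] ℝ) {C : ℝ}
    (hC : 0 ≤ C) (h : ∀ v, |l v| ≤ C * √(∑ a, ∫ x, T v a x ^ 2 ∂μ)) :
    ∃ y : ι → E3 → ℝ, (∀ a, MemLp (y a) 2 μ) ∧ ∑ a, ∫ x, y a x ^ 2 ∂μ ≤ C ^ 2 ∧
      ∀ v, ∑ a, ∫ x, y a x * T v a x ∂μ = l v := by
  let T' : X →ₗ[ℝ] PiLp 2 (fun _ : ι => Lp ℝ 2 μ) :=
    { toFun := fun v => WithLp.toLp 2 fun a => (hT v a).toLp (T v a)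
      map_add' := fun v w => by
        ext1 a
        simp only [map_add, PiLp.add_apply]
        exact MemLp.toLp_add (hT v a) (hT w a)
      map_smul' := fun c v => by
        ext1 a
        simp only [map_smul, PiLp.smul_apply, RingHom.id_apply]
        exact MemLp.toLp_const_smul c (hT v a) }
  have e : ∀ v a, T' v a =ᵐ[μ] T v a := fun v a => (hT v a).coeFn_toLp
  have hn : ∀ y : PiLp 2 (fun _ : ι => Lp ℝ 2 μ), ‖y‖ ^ 2 = ∑ a, ∫ x, y a x ^ 2 ∂μ := fun y => by
    rw [PiLp.norm_sq_eq_of_L2]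
    exact Finset.sum_congr rfl fun a _ => l2s_norm μ _
  obtain ⟨y, hy, hy'⟩ := riesz_abs T' l hC fun v => by
    have : ‖T' v‖ = √(∑ a, ∫ x, T v a x ^ 2 ∂μ) := by
      rw [← Real.sqrt_sq (norm_nonneg (T' v)), hn]
      congr 1
      refine Finset.sum_congr rfl fun a _ => integral_congr_ae ?_
      filter_upwards [e v a] with x hx
      rw [hx]
    rw [this]; exact h v
  refine ⟨fun a => y a, fun a => Lp.memLp _, ?_, fun v => ?_⟩
  · rw [← hn]
    exact pow_le_pow_left₀ (norm_nonneg _) hy 2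
  · rw [← hy' v, PiLp.inner_apply]
    refine Finset.sum_congr rfl fun a _ => ?_
    rw [l2s_inner]
    refine integral_congr_ae ?_
    filter_upwards [e v a] with x hx
    rw [hx]

/-- The space of test functions on `Ω`. -/
def TestSp (Ω : Set E3) : Submodule ℝ (E3 → ℝ) where
  carrier := {φ | IsTest Ω φ}
  add_mem' := fun {_ _} h h' => IsTest.add h h'
  zero_mem' := IsTest.zero
  smul_mem' := fun c _ h => IsTest.mul_left (a := fun _ => c) h contDiff_const

/-- A function whose pairing with the derivatives of test functions is bounded has a weak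
derivative. -/
lemma exists_wd {Ω : Set E3} {f : E3 → ℝ} (hf : MemLp f 2 (volume.restrict Ω)) (j : Fin 3)
    {C : ℝ} (hC : 0 ≤ C)
    (h : ∀ φ, IsTest Ω φ → |∫ x in Ω, f x * pd j φ x| ≤ C * √(∫ x in Ω, φ x ^ 2)) :
    ∃ g, WB Ω 0 g C ∧ IsWD Ω j f g := by
  let T : TestSp Ω →ₗ[ℝ] (Unit → E3 → ℝ) := LinearMap.pi fun _ => (TestSp Ω).subtype
  have hi : ∀ φ : TestSp Ω, Integrable (fun x => f x * pd j φ x) (volume.restrict Ω) :=
    fun φ => hf.integrable_mul ((IsTest.pd φ.2 j).memLp _)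
  let l : TestSp Ω →ₗ[ℝ] ℝ :=
    { toFun := fun φ => ∫ x in Ω, f x * pd j φ x
      map_add' := fun φ ψ => by
        rw [← integral_add (hi φ) (hi ψ)]
        refine integral_congr_ae (Filter.Eventually.of_forall fun x => ?_)
        have := pd_add (IsTest.mono φ.2 subset_rfl).1 (IsTest.mono ψ.2 subset_rfl).1 j x
        change f x * pd j (fun y => φ.1 y + ψ.1 y) x = _
        rw [this, mul_add]
      map_smul' := fun c φ => by
        rw [RingHom.id_apply, smul_eq_mul, ← integral_const_mul]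
        refine integral_congr_ae (Filter.Eventually.of_forall fun x => ?_)
        have := pd_mul (contDiff_const (c := c)) (IsTest.mono φ.2 subset_rfl).1 j x
        change f x * pd j (fun y => c * φ.1 y) x = _
        rw [this, pd_const]; ring }
  obtain ⟨y, h1, h2, h3⟩ := riesz_L2 (volume.restrict Ω) T
    (fun v _ => IsTest.memLp v.2 _) l hC fun v => by
      rw [Fintype.sum_unique]; exact h v v.2
  rw [Fintype.sum_unique] at h2
  refine ⟨fun x => - y () x, ⟨hC, (h1 ()).neg, by simpa using h2⟩, fun φ hφ => ?_⟩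
  have := h3 ⟨φ, hφ⟩
  rw [Fintype.sum_unique] at this
  simp only [neg_mul, integral_neg, neg_neg]
  exact this.symm

lemma sysOp_add {ι : Type} [Fintype ι] (A : Fin 3 → ι → ι → E3 → ℝ) (A0 : ι → ι → E3 → ℝ)
    {v w : ι → E3 → ℝ} (hv : ∀ a, ContDiff ℝ ∞ (v a)) (hw : ∀ a, ContDiff ℝ ∞ (w a)) (a : ι)
    (x : E3) : sysOp A A0 (fun b y => v b y + w b y) a x = sysOp A A0 v a x + sysOp A A0 w a x := by
  have e : ∀ j b, pd j (fun y => v b y + w b y) = fun y => pd j (v b) y + pd j (w b) y :=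
    fun j b => funext fun y => pd_add (hv b) (hw b) j y
  simp only [sysOp, e, pd_add (contDiff_pd (hv a) _) (contDiff_pd (hw a) _), mul_add,
    Finset.sum_add_distrib]
  ring

lemma sysOp_smul {ι : Type} [Fintype ι] (A : Fin 3 → ι → ι → E3 → ℝ) (A0 : ι → ι → E3 → ℝ)
    {v : ι → E3 → ℝ} (hv : ∀ a, ContDiff ℝ ∞ (v a)) (c : ℝ) (a : ι)
    (x : E3) : sysOp A A0 (fun b y => c * v b y) a x = c * sysOp A A0 v a x := by
  have e0 : ∀ j (f : E3 → ℝ), ContDiff ℝ ∞ f → pd j (fun y => c * f y) = fun y => c * pd j f y :=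
    fun j f hf => funext fun y => by
      rw [pd_mul (contDiff_const (c := c)) hf, pd_const, zero_mul, zero_add]
  simp only [sysOp, e0 _ _ (hv _), e0 _ _ (contDiff_pd (hv a) _), mul_add, Finset.mul_sum,
    mul_left_comm c]

/-- `riesz_L2` with `T v = exp ⟪ξ, x⟫ * sysOp v`, `l v = ∫ G . v` and `carleman`;
`Φ = exp ⟪ξ, x⟫ * y`. -/
theorem l2solve {ι : Type} [Fintype ι] {A : Fin 3 → ι → ι → E3 → ℝ} {A0 : ι → ι → E3 → ℝ}
    (hA : ∀ j a b, ContDiff ℝ ∞ (A j a b)) (hA0 : ∀ a b, ContDiff ℝ ∞ (A0 a b)) (R : ℝ) :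
    ∃ C, 0 ≤ C ∧ ∀ (ξ : E3) (G : ι → E3 → ℝ) (b : ℝ), (∀ a, WB (ball 0 R) ξ (G a) b) →
      ∃ Φ : ι → E3 → ℝ, (∀ a, WB (ball 0 R) ξ (Φ a) (C * b)) ∧
        ∀ v : ι → E3 → ℝ, (∀ a, IsTest (ball 0 R) (v a)) →
          ∑ a, ∫ x in ball 0 R, Φ a x * sysOp A A0 v a x =
            ∑ a, ∫ x in ball 0 R, G a x * v a x := by
  obtain ⟨C, hC, hcar⟩ := carleman hA hA0 R
  have hb : Bornology.IsBounded (ball (0 : E3) R) := isBounded_ball
  have hm : MeasurableSet (ball (0 : E3) R) := measurableSet_ball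
  set N : ℝ := (Fintype.card ι : ℝ) with hN
  have hN0 : 0 ≤ N := Nat.cast_nonneg _
  refine ⟨N * C, by positivity, fun ξ G b hG => ?_⟩
  rcases isEmpty_or_nonempty ι with hι | ⟨⟨a0⟩⟩
  · exact ⟨fun _ _ => 0, fun a => isEmptyElim a, fun v _ => by simp⟩
  have hb0 : 0 ≤ b := (hG a0).1
  have sm : ∀ (v : ι → TestSp (ball 0 R)) a, IsTest (ball 0 R) (v a).1 := fun v a => (v a).2
  let T : (ι → TestSp (ball 0 R)) →ₗ[ℝ] (ι → E3 → ℝ) :=
    { toFun := fun v a x => Real.exp ⟪ξ, x⟫ * sysOp A A0 (fun b => (v b).1) a x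
      map_add' := fun v w => by
        funext a x
        have := sysOp_add A A0 (fun b => (sm v b).1) (fun b => (sm w b).1) a x
        change _ * sysOp A A0 (fun b y => (v b).1 y + (w b).1 y) a x = _
        rw [this, mul_add]; rfl
      map_smul' := fun c v => by
        funext a x
        have := sysOp_smul A A0 (fun b => (sm v b).1) c a x
        change _ * sysOp A A0 (fun b y => c * (v b).1 y) a x = _
        rw [this, mul_left_comm]; rfl }
  have hTt : ∀ v a, IsTest (ball 0 R) (T v a) := fun v a =>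
    (sysOp_test hA hA0 (sm v) a).mul_left (contDiff_expw ξ)
  have hi : ∀ (v : ι → TestSp (ball 0 R)) a,
      Integrable (fun x => G a x * (v a).1 x) (volume.restrict (ball 0 R)) :=
    fun v a => (hG a).2.1.integrable_mul ((sm v a).memLp _)
  let l : (ι → TestSp (ball 0 R)) →ₗ[ℝ] ℝ :=
    { toFun := fun v => ∑ a, ∫ x in ball 0 R, G a x * (v a).1 x
      map_add' := fun v w => by
        rw [← Finset.sum_add_distrib]
        refine Finset.sum_congr rfl fun a _ => ?_
        rw [← integral_add (hi v a) (hi w a)]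
        exact integral_congr_ae (Filter.Eventually.of_forall fun x => mul_add _ _ _)
      map_smul' := fun c v => by
        rw [RingHom.id_apply, smul_eq_mul, Finset.mul_sum]
        refine Finset.sum_congr rfl fun a _ => ?_
        rw [← integral_const_mul]
        exact integral_congr_ae (Filter.Eventually.of_forall fun x => mul_left_comm _ _ _) }
  have sq : ∀ {φ : E3 → ℝ}, IsTest (ball 0 R) φ → ∫ x in ball 0 R, φ x ^ 2 = ∫ x, φ x ^ 2 :=
    fun {φ} hφ => by simpa only [pow_two] using hφ.setIntegral_mul φ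
  obtain ⟨y, h1, h2, h3⟩ := riesz_L2 (volume.restrict (ball 0 R)) T
    (fun v a => (hTt v a).memLp _) l (C := N * C * b) (by positivity) fun v => by
      set S := √(∑ a, ∫ x in ball 0 R, T v a x ^ 2) with hS
      have hS0 : 0 ≤ S := Real.sqrt_nonneg _
      have hS2 : ∑ a, ∫ x, T v a x ^ 2 = S ^ 2 := by
        rw [hS, Real.sq_sqrt (Finset.sum_nonneg fun a _ => integral_nonneg fun x => sq_nonneg _)]
        exact Finset.sum_congr rfl fun a _ => (sq (hTt v a)).symm
      have hw : ∀ a, WB (ball 0 R) (-ξ) (v a).1 (C * S) := fun a => by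
        refine ⟨by positivity, (sm v a).memLp _, ?_⟩
        simp only [inner_neg_left, neg_neg]
        rw [sq ((sm v a).mul_left (contDiff_expw ξ)), mul_pow, ← hS2]
        refine le_trans ?_ (hcar ξ _ (sm v))
        exact Finset.single_le_sum (f := fun a => ∫ x, (Real.exp ⟪ξ, x⟫ * (v a).1 x) ^ 2)
          (fun a _ => integral_nonneg fun x => sq_nonneg _) (Finset.mem_univ a)
      calc |l v| ≤ ∑ a, |∫ x in ball 0 R, G a x * (v a).1 x| := Finset.abs_sum_le_sum_abs _ _
        _ ≤ ∑ _a : ι, b * (C * S) := Finset.sum_le_sum fun a _ =>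
            abs_integral_le_integral_abs.trans (WB.pair hb hm (hG a) (hw a))
        _ = N * C * b * S := by
            rw [Finset.sum_const, Finset.card_univ, nsmul_eq_mul, ← hN]; ring
  refine ⟨fun a x => Real.exp ⟪ξ, x⟫ * y a x, fun a => ⟨by positivity,
    memLp_cont_mul hb hm (contDiff_expw ξ).continuous (h1 a), ?_⟩, fun v hv => ?_⟩
  · have e : ∀ x, Real.exp (-⟪ξ, x⟫) * (Real.exp ⟪ξ, x⟫ * y a x) = y a x := fun x => by
      rw [← mul_assoc, ← Real.exp_add, neg_add_cancel, Real.exp_zero, one_mul]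
    simp only [e]
    exact le_trans (Finset.single_le_sum (f := fun a => ∫ x in ball 0 R, y a x ^ 2)
      (fun a _ => integral_nonneg fun x => sq_nonneg _) (Finset.mem_univ a)) h2
  · refine Eq.trans ?_ (h3 fun a => ⟨v a, hv a⟩)
    refine Finset.sum_congr rfl fun a _ => ?_
    refine integral_congr_ae (Filter.Eventually.of_forall fun x => ?_)
    change Real.exp ⟪ξ, x⟫ * y a x * sysOp A A0 v a x
      = y a x * (Real.exp ⟪ξ, x⟫ * sysOp A A0 v a x)
    ring

end Vale.Agent.P136
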