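import Vale.Agent.P136.Conc
import Vale.Agent.P136.BdC
import Vale.Agent.P136.Final

/-!
# Global uniqueness
-/

open MeasureTheory Set Metric
open scoped ContDiff

noncomputable section

namespace Vale.Agent.P136

theorem main {Ω : Set E3} {lam₁ mu₁ lam₂ mu₂ : E3 → ℝ} (hΩ : SmoothDomain Ω)
    (h₁ : Admissible Ω lam₁ mu₁) (h₂ : Admissible Ω lam₂ mu₂) (h : SameDN Ω lam₁ mu₁ lam₂ mu₂) :
    ∀ x ∈ Ω, lam₁ x = lam₂ x ∧ mu₁ x = mu₂ x := by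
  have ho := hΩ.1
  have hb := hΩ.2.1
  obtain ⟨L₁, e₁, p₁⟩ := exists_lame hb h₁
  obtain ⟨L₂, e₂, p₂⟩ := exists_lame hb h₂
  have a₁ : Admissible Ω (L₁.lam : Sm ℝ) (L₁.mu : Sm ℝ) :=
    ⟨smo _, smo _, fun x hx => by rw [(e₁ x hx).1, (e₁ x hx).2]; exact h₁.2.2 x hx⟩
  have a₂ : Admissible Ω (L₂.lam : Sm ℝ) (L₂.mu : Sm ℝ) :=
    ⟨smo _, smo _, fun x hx => by rw [(e₂ x hx).1, (e₂ x hx).2]; exact h₂.2.2 x hx⟩
  have f₁ : ∀ A B, form Ω (L₁.lam : Sm ℝ) (L₁.mu : Sm ℝ) A B = form Ω lam₁ mu₁ A B := fun A B =>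
    form_congr ho.measurableSet (fun x hx => (e₁ x (subset_closure hx)).1)
      (fun x hx => (e₁ x (subset_closure hx)).2)
  have f₂ : ∀ A B, form Ω (L₂.lam : Sm ℝ) (L₂.mu : Sm ℝ) A B = form Ω lam₂ mu₂ A B := fun A B =>
    form_congr ho.measurableSet (fun x hx => (e₂ x (subset_closure hx)).1)
      (fun x hx => (e₂ x (subset_closure hx)).2)
  have hA : Aless0 Ω (L₁.lam : Sm ℝ) (L₁.mu : Sm ℝ) (L₂.lam : Sm ℝ) (L₂.mu : Sm ℝ) := by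
    intro u₁ u₂ s₁ s₂
    rw [f₁, f₂]
    exact alessandrini ho hb h₂ h u₁ u₂ (fun φ hφ => (f₁ _ _).symm.trans (s₁ φ hφ))
      (fun φ hφ => (f₂ _ _).symm.trans (s₂ φ hφ))
  obtain ⟨R, hR, hΩR⟩ := hb.subset_ball_lt 0 (0 : E3)
  have hρ : 0 < R + 2 := by linarith
  have hΩ2 : Ω ⊆ ball 0 (R + 2) := hΩR.trans (ball_subset_ball (by linarith))
  obtain ⟨X, hd, hI, hJ, he⟩ := exists_frame ho hρ hΩ2
  have hn : (L₁.map (emb (R + 2))).n - (L₂.map (emb (R + 2))).n ∈ X.J := by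
    have : (L₁.map (emb (R + 2))).n - (L₂.map (emb (R + 2))).n = rs (R + 2) (toC (L₁.n - L₂.n)) :=
      (map_sub (emb (R + 2)) L₁.n L₂.n).symm
    rw [this]
    refine hJ _ fun x hx => ?_
    have e := bdry_eq hΩ L₁ L₂ a₁ a₂ hA hx
    have e' : (L₁.n : E3 → ℝ) x ^ 2 = (L₂.n : E3 → ℝ) x ^ 2 := e
    have e'' := (pow_left_inj₀ (p₁ x).le (p₂ x).le two_ne_zero).1 e'
    rw [toC_apply]
    have : ((L₁.n - L₂.n : Sm ℝ) : E3 → ℝ) x = (L₁.n : E3 → ℝ) x - (L₂.n : E3 → ℝ) x := rfl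
    rw [this, e'', sub_self, Complex.ofReal_zero]
  obtain ⟨n₁, n₂⟩ := abstract_main X _ _ (aless_frame ho hR hΩR L₁ L₂ hA hρ X hd hI he) hn
  rw [Lame.map_mu, Lame.map_mu, ← map_sub] at n₁
  have n₂' : X.Nul (emb (R + 2) (L₁.c - L₂.c)) := by rw [map_sub]; exact n₂
  intro x hx
  have z₁ : (L₁.mu : E3 → ℝ) x - (L₂.mu : E3 → ℝ) x = 0 := zero_of_nul ho hΩ2 X hI _ n₁ x hx
  have z₂ : (L₁.c : E3 → ℝ) x - (L₂.c : E3 → ℝ) x = 0 := zero_of_nul ho hΩ2 X hI _ n₂' x hx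
  have l₁ : (L₁.lam : E3 → ℝ) x = ((L₁.c : E3 → ℝ) x - 1) * (L₁.mu : E3 → ℝ) x := rfl
  have l₂ : (L₂.lam : E3 → ℝ) x = ((L₂.c : E3 → ℝ) x - 1) * (L₂.mu : E3 → ℝ) x := rfl
  have hx' := subset_closure hx
  refine ⟨?_, ?_⟩
  · rw [← (e₁ x hx').1, ← (e₂ x hx').1, l₁, l₂, sub_eq_zero.1 z₁, sub_eq_zero.1 z₂]
  · rw [← (e₁ x hx').2, ← (e₂ x hx').2, sub_eq_zero.1 z₁]

end Vale.Agent.P136
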