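import Vale.Agent.P136.Hier

/-!
# The leading order orthogonality relation
-/

open Filter Topology

set_option linter.unusedSimpArgs false

noncomputable section

namespace Vale.Agent.P136

variable {R : Type*} [NormedCommRing R] [NormedAlgebra ℂ R]

section C

variable {X : Der ℂ R} (L : Lame R) (z : Fin 3 → R) {u : Fin 3 → ℝ → R} {e : ℝ → R}
  (hu : ∀ i, Cts X (u i)) (he : Cts X e)

lemma cts_lap (he : Cts X e) : Cts X fun s => X.lap (e s) :=
  Fam.sum Finset.univ fun j => (he.d j).d j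

lemma cts_D (he : Cts X e) : Cts X fun s => X.D z (e s) :=
  Fam.sum Finset.univ fun j => (cts_const X (z j)).mul (he.d j)

include hu

lemma cts_div : Cts X fun s => X.div fun i => u i s := Fam.sum Finset.univ fun j => (hu j).d j

include he

lemma cts_P1 (i : Fin 3) : Cts X fun s => X.P1 L (fun k => u k s) (e s) i :=
  (((cts_lap (hu i)).add ((cts_const X _).mul (he.d i))).add (Fam.sum Finset.univ fun j =>
    (((hu i).d j).add ((hu j).d i)).mul (cts_const X (X.g L j)))).add (he.mul (cts_const X _))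

lemma cts_P2 : Cts X fun s => X.P2 L (fun k => u k s) (e s) :=
  ((((cts_const X _).mul (cts_lap he)).add ((cts_const X _).mul (Fam.sum Finset.univ fun j =>
    (cts_const X (X.d j L.c)).mul (he.d j)))).add (Fam.sum Finset.univ fun i =>
      Fam.sum Finset.univ fun j => (((hu i).d j).add ((hu j).d i)).mul
        (cts_const X (X.gam L i j)))).add ((cts_const X _).mul he)

lemma cts_T1 (i : Fin 3) : Cts X fun s => X.T1 L z (fun k => u k s) (e s) i :=
  ((((cts_const X _).mul (cts_D z (hu i))).add ((cts_const X _).mul he)).add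
    ((cts_const X _).mul (hu i))).add ((cts_const X _).mul (Fam.sum Finset.univ fun j =>
      (cts_const X (X.g L j)).mul (hu j)))

lemma cts_T2 : Cts X fun s => X.T2 L z (fun k => u k s) (e s) :=
  (((cts_const X _).mul (cts_D z he)).add ((cts_const X _).mul he)).add
    ((cts_const X _).mul (Fam.sum Finset.univ fun i => Fam.sum Finset.univ fun j =>
      ((cts_const X (z j)).mul (hu i)).mul (cts_const X (X.gam L i j))))

end C

lemma Der.curl (X : Der ℂ R) (p q : Fin 3 → R) (ψ : R) :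
    X.div (fun i => ∑ j, (p i * q j - p j * q i) * X.d j ψ) =
      X.div (fun j => ψ * ∑ i, X.d i (p i * q j - p j * q i)) := by
  simp only [Der.div, Fin.sum_univ_three, map_add, map_sub, X.d_mul, X.c10, X.c20, X.c21]
  ring

lemma norm_sg_pow {s : ℝ} (hs : 0 ≤ s) (N : ℕ) (f : R) : ‖sg R s ^ N * f‖ = s ^ N * ‖f‖ := by
  rw [← sg_smul, norm_smul, norm_pow, Complex.norm_real, Real.norm_of_nonneg hs]

lemma norm_le_div {s : ℝ} (hs : 0 < s) (N : ℕ) {f g : R} {c : ℝ} (h : sg R s ^ N * f = g)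
    (hg : ‖g‖ ≤ c) : ‖f‖ ≤ c / s ^ N := by
  rw [le_div_iff₀ (pow_pos hs N), mul_comm, ← norm_sg_pow hs.le, h]; exact hg

lemma lead (X : Fr R) (L₁ L₂ : Lame R) (hJ : L₁.n - L₂.n ∈ X.J) {θ : Fin 3 → ℂ}
    (u₀ w₀ : Fin 3 → R) (e₀ F₀ : R) (h1 : X.T1 L₁ (cst θ) u₀ e₀ = 0)
    (h3 : X.Ru L₂ (cst θ) w₀ F₀ = 0) (h4 : X.Rd L₂ (cst θ) w₀ F₀ = 0) :
    X.I (X.div (fun j => (L₁.lam - L₂.lam) * e₀ * (L₂.m * cst θ j * F₀)) +
      ∑ i, X.T1 L₂ (cst θ) u₀ e₀ i * w₀ i + F₀ * X.T2 L₂ (cst θ) u₀ e₀ -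
        X.div (fun i => F₀ * X.T1 L₂ (cst θ) u₀ e₀ i)) =
    2 * X.I (X.D (cst θ) (∑ i, u₀ i * w₀ i + (L₁.c + 1) * e₀ * F₀ +
      F₀ * ∑ i, (X.g L₁ i - X.g L₂ i) * u₀ i)) := by
  have hz := cst_d X.toDer θ
  have j1 := X.I_D θ (X.J.mul_mem_left ((L₁.c - 1) * e₀ * F₀) (rho_mem hJ))
  have j2 := X.I_div (Y := fun j => (L₁.mu * L₂.m - 1) * ∑ i, X.d i
    (L₂.mu * L₁.m * F₀ * u₀ i * cst θ j - L₂.mu * L₁.m * F₀ * u₀ j * cst θ i))
    fun j => X.J.mul_mem_right _ (rho_mem hJ)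
  rw [← X.curl (fun i => L₂.mu * L₁.m * F₀ * u₀ i) (cst θ)] at j2
  have a1 : (fun j => (L₁.lam - L₂.lam) * e₀ * (L₂.m * cst θ j * F₀)) = fun j => cst θ j *
      ((L₁.c - 1) * e₀ * F₀ * (L₁.mu * L₂.m - 1) + (L₁.c - L₂.c) * e₀ * F₀) := by
    funext j
    unfold Lame.lam
    linear_combination (-(L₂.c - 1) * e₀ * cst θ j * F₀) * L₂.mu_m
  have a2 : (fun i => F₀ * X.T1 L₂ (cst θ) u₀ e₀ i) = fun i => cst θ i *
      ((L₂.c - L₁.c) * e₀ * F₀ - 2 * (F₀ * ∑ i, (X.g L₁ i - X.g L₂ i) * u₀ i)) -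
      ∑ j, (L₂.mu * L₁.m * F₀ * u₀ i * cst θ j - L₂.mu * L₁.m * F₀ * u₀ j * cst θ i) *
        X.d j (L₁.mu * L₂.m - 1) := by
    funext i
    have b := congrFun h1 i
    have m : L₂.mu * L₁.m * (L₁.mu * L₂.m) = 1 := by
      linear_combination (L₂.mu * L₂.m) * L₁.mu_m + L₂.mu_m
    simp only [Der.T1, Der.t, X.d_rho, Fin.sum_univ_three, Pi.zero_apply] at b ⊢
    linear_combination F₀ * b + (F₀ * (u₀ i * (cst θ 0 * (X.g L₁ 0 - X.g L₂ 0) +
      cst θ 1 * (X.g L₁ 1 - X.g L₂ 1) + cst θ 2 * (X.g L₁ 2 - X.g L₂ 2)) -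
      cst θ i * (u₀ 0 * (X.g L₁ 0 - X.g L₂ 0) + u₀ 1 * (X.g L₁ 1 - X.g L₂ 1) +
        u₀ 2 * (X.g L₁ 2 - X.g L₂ 2)))) * m
  have a3 := X.I9 L₂ (z := cst θ) u₀ w₀ e₀ F₀
  simp only [h3, h4, Pi.zero_apply, mul_zero, Finset.sum_const_zero, add_zero, sub_zero] at a3
  have dsub : ∀ A B : Fin 3 → R, X.div (fun i => A i - B i) = X.div A - X.div B := fun A B => by
    simp only [Der.div, map_sub, Finset.sum_sub_distrib]
  have two : ∀ f, 2 * X.I f = X.I (2 * f) := fun f => by rw [two_mul, two_mul, map_add]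
  rw [a1, add_assoc, a3, a2, dsub, ← X.D_eq_div hz, ← X.D_eq_div hz, two, ← sub_eq_zero,
    ← map_sub, ← add_zero (0 : ℂ)]
  nth_rewrite 1 [← j1]
  rw [← j2, ← map_add]
  congr 1
  simp only [X.D_add, X.D_sub, X.D_mul, X.D_one, X.D_two]
  ring

theorem orth (X : Fr R) (L₁ L₂ : Lame R) (hA : X.Aless L₁ L₂) (hJ : L₁.n - L₂.n ∈ X.J)
    {θ : Fin 3 → ℂ} (hθ : Null θ) (hθ0 : θ ≠ 0) (u₀ w₀ : Fin 3 → R) (e₀ F₀ : R)
    (hs : ∀ (r : Fin 3 → R) (r' ε : R),
      ∑ i, cst θ i * r i = 2 * X.D (cst θ) ε + X.t L₁ (cst θ) * ε →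
      ∃ u e, ∑ i, cst θ i * u i = ε ∧ X.T1 L₁ (cst θ) u e = r ∧ X.T2 L₁ (cst θ) u e = r')
    (h0 : ∑ i, cst θ i * u₀ i = 0) (h1 : X.T1 L₁ (cst θ) u₀ e₀ = 0)
    (h2 : X.T2 L₁ (cst θ) u₀ e₀ = 0) (h3 : X.Ru L₂ (cst θ) w₀ F₀ = 0)
    (h4 : X.Rd L₂ (cst θ) w₀ F₀ = 0) :
    X.I (X.D (cst θ) (∑ i, u₀ i * w₀ i + (L₁.c + 1) * e₀ * F₀ +
      F₀ * ∑ i, (X.g L₁ i - X.g L₂ i) * u₀ i)) = 0 := by
  obtain ⟨C, k, hC, hA⟩ := hA
  obtain ⟨u, e, G₁, cu, ce, cG₁, u0, e0, hu⟩ := hier1 X L₁ hθ u₀ e₀ (k + 2) hs h0 h1 h2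
  obtain ⟨w, F, G₂, cw, cF, cG₂, w0, F0, hw⟩ := hier2 X L₂ hθ hθ0 w₀ F₀ (k + 2) h3 h4
  set V : Fin 3 → ℝ → R := fun i s =>
    sg R s * (L₂.m * (w i s - X.d i (F s) - X.g L₂ i * F s)) + L₂.m * cst θ i * F s with hV
  have cV : ∀ i, Cts X.toDer (V i) := fun i => ((cts_sg _).mul ((cts_const _ _).mul
    (((cw i).sub (cF.d i)).sub ((cts_const _ _).mul cF)))).add ((cts_const _ _).mul cF)
  set Y : Fin 3 → ℝ → R := fun i s => sg R s * X.P1 L₂ (fun k => u k s) (e s) i +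
    X.T1 L₂ (cst θ) (fun k => u k s) (e s) i with hY
  have cY : ∀ i, Cts X.toDer (Y i) := fun i =>
    ((cts_sg _).mul (cts_P1 L₂ cu ce i)).add (cts_T1 L₂ _ cu ce i)
  set H : ℝ → R := fun s => X.div (fun j => (L₁.lam - L₂.lam) * e s * V j s) +
    ∑ i, Y i s * w i s + F s * (sg R s * X.P2 L₂ (fun k => u k s) (e s) +
      X.T2 L₂ (cst θ) (fun k => u k s) (e s)) - X.div (fun i => F s * Y i s) -
        sg R s ^ (k + 2) * ∑ i, G₁ i s * V i s with hH
  have cH : Cts X.toDer H :=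
    ((((cts_div fun j => ((cts_const _ _).mul ce).mul (cV j)).add (Fam.sum Finset.univ fun i =>
      (cY i).mul (cw i))).add (cF.mul (((cts_sg _).mul (cts_P2 L₂ cu ce)).add
        (cts_T2 L₂ _ cu ce)))).sub (cts_div fun i => cF.mul (cY i))).sub
          ((cts_sg_pow _ _).mul (Fam.sum Finset.univ fun i => (cG₁ i).mul (cV i)))
  have H0 : X.I (H 0) = 2 * X.I (X.D (cst θ) (∑ i, u₀ i * w₀ i + (L₁.c + 1) * e₀ * F₀ +
      F₀ * ∑ i, (X.g L₁ i - X.g L₂ i) * u₀ i)) := by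
    rw [← lead X L₁ L₂ hJ u₀ w₀ e₀ F₀ h1 h3 h4]
    simp [hH, hV, hY, sg_zero, u0, e0, w0, F0]
  obtain ⟨c₁, p₁, b₁⟩ := Fam.bdd cG₁
  obtain ⟨c₂, p₂, b₂⟩ := Fam.bdd cG₂
  obtain ⟨c₃, p₃, b₃⟩ := Fam.bdd (ι := Fin 3 × Fin 3)
    (F := fun a s => sg R s * X.d a.2 (u a.1 s) + cst θ a.2 * u a.1 s)
    fun a => ((cts_sg _).mul ((cu a.1).d a.2)).add ((cts_const _ _).mul (cu a.1))
  obtain ⟨c₄, p₄, b₄⟩ := Fam.bdd (ι := Fin 3 × Fin 3)
    (F := fun a s => sg R s * X.d a.2 (V a.1 s) - cst θ a.2 * V a.1 s)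
    fun a => ((cts_sg _).mul ((cV a.1).d a.2)).sub ((cts_const _ _).mul (cV a.1))
  have main : ∀ s ∈ Set.Ioc (0 : ℝ) 1, ‖X.I (H s)‖ ≤
      s * (C * (1 + ‖θ‖) ^ k * (c₁ * c₄ + c₂ * c₃ + c₁ * c₂)) := by
    intro s ⟨hs0, hs1⟩
    have hsI : s ∈ Set.Icc (0 : ℝ) 1 := ⟨hs0.le, hs1⟩
    obtain ⟨d1, d2⟩ := hu s hs0.ne'
    have d3 := hw s hs0.ne'
    set E := X.ex ((s : ℂ)⁻¹ • θ) with hEd
    set E' := X.ex (-((s : ℂ)⁻¹ • θ)) with hEd'
    have EE : E * E' = 1 := X.ex_neg _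
    have hE₀ : ∀ j, X.d j E = cst ((s : ℂ)⁻¹ • θ) j * E := X.ex_d _
    have hE : ∀ j, X.d j E = sgi R s * cst θ j * E := fun j => by rw [hE₀, cst_inv]
    have hE' : ∀ j, X.d j E' = -sgi R s * cst θ j * E' := fun j => by
      rw [show X.d j E' = cst (-((s : ℂ)⁻¹ • θ)) j * E' from X.ex_d _ j, cst_neg_inv]
    have m := sg_mul (R := R) hs0.ne'
    set W := X.T L₂ (fun i => E' * w i s) (E' * F s) with hW
    have hWV : ∀ i, W i = sgi R s * (E' * V i s) := fun i => by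
      simp only [hW, hV, Der.T, X.d_mul, hE']
      linear_combination (-E' * (L₂.m * (w i s - X.d i (F s) - X.g L₂ i * F s))) * m
    have key := hA ((s : ℂ)⁻¹ • θ) (fun i => E * u i s) W (s ^ (k + 2) * c₁) (c₃ / s ^ 1)
      (s ^ (k + 2) * c₂) (c₄ / s ^ 2) (fun i => by
        rw [d2, show E' * (sg R s ^ (k + 2) * (E * G₁ i s)) = sg R s ^ (k + 2) * G₁ i s by
          linear_combination sg R s ^ (k + 2) * G₁ i s * EE, norm_sg_pow hs0.le]
        exact mul_le_mul_of_nonneg_left (b₁ i s hsI) (by positivity))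
      (fun i j => norm_le_div hs0 1 (by
        simp only [X.d_mul, hE]
        linear_combination (sg R s * X.d j (u i s) + sg R s * sgi R s * cst θ j * u i s) * EE +
          cst θ j * u i s * m) (b₃ (i, j) s hsI))
      (fun i => by
        rw [d3, show E * (sg R s ^ (k + 2) * (E' * G₂ i s)) = sg R s ^ (k + 2) * G₂ i s by
          linear_combination sg R s ^ (k + 2) * G₂ i s * EE, norm_sg_pow hs0.le]
        exact mul_le_mul_of_nonneg_left (b₂ i s hsI) (by positivity))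
      (fun i j => norm_le_div hs0 2 (by
        simp only [hWV, X.d_mul, hE', sgi_d]
        linear_combination (sg R s ^ 2 * sgi R s * X.d j (V i s) -
          (sg R s * sgi R s) ^ 2 * cst θ j * V i s) * EE + (sg R s * X.d j (V i s) -
            (sg R s * sgi R s + 1) * cst θ j * V i s) * m) (b₄ (i, j) s hsI))
    have hn := (hθ.smul (s : ℂ)⁻¹).cst (R := R)
    have y1 : ∀ i, X.P1 L₂ (fun i => E * u i s) (E * e s) i = sgi R s * (E * Y i s) := fun i => by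
      rw [X.I5 L₂ hE₀ (cst_d _ _) hn, cst_inv, X.T1_sc]
      simp only [hY]
      linear_combination (-E * X.P1 L₂ (fun k => u k s) (e s) i) * m
    have y2 := X.I2 L₂ (fun i => E * u i s) (E * e s)
    rw [d1, sub_self, X.D_zero, X.I6 L₂ hE₀ (cst_d _ _) hn, cst_inv, X.T2_sc] at y2
    have y3 := X.I4 L₂ (X.P1 L₂ (fun i => E * u i s) (E * e s)) (fun i => E' * w i s) (E' * F s)
    have y4 : ∀ i, X.Lop L₂ (fun i => E * u i s) i =
        L₂.mu * X.P1 L₂ (fun i => E * u i s) (E * e s) i := fun i => by rw [X.I1, d1]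
    have y5 : X.div (fun i => E' * F s * X.P1 L₂ (fun i => E * u i s) (E * e s) i) =
        sgi R s * X.div (fun i => F s * Y i s) := by
      have : (fun i => E' * F s * X.P1 L₂ (fun i => E * u i s) (E * e s) i) =
          fun i => 0 + sgi R s * (F s * Y i s) := by
        funext i; rw [y1]; linear_combination sgi R s * F s * Y i s * EE
      rw [this, X.div_lin (sgi_d _ s)]; simp [Der.div]
    have y6 : X.div (fun j => ∑ i, X.sig L₁ (fun i => E * u i s) i j * W i) -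
        X.div (fun j => ∑ i, X.sig L₂ (fun i => E * u i s) i j * W i) =
        X.div (fun j => (L₁.mu - L₂.mu) * ∑ i, (X.d j (E * u i s) + X.d i (E * u j s)) * W i) +
          sgi R s * X.div (fun j => (L₁.lam - L₂.lam) * e s * V j s) := by
      rw [← X.div_lin (sgi_d _ s)]
      simp only [Der.div, ← Finset.sum_sub_distrib, ← map_sub]
      refine Finset.sum_congr rfl fun j _ => ?_
      congr 1
      have d1' : ∑ i, X.d i (E * u i s) = E * e s := d1
      simp only [Der.sig, Der.div, d1', add_mul, Finset.sum_add_distrib, ite_mul, zero_mul,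
        Finset.sum_ite_eq', Finset.mem_univ, if_true, Finset.sum_sub_distrib, hWV j,
        Fin.sum_univ_three]
      linear_combination (L₁.lam - L₂.lam) * e s * sgi R s * V j s * EE
    have y7 : sg R s * (X.en L₁ (fun i => E * u i s) W - X.en L₂ (fun i => E * u i s) W) =
        sg R s * X.div (fun j => (L₁.mu - L₂.mu) *
          ∑ i, (X.d j (E * u i s) + X.d i (E * u j s)) * W i) + H s := by
      rw [X.green, X.green]
      simp only [d2, y4]
      rw [← hW, y5] at y3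
      have z1 : ∑ i, sg R s ^ (k + 2) * (E * G₁ i s) * W i =
          sgi R s * (sg R s ^ (k + 2) * ∑ i, G₁ i s * V i s) := by
        simp only [hWV, Fin.sum_univ_three]
        linear_combination (sgi R s * sg R s ^ (k + 2) *
          (G₁ 0 s * V 0 s + G₁ 1 s * V 1 s + G₁ 2 s * V 2 s)) * EE
      have z2 : ∑ i, X.P1 L₂ (fun i => E * u i s) (E * e s) i * (E' * w i s) =
          sgi R s * ∑ i, Y i s * w i s := by
        simp only [y1, Fin.sum_univ_three]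
        linear_combination (sgi R s * (Y 0 s * w 0 s + Y 1 s * w 1 s + Y 2 s * w 2 s)) * EE
      have z3 : X.lap 0 = 0 := by simp [Der.lap]
      rw [z3] at y2
      rw [z1, y3, z2]
      simp only [hH]
      linear_combination sg R s * y6 + sg R s * E' * F s * y2 +
        (sg R s * F s * (X.P2 L₂ (fun k => u k s) (e s) +
          sgi R s * X.T2 L₂ (cst θ) (fun k => u k s) (e s))) * EE +
        (X.div (fun j => (L₁.lam - L₂.lam) * e s * V j s) + ∑ i, Y i s * w i s +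
          F s * X.T2 L₂ (cst θ) (fun k => u k s) (e s) - X.div (fun i => F s * Y i s) -
            sg R s ^ (k + 2) * ∑ i, G₁ i s * V i s) * m
    have y8 : X.I (H s) = (s : ℂ) *
        X.I (X.en L₁ (fun i => E * u i s) W - X.en L₂ (fun i => E * u i s) W) := by
      have := congrArg X.I y7
      rw [map_add, ← pow_one (sg R s), ← sg_smul, ← sg_smul, map_smul, map_smul,
        X.I_div fun j => X.J.mul_mem_right _ (mu_mem hJ)] at this
      simpa using this.symm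
    rw [y8, norm_mul, Complex.norm_real, Real.norm_of_nonneg hs0.le]
    refine mul_le_mul_of_nonneg_left (key.trans ?_) hs0.le
    have n1 : 1 + ‖(s : ℂ)⁻¹ • θ‖ ≤ (1 + ‖θ‖) / s := by
      rw [norm_smul, norm_inv, Complex.norm_real, Real.norm_of_nonneg hs0.le, add_div,
        inv_mul_eq_div]
      exact add_le_add_left (by rw [le_div_iff₀ hs0]; linarith) _
    have n2 := pow_le_pow_left₀ (by positivity) n1 k
    have n3 : s ^ (k + 2) * c₁ * (c₄ / s ^ 2) + s ^ (k + 2) * c₂ * (c₃ / s ^ 1) +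
        s ^ (k + 2) * c₁ * (s ^ (k + 2) * c₂) ≤ s ^ k * (c₁ * c₄ + c₂ * c₃ + c₁ * c₂) := by
      have q1 : s ^ (k + 2) * c₁ * (c₄ / s ^ 2) = s ^ k * (c₁ * c₄) := by field_simp; ring
      have q2 : s ^ (k + 2) * c₂ * (c₃ / s ^ 1) = s ^ k * (c₂ * c₃) * s := by field_simp; ring
      have q3 : s ^ (k + 2) * c₁ * (s ^ (k + 2) * c₂) = s ^ k * (c₁ * c₂) * s ^ (k + 4) := by ring
      have q4 := mul_le_of_le_one_right (a := s ^ k * (c₂ * c₃)) (by positivity) hs1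
      have q5 := mul_le_of_le_one_right (a := s ^ k * (c₁ * c₂)) (by positivity)
        (pow_le_one₀ (n := k + 4) hs0.le hs1)
      rw [q1, q2, q3]; linarith
    calc _ ≤ C * ((1 + ‖θ‖) / s) ^ k * (s ^ k * (c₁ * c₄ + c₂ * c₃ + c₁ * c₂)) :=
          mul_le_mul (mul_le_mul_of_nonneg_left n2 hC) n3 (by positivity) (by positivity)
      _ = _ := by rw [div_pow]; field_simp
  have t1 : Tendsto (fun s => X.I (H s)) (𝓝[>] 0) (𝓝 (X.I (H 0))) :=
    ((X.I.continuous.comp cH.cont).tendsto 0).mono_left nhdsWithin_le_nhds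
  have t2 : Tendsto (fun s => X.I (H s)) (𝓝[>] 0) (𝓝 0) := by
    refine squeeze_zero_norm' (a := fun s =>
      s * (C * (1 + ‖θ‖) ^ k * (c₁ * c₄ + c₂ * c₃ + c₁ * c₂))) ?_ ?_
    · filter_upwards [Ioc_mem_nhdsGT one_pos] with s hs using main s hs
    · have : Tendsto (fun s : ℝ => s * (C * (1 + ‖θ‖) ^ k * (c₁ * c₄ + c₂ * c₃ + c₁ * c₂)))
          (𝓝 0) (𝓝 (0 * _)) := (continuous_id.mul continuous_const).tendsto 0
      rw [zero_mul] at this
      exact this.mono_left nhdsWithin_le_nhds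
  have := tendsto_nhds_unique t1 t2
  rw [H0] at this
  simpa using this

end Vale.Agent.P136
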