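import Vale.Agent.P136.L2S

/-!
# Regularity for the Laplacian on the whole space
-/

open MeasureTheory Set Metric
open scoped ContDiff RealInnerProductSpace

noncomputable section

namespace Vale.Agent.P136

open scoped Convolution Topology
open ContinuousLinearMap Filter

/-- Convolution of a square integrable function with a test function. -/
def regCv (f k : E3 → ℝ) : E3 → ℝ := f ⋆[mul ℝ ℝ, volume] k

section

variable {f g k φ : E3 → ℝ} {b : ℝ}

lemma regCv_apply (f k : E3 → ℝ) (x : E3) : regCv f k x = ∫ t, f t * k (x - t) := rfl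

lemma reg_lint (hf : MemLp f 2 volume) : LocallyIntegrable f volume :=
  hf.locallyIntegrable (by norm_num)

lemma regCv_smooth (hf : MemLp f 2 volume) (hk : IsTest univ k) : ContDiff ℝ ∞ (regCv f k) :=
  hk.2.1.contDiff_convolution_right _ (reg_lint hf) hk.1

lemma regCv_pd (hf : MemLp f 2 volume) (hk : IsTest univ k) (j : Fin 3) :
    pd j (regCv f k) = regCv f (pd j k) := by
  funext x
  have h1 : ContDiff ℝ 1 k := hk.1.of_le (by exact_mod_cast le_top)
  have := (hk.2.1.hasFDerivAt_convolution_right (mul ℝ ℝ) (reg_lint hf) h1 x).fderiv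
  rw [pd, regCv, this, convolution_precompR_apply (mul ℝ ℝ) (reg_lint hf) (hk.2.1.fderiv ℝ)
    (h1.continuous_fderiv one_ne_zero)]
  rfl

/-- The reflected and translated test function. -/
lemma reg_test (hk : IsTest univ k) (x : E3) : IsTest univ (fun t => k (x - t)) :=
  ⟨hk.1.comp (contDiff_const.sub contDiff_id), hk.2.1.comp_homeomorph (Homeomorph.subLeft x),
    subset_univ _⟩

lemma reg_pd_refl (hk : ContDiff ℝ ∞ k) (x : E3) (j : Fin 3) :
    pd j (fun t => k (x - t)) = fun t => - pd j k (x - t) := by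
  funext t
  have h1 : HasFDerivAt (fun t : E3 => x - t) (-ContinuousLinearMap.id ℝ E3) t :=
    (hasFDerivAt_id t).const_sub x
  have h2 := ((hk.differentiable (by simp)) (x - t)).hasFDerivAt.comp t h1
  rw [pd, show (fun t => k (x - t)) = k ∘ fun t => x - t from rfl, h2.fderiv]
  simp [pd]

lemma reg_sq (hf : MemLp f 2 volume) : Integrable (fun x => f x ^ 2) := hf.integrable_sq

/-- Weighted Cauchy-Schwarz inequality. -/
lemma reg_cs {w : E3 → ℝ} (hw : ∀ t, 0 ≤ w t) (h0 : Integrable w)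
    (h1 : Integrable fun t => f t * w t) (h2 : Integrable fun t => f t ^ 2 * w t) :
    (∫ t, f t * w t) ^ 2 ≤ (∫ t, w t) * ∫ t, f t ^ 2 * w t := by
  have key : ∀ s : ℝ, 0 ≤ (∫ t, w t) * (s * s) + (-2 * ∫ t, f t * w t) * s
      + ∫ t, f t ^ 2 * w t := fun s => by
    have e : ∫ t, (f t - s) ^ 2 * w t = (∫ t, w t) * (s * s) + (-2 * ∫ t, f t * w t) * s
        + ∫ t, f t ^ 2 * w t := by
      have a1 : Integrable fun t => w t * (s * s) + -2 * (f t * w t) * s :=
        (h0.mul_const _).add ((h1.const_mul _).mul_const _)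
      rw [← integral_mul_const, ← integral_const_mul, ← integral_mul_const,
        ← integral_add (h0.mul_const _) ((h1.const_mul _).mul_const _), ← integral_add a1 h2]
      exact integral_congr_ae (Eventually.of_forall fun t => by ring)
    rw [← e]
    exact integral_nonneg fun t => mul_nonneg (sq_nonneg _) (hw t)
  have := discrim_le_zero key
  rw [discrim] at this
  nlinarith

/-- Young's inequality. -/
lemma regCv_young (hf : MemLp f 2 volume) (hk : IsTest univ k) :
    MemLp (regCv f k) 2 volume ∧ ∫ x, regCv f k x ^ 2 ≤ (∫ x, |k x|) ^ 2 * ∫ x, f x ^ 2 := by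
  have hc : Continuous fun x => |k x| := hk.1.continuous.abs
  have hs : HasCompactSupport fun x => |k x| := hk.2.1.abs
  have hi : Integrable fun x => |k x| := hc.integrable_of_hasCompactSupport hs
  have i2 := (reg_sq hf).integrable_convolution (mul ℝ ℝ) hi
  have e2 := integral_convolution (mul ℝ ℝ) (reg_sq hf) hi
  have pt : ∀ x, regCv f k x ^ 2
      ≤ (∫ x, |k x|) * ((fun x => f x ^ 2) ⋆[mul ℝ ℝ, volume] fun x => |k x|) x := fun x => by
    have a1 : Integrable fun t => |f t| * |k (x - t)| :=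
      hs.convolutionExists_right (mul ℝ ℝ) (reg_lint hf.abs) hc x
    have a2 : Integrable fun t => f t ^ 2 * |k (x - t)| :=
      hs.convolutionExists_right (mul ℝ ℝ) (reg_sq hf).locallyIntegrable hc x
    have a3 := reg_cs (f := fun t => |f t|) (w := fun t => |k (x - t)|) (fun t => abs_nonneg _)
      (hi.comp_sub_left x) a1 (by simpa only [sq_abs] using a2)
    rw [integral_sub_left_eq_self (fun t => |k t|) volume x] at a3
    simp only [sq_abs] at a3
    refine le_trans ?_ a3
    rw [← sq_abs]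
    refine pow_le_pow_left₀ (abs_nonneg _) (abs_integral_le_integral_abs.trans_eq ?_) 2
    rw [show (fun t => |f t| * |k (x - t)|) = fun t => |f t * k (x - t)| from
      funext fun t => (abs_mul _ _).symm]
    rfl
  have hm := (regCv_smooth hf hk).continuous
  have i3 : Integrable fun x => regCv f k x ^ 2 := by
    refine (i2.const_mul (∫ x, |k x|)).mono' (hm.pow 2).aestronglyMeasurable
      (Eventually.of_forall fun x => ?_)
    rw [Real.norm_eq_abs, abs_of_nonneg (sq_nonneg _)]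
    exact pt x
  refine ⟨(memLp_two_iff_integrable_sq hm.aestronglyMeasurable).2 i3,
    (integral_mono i3 (i2.const_mul _) pt).trans_eq ?_⟩
  rw [integral_const_mul, e2, mul_apply']
  ring

lemma reg_ibp (hf : ContDiff ℝ ∞ f) (hg : ContDiff ℝ ∞ g) (j : Fin 3) (h1 : MemLp f 2 volume)
    (h2 : MemLp (pd j f) 2 volume) (h3 : MemLp g 2 volume) (h4 : MemLp (pd j g) 2 volume) :
    ∫ x, f x * pd j g x = - ∫ x, pd j f x * g x :=
  integral_mul_fderiv_eq_neg_fderiv_mul_of_integrable (h2.integrable_mul h3)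
    (h1.integrable_mul h4) (h1.integrable_mul h3)
    (fun x _ => hf.differentiable (by simp) x) (fun x _ => hg.differentiable (by simp) x)

lemma reg_amgm (hf : MemLp f 2 volume) (hg : MemLp g 2 volume) :
    |∫ x, f x * g x| ≤ (∫ x, f x ^ 2) / 2 + (∫ x, g x ^ 2) / 2 := by
  rw [← add_div, ← integral_add (reg_sq hf) (reg_sq hg), ← integral_div]
  refine abs_integral_le_integral_abs.trans (integral_mono (hf.integrable_mul hg).abs
    (((reg_sq hf).add (reg_sq hg)).div_const 2) fun x => ?_)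
  change |f x * g x| ≤ (f x ^ 2 + g x ^ 2) / 2
  rw [abs_le]
  constructor <;> nlinarith [sq_nonneg (f x + g x), sq_nonneg (f x - g x)]

lemma reg_cs2 (hf : MemLp f 2 volume) (hg : MemLp g 2 volume) (hb : 0 ≤ b)
    (h : ∫ x, f x ^ 2 ≤ b ^ 2) : |∫ x, f x * g x| ≤ b * √(∫ x, g x ^ 2) := by
  have e : ∀ {u : E3 → ℝ} (hu : MemLp u 2 volume), ‖hu.toLp u‖ = √(∫ x, u x ^ 2) := by
    intro u hu
    rw [← Real.sqrt_sq (norm_nonneg (hu.toLp u)), l2s_norm]
    congr 1
    refine integral_congr_ae ?_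
    filter_upwards [hu.coeFn_toLp] with x hx
    rw [hx]
  have e2 : ∫ x, f x * g x = ⟪hf.toLp f, hg.toLp g⟫ := by
    rw [l2s_inner]
    refine integral_congr_ae ?_
    filter_upwards [hf.coeFn_toLp, hg.coeFn_toLp] with x hx hy
    rw [hx, hy]
  rw [e2]
  refine (abs_real_inner_le_norm _ _).trans ?_
  rw [e hf, e hg]
  exact mul_le_mul_of_nonneg_right (Real.sqrt_le_iff.2 ⟨hb, h⟩) (Real.sqrt_nonneg _)

lemma reg_wb (h : WB univ 0 f b) : MemLp f 2 volume ∧ ∫ x, f x ^ 2 ≤ b ^ 2 := by
  obtain ⟨-, h1, h2⟩ := h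
  rw [Measure.restrict_univ] at h1 h2
  exact ⟨h1, by simpa using h2⟩

/-- The energy estimate for the mollified solution. -/
lemma reg_energy {Ψ h : E3 → ℝ} {F : Fin 3 → E3 → ℝ} (hΨ : WB univ 0 Ψ b)
    (hh : WB univ 0 h b) (hF : ∀ j, WB univ 0 (F j) b)
    (eq : ∀ φ, IsTest univ φ → ∫ x, Ψ x * ∑ j, pd j (pd j φ) x =
      - (∑ j, ∫ x, F j x * pd j φ x) + ∫ x, h x * φ x) (hk : IsTest univ k)
    (hk1 : ∫ x, |k x| = 1) (j : Fin 3) : ∫ x, pd j (regCv Ψ k) x ^ 2 ≤ (3 * b) ^ 2 := by
  have mΨ := (reg_wb hΨ).1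
  have mh := (reg_wb hh).1
  have mF := fun j => (reg_wb (hF j)).1
  have yb : ∀ {u : E3 → ℝ}, WB univ 0 u b → ∫ x, regCv u k x ^ 2 ≤ b ^ 2 := fun {u} hu => by
    have := (regCv_young (reg_wb hu).1 hk).2
    rw [hk1, one_pow, one_mul] at this
    exact this.trans (reg_wb hu).2
  have m0 : ∀ {u : E3 → ℝ}, MemLp u 2 volume → MemLp (regCv u k) 2 volume :=
    fun hu => (regCv_young hu hk).1
  have m1 : ∀ {u : E3 → ℝ}, MemLp u 2 volume → ∀ i, MemLp (pd i (regCv u k)) 2 volume :=
    fun hu i => by rw [regCv_pd hu hk]; exact (regCv_young hu (hk.pd i)).1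
  have m2 : ∀ i, MemLp (pd i (pd i (regCv Ψ k))) 2 volume := fun i => by
    rw [regCv_pd mΨ hk, regCv_pd mΨ (hk.pd i)]; exact (regCv_young mΨ ((hk.pd i).pd i)).1
  have sΨ := regCv_smooth mΨ hk
  have pe : ∀ x, ∑ i, pd i (pd i (regCv Ψ k)) x
      = ∑ i, pd i (regCv (F i) k) x + regCv h k x := fun x => by
    have := eq _ (reg_test hk x)
    have e1 : ∀ i, pd i (fun t => - pd i k (x - t)) = fun t => pd i (pd i k) (x - t) := fun i => by
      have := reg_pd_refl (k := fun t => - pd i k t) (contDiff_pd hk.1 i).neg x i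
      rw [this]
      funext t
      rw [pd, pd, fderiv_fun_neg, ContinuousLinearMap.neg_apply, neg_neg]
    have i0 : ∀ i, Integrable fun t => Ψ t * pd i (pd i k) (x - t) := fun i =>
      mΨ.integrable_mul ((reg_test ((hk.pd i).pd i) x).memLp _)
    simp only [reg_pd_refl hk.1, e1, Finset.mul_sum, mul_neg, integral_neg, Finset.sum_neg_distrib,
      neg_neg] at this
    rw [integral_finset_sum _ fun i _ => i0 i] at this
    simp only [regCv_pd mΨ hk, regCv_pd mΨ (hk.pd _), regCv_pd (mF _) hk, regCv_apply]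
    exact this
  have e1 : ∑ i, ∫ x, pd i (regCv Ψ k) x ^ 2
      = ∑ i, (∫ x, pd i (regCv Ψ k) x * regCv (F i) k x) - ∫ x, regCv Ψ k x * regCv h k x := by
    have a1 : ∀ i, ∫ x, pd i (regCv Ψ k) x ^ 2
        = - ∫ x, regCv Ψ k x * pd i (pd i (regCv Ψ k)) x := fun i => by
      rw [reg_ibp sΨ (contDiff_pd sΨ i) i (m0 mΨ) (m1 mΨ i) (m1 mΨ i) (m2 i), neg_neg]
      simp only [pow_two]
    have a2 : ∀ i, ∫ x, pd i (regCv Ψ k) x * regCv (F i) k x
        = - ∫ x, regCv Ψ k x * pd i (regCv (F i) k) x := fun i => by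
      rw [reg_ibp sΨ (regCv_smooth (mF i) hk) i (m0 mΨ) (m1 mΨ i) (m0 (mF i)) (m1 (mF i) i),
        neg_neg]
    have i1 : ∀ i, Integrable fun x => regCv Ψ k x * pd i (regCv (F i) k) x :=
      fun i => (m0 mΨ).integrable_mul (m1 (mF i) i)
    have i2 : Integrable fun x => regCv Ψ k x * regCv h k x := (m0 mΨ).integrable_mul (m0 mh)
    have i0 : ∀ i, Integrable fun x => regCv Ψ k x * pd i (pd i (regCv Ψ k)) x :=
      fun i => (m0 mΨ).integrable_mul (m2 i)
    simp only [a1, a2, Finset.sum_neg_distrib]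
    rw [← integral_finset_sum _ fun i _ => i0 i,
      ← integral_finset_sum _ fun i _ => i1 i, ← neg_add',
      ← integral_add (integrable_finset_sum _ fun i _ => i1 i) i2]
    congr 1
    refine integral_congr_ae (Eventually.of_forall fun x => ?_)
    simp only []
    rw [← Finset.mul_sum, ← Finset.mul_sum, pe, mul_add]
  have b1 := fun i => (le_abs_self _).trans (reg_amgm (m1 mΨ i) (m0 (mF i)))
  have b2 := (neg_le_abs _).trans (reg_amgm (m0 mΨ) (m0 mh))
  have b3 := fun i => yb (hF i)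
  have n : ∀ i, 0 ≤ ∫ x, pd i (regCv Ψ k) x ^ 2 := fun i => integral_nonneg fun x => sq_nonneg _
  have s1 := Finset.single_le_sum (fun i _ => n i) (Finset.mem_univ j)
  rw [Fin.sum_univ_three] at s1
  simp only [Fin.sum_univ_three] at e1
  nlinarith [b1 0, b1 1, b1 2, b3 0, b3 1, b3 2, yb hΨ, yb hh, sq_nonneg b]

/-- Mollification converges weakly. -/
lemma reg_lim (hf : MemLp f 2 volume) (hφ : IsTest univ φ) {ρ : ℕ → ContDiffBump (0 : E3)}
    (hρ : Tendsto (fun n => (ρ n).rOut) atTop (𝓝 0)) :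
    Tendsto (fun n => ∫ x, regCv f ((ρ n).normed volume) x * φ x) atTop (𝓝 (∫ x, f x * φ x)) := by
  have hψ := reg_test hφ 0
  have hc := (regCv_smooth hf hψ).continuous
  have := ContDiffBump.convolution_tendsto_right_of_continuous (μ := volume) hρ hc 0
  have e0 : regCv f (fun t => φ (0 - t)) 0 = ∫ x, f x * φ x := by simp [regCv_apply]
  rw [e0] at this
  refine this.congr fun n => ?_
  have c1 : Continuous ((ρ n).normed volume) := (ρ n).continuous_normed
  have s1 : HasCompactSupport ((ρ n).normed volume) := (ρ n).hasCompactSupport_normed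
  have l1 : LocallyIntegrable (fun x => ‖f x‖) volume := reg_lint hf.norm
  have a := convolution_assoc (μ := volume) (ν := volume) (lsmul ℝ ℝ) (mul ℝ ℝ) (lsmul ℝ ℝ)
    (mul ℝ ℝ) (f := (ρ n).normed volume) (g := f) (k := fun t => φ (0 - t)) (x₀ := 0)
    (fun x y z => by simp [mul_assoc]) c1.aestronglyMeasurable hf.1
    hψ.1.continuous.aestronglyMeasurable
    (Eventually.of_forall (s1.convolutionExists_left _ c1 (reg_lint hf)))
    (Eventually.of_forall (hψ.2.1.norm.convolutionExists_right _ l1 hψ.1.continuous.norm))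
    (s1.norm.convolutionExists_left _ c1.norm
      (hψ.2.1.norm.continuous_convolution_right _ l1 hψ.1.continuous.norm).locallyIntegrable 0)
  rw [regCv, ← a, convolution_mul]
  refine integral_congr_ae (Eventually.of_forall fun x => ?_)
  simp only [convolution_lsmul_swap, regCv_apply, smul_eq_mul, mul_comm, zero_sub, neg_neg]

end

/-- If `Δ Ψ = div F + h` weakly with square integrable data, then `Ψ` has a square integrable
gradient. Mollify: `Ψ ⋆ ρ` is smooth, satisfies the equation pointwise with mollified data, all its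
derivatives are square integrable with `‖f ⋆ ρ‖ ≤ ‖ρ‖₁ ‖f‖`; integrate by parts; finish with
`exists_wd`. -/
theorem reg1 {Ψ h : E3 → ℝ} {F : Fin 3 → E3 → ℝ} {b : ℝ} (hΨ : WB univ 0 Ψ b)
    (hh : WB univ 0 h b) (hF : ∀ j, WB univ 0 (F j) b)
    (eq : ∀ φ, IsTest univ φ → ∫ x, Ψ x * ∑ j, pd j (pd j φ) x =
      - (∑ j, ∫ x, F j x * pd j φ x) + ∫ x, h x * φ x) :
    ∃ G : Fin 3 → E3 → ℝ, ∀ j, WB univ 0 (G j) (3 * b) ∧ IsWD univ j Ψ (G j) := by
  have mΨ := (reg_wb hΨ).1
  have hb : 0 ≤ 3 * b := by linarith [hΨ.1]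
  let ρ : ℕ → ContDiffBump (0 : E3) := fun n =>
    ⟨1 / ((n : ℝ) + 1) / 2, 1 / ((n : ℝ) + 1), by positivity, half_lt_self (by positivity)⟩
  have hρ : Tendsto (fun n => (ρ n).rOut) atTop (𝓝 0) := tendsto_one_div_add_atTop_nhds_zero_nat
  have ht : ∀ n, IsTest univ ((ρ n).normed volume) := fun n =>
    ⟨(ρ n).contDiff_normed, (ρ n).hasCompactSupport_normed, subset_univ _⟩
  have h1 : ∀ n, ∫ x, |(ρ n).normed volume x| = 1 := fun n => by
    simp only [abs_of_nonneg ((ρ n).nonneg_normed _)]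
    exact (ρ n).integral_normed
  have key : ∀ j, ∃ g, WB univ 0 g (3 * b) ∧ IsWD univ j Ψ g := fun j => by
    refine exists_wd hΨ.2.1 j hb fun φ hφ => ?_
    rw [Measure.restrict_univ]
    refine le_of_tendsto' (reg_lim mΨ (hφ.pd j) hρ).abs fun n => ?_
    have m1 : MemLp (pd j (regCv Ψ ((ρ n).normed volume))) 2 volume := by
      rw [regCv_pd mΨ (ht n)]; exact (regCv_young mΨ ((ht n).pd j)).1
    rw [reg_ibp (regCv_smooth mΨ (ht n)) hφ.1 j (regCv_young mΨ (ht n)).1 m1 (hφ.memLp _)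
      ((hφ.pd j).memLp _), abs_neg]
    exact reg_cs2 m1 (hφ.memLp _) hb (reg_energy hΨ hh hF eq (ht n) (h1 n) j)
  choose G hG using key
  exact ⟨G, hG⟩

end Vale.Agent.P136
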