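import Vale.Agent.P136.TwB
import Vale.Agent.P136.Frame

/-!
# The solvers in the ring of restrictions
-/

open MeasureTheory Set Metric
open scoped ContDiff RealInnerProductSpace

noncomputable section

namespace Vale.Agent.P136

lemma sr_cut {ρ : ℝ} {U : Set E3} (hU : IsOpen U) (h : ∀ x, ‖x‖ ≤ ρ → x ∈ U) :
    ∃ χ : E3 → ℝ, ContDiff ℝ ∞ χ ∧ (∀ x ∉ U, χ x = 0) ∧ (∀ x, ‖x‖ ≤ ρ → χ x = 1) ∧
      ∀ x, χ x ∈ Icc (0 : ℝ) 1 := by
  obtain ⟨f, h1, h2, h3⟩ := exists_contMDiffMap_zero_one_of_isClosed (n := ⊤)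
    (modelWithCornersSelf ℝ E3) hU.isClosed_compl (isClosed_closedBall (x := 0) (ε := ρ))
    (disjoint_left.2 fun x hx hx' => hx (h x (mem_closedBall_zero_iff.1 hx')))
  exact ⟨f, f.contMDiff.contDiff, fun x hx => h1 hx,
    fun x hx => h2 (mem_closedBall_zero_iff.2 hx), h3⟩

lemma sr_D {ρ : ℝ} (hρ : 0 < ρ) (θ : Fin 3 → ℂ) (f : Sm ℂ) :
    (derR hρ).D (cst θ) (rs ρ f) = rs ρ ((derS ℂ).D (cst θ) f) := by
  simp only [Der.D, cst, derR_rs, map_sum, map_mul, AlgHom.commutes]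

lemma sr_null {θ : Fin 3 → ℂ} (hθ : Null θ) {r : ℝ} (hr : 0 < r) (h : r ≤ ‖θ‖) :
    ∃ (α β : E3) (s : ℝ), ‖α‖ = 1 ∧ ‖β‖ = 1 ∧ ⟪α, β⟫ = 0 ∧ r / 2 ≤ s ∧ ∀ (f : Sm ℂ) (x : E3),
      ((derS ℂ).D (cst θ) f : E3 → ℂ) x =
        s * (fderiv ℝ (f : E3 → ℂ) x α + Complex.I * fderiv ℝ (f : E3 → ℂ) x β) := by
  obtain ⟨a, ha⟩ : ∃ a : E3, ∀ j, a j = (θ j).re := ⟨WithLp.toLp 2 _, fun _ => rfl⟩
  obtain ⟨b, hb⟩ : ∃ b : E3, ∀ j, b j = (θ j).im := ⟨WithLp.toLp 2 _, fun _ => rfl⟩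
  have h1 := congrArg Complex.re hθ
  have h2 := congrArg Complex.im hθ
  simp only [sq, Complex.add_re, Complex.mul_re, Complex.add_im, Complex.mul_im, ← ha, ← hb,
    Complex.zero_re, Complex.zero_im] at h1 h2
  have h3 : ‖b‖ = ‖a‖ := by
    rw [EuclideanSpace.norm_eq, EuclideanSpace.norm_eq]
    simp only [Fin.sum_univ_three, Real.norm_eq_abs, sq_abs]
    congr 1
    linarith
  have h4 : r / 2 ≤ ‖a‖ := by
    have : ‖θ‖ ≤ 2 * ‖a‖ := (pi_norm_le_iff_of_nonneg (by positivity)).2 fun j => by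
      linarith [Complex.norm_le_abs_re_add_abs_im (θ j), PiLp.norm_apply_le a j,
        PiLp.norm_apply_le b j, Real.norm_eq_abs (a j), Real.norm_eq_abs (b j), congrArg abs (ha j),
        congrArg abs (hb j)]
    linarith
  have h5 : ‖a‖ ≠ 0 := ((half_pos hr).trans_le h4).ne'
  refine ⟨‖a‖⁻¹ • a, ‖a‖⁻¹ • b, ‖a‖, by simp [norm_smul, h5], by simp [norm_smul, h5, h3], ?_, h4,
    fun f x => ?_⟩
  · have : ⟪a, b⟫ = 0 := by
      simp only [PiLp.inner_apply, Fin.sum_univ_three, RCLike.inner_apply, conj_trivial]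
      linarith
    rw [inner_smul_left, inner_smul_right, this, mul_zero, mul_zero]
  · have e : ∀ v : E3, fderiv ℝ (f : E3 → ℂ) x v = ∑ j, v j * fderiv ℝ (f : E3 → ℂ) x (ev j) :=
      fun v => by
        rw [show v = ∑ j, v j • ev j by ext i; fin_cases i <;> simp [Fin.sum_univ_three], map_sum]
        simp [Fin.sum_univ_three]
    have h6 : ((‖a‖ : ℝ) : ℂ) ≠ 0 := Complex.ofReal_ne_zero.2 h5
    rw [map_smul, map_smul, e a, e b]
    simp only [Der.D, Fin.sum_univ_three, ha, hb, Complex.real_smul, Complex.ofReal_inv]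
    change θ 0 * fderiv ℝ (f : E3 → ℂ) x (ev 0) + θ 1 * fderiv ℝ (f : E3 → ℂ) x (ev 1) +
      θ 2 * fderiv ℝ (f : E3 → ℂ) x (ev 2) = _
    field_simp
    linear_combination -fderiv ℝ (f : E3 → ℂ) x (ev 0) * Complex.re_add_im (θ 0) -
      fderiv ℝ (f : E3 → ℂ) x (ev 1) * Complex.re_add_im (θ 1) -
      fderiv ℝ (f : E3 → ℂ) x (ev 2) * Complex.re_add_im (θ 2)

/-- Write `θ = s (α + I β)` with `α, β` orthonormal and `s ≥ r / 2`. Multiply smooth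
representatives of `A` and `φ` by a bump equal to one on the closed ball and supported where the
entries are bounded by `M + 1` and `2 ‖φ‖` (if `φ = 0` take `ψ = 0`); use `solver` in `ι → ℂ`
for `A / s`, `φ / s`. -/
theorem solvPt {ρ : ℝ} (hρ : 0 < ρ) (ι : Type) [Fintype ι] (M r ε : ℝ) (hr : 0 < r)
    (hε : 0 < ε) : ∃ C, 0 ≤ C ∧ ∀ θ : Fin 3 → ℂ, Null θ → r ≤ ‖θ‖ →
      ∀ A : ι → ι → Rg ρ, (∀ i j, ‖A i j‖ ≤ M) → ∀ (φ : ι → Rg ρ) (x₀ : E3), ‖x₀‖ ≤ ρ →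
        ∃ ψ : ι → Sm ℂ, (∀ i, (derR hρ).D (cst θ) (rs ρ (ψ i)) = ∑ j, A i j * rs ρ (ψ j) + φ i) ∧
          (∀ i, ‖rs ρ (ψ i)‖ ≤ C * ‖φ‖) ∧ ∀ i, ‖(ψ i : E3 → ℂ) x₀‖ ≤ ε * ‖φ‖ := by
  classical
  obtain ⟨E, hE⟩ : ∃ E : ι → ι → (ι → ℂ) →L[ℂ] (ι → ℂ), ∀ i j v, E i j v = Pi.single i (v j) :=
    ⟨fun i j => (ContinuousLinearMap.single ℂ (fun _ => ℂ) i).comp (ContinuousLinearMap.proj j),
      fun _ _ _ => rfl⟩
  obtain ⟨C, hC, h⟩ := solver (V := ι → ℂ) (∑ i, ∑ j, 2 / r * (|M| + 1) * ‖E i j‖) (ε * r / 4)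
    (ρ + 1) (by positivity)
  refine ⟨C * (2 / r * 2), by positivity, fun θ hθ hrθ A hA φ x₀ h0 => ?_⟩
  rcases eq_or_ne φ 0 with rfl | hφ
  · exact ⟨0, fun i => by simp [Der.D_zero], fun i => by simp, fun i => by simp⟩
  have hn := norm_pos_iff.2 hφ
  obtain ⟨α, β, s, hα, hβ, hαβ, hs, hD⟩ := sr_null hθ hr hrθ
  have hs0 := (half_pos hr).trans_le hs
  obtain ⟨a, ha⟩ : ∃ a : ι → ι → Sm ℂ, ∀ i j, rs ρ (a i j) = A i j := ⟨_, fun i j => rs_rep _⟩
  obtain ⟨p, hp⟩ : ∃ p : ι → Sm ℂ, ∀ i, rs ρ (p i) = φ i := ⟨_, fun i => rs_rep _⟩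
  obtain ⟨χ, c1, c2, c3, c4⟩ := sr_cut (ρ := ρ) (U := {x | ‖x‖ < ρ + 1} ∩
      ((⋂ i, ⋂ j, {x | ‖(a i j : E3 → ℂ) x‖ < |M| + 1}) ∩ ⋂ i, {x | ‖(p i : E3 → ℂ) x‖ < 2 * ‖φ‖}))
    ((isOpen_lt continuous_norm continuous_const).inter ((isOpen_iInter_of_finite fun i =>
      isOpen_iInter_of_finite fun j => isOpen_lt (sco _).norm continuous_const).inter
      (isOpen_iInter_of_finite fun i => isOpen_lt (sco _).norm continuous_const)))
    fun x hx => ⟨hx.trans_lt (lt_add_one ρ), mem_iInter₂.2 fun i j => (le_norm_rs _ hx).trans_lt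
      (ha i j ▸ ((hA i j).trans (le_abs_self M)).trans_lt (lt_add_one _)),
      mem_iInter.2 fun i => (le_norm_rs _ hx).trans_lt
        (hp i ▸ (norm_le_pi_norm φ i).trans_lt (by linarith))⟩
  obtain ⟨c, hc⟩ : ∃ c : E3 → ℂ, c = fun x => ((χ x / s : ℝ) : ℂ) := ⟨_, rfl⟩
  have d1 : ContDiff ℝ ∞ c := hc ▸ Complex.ofRealCLM.contDiff.comp (c1.div_const s)
  have d2 : ∀ x, ρ + 1 ≤ ‖x‖ → c x = 0 := fun x hx => by
    simp [hc, c2 x fun h => h.1.not_ge hx]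
  have d3 : ∀ (x : E3) (z : ℂ) (B : ℝ), 0 ≤ B → (χ x ≠ 0 → ‖z‖ < B) → ‖c x * z‖ ≤ 2 / r * B :=
    fun x z B hB hz => by
      rcases eq_or_ne (χ x) 0 with h1 | h1
      · simp only [hc, h1, zero_div, Complex.ofReal_zero, zero_mul, norm_zero]
        positivity
      refine norm_mul_le_of_le ?_ (hz h1).le
      rw [hc, Complex.norm_real, Real.norm_of_nonneg (div_nonneg (c4 x).1 hs0.le),
        div_le_div_iff₀ hs0 hr]
      nlinarith [c4 x |>.2]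
  obtain ⟨ψ, p1, p2, p3, p4⟩ := h α β hα hβ hαβ
    (fun x => ∑ i, ∑ j, (c x * (a i j : E3 → ℂ) x) • E i j) (fun x i => c x * (p i : E3 → ℂ) x)
    (2 / r * (2 * ‖φ‖)) x₀ (by linarith)
    (ContDiff.sum fun i _ => ContDiff.sum fun j _ => (d1.mul (smo _)).smul contDiff_const)
    (contDiff_pi.2 fun i => d1.mul (smo _)) (fun x hx => by ext; simp [d2 x hx])
    (fun x hx => funext fun i => by simp [d2 x hx])
    (fun x => norm_sum_le_of_le _ fun i _ => norm_sum_le_of_le _ fun j _ =>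
      (ContinuousLinearMap.opNorm_smul_le _ _).trans (mul_le_mul_of_nonneg_right
        (d3 x _ _ (by positivity) fun h =>
        mem_iInter₂.1 (not_imp_comm.1 (c2 x) h).2.1 i j) (norm_nonneg _)))
    fun x => (pi_norm_le_iff_of_nonneg (by positivity)).2 fun i => d3 x _ _ (by positivity) fun h =>
      mem_iInter.1 (not_imp_comm.1 (c2 x) h).2.2 i
  refine ⟨fun i => ⟨fun x => ψ x i, contDiff_pi.1 p1 i⟩, fun i => ?_,
    fun i => (norm_rs_le (by positivity)).2 fun x hx => ?_, fun i => ?_⟩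
  · simp only [sr_D, ← ha, ← hp, ← map_mul, ← map_sum, ← map_add, rs_eq_iff, hD]
    intro x hx
    have h1 := congrFun (p2 x) i
    have h2 : (s : ℂ) * c x = 1 := by
      rw [hc, ← Complex.ofReal_mul, c3 x hx, mul_one_div_cancel hs0.ne', Complex.ofReal_one]
    simp [hE, Finset.sum_apply, Pi.single_apply] at h1
    simp [fderiv_apply (p1.differentiable (by simp) x), h1, mul_add, Finset.mul_sum, ← mul_assoc,
      h2]
  · exact ((norm_le_pi_norm _ i).trans (p3 x (by linarith))).trans_eq (by ring)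
  · exact ((norm_le_pi_norm _ i).trans p4).trans_eq (by field_simp; ring)

theorem solv_R {ρ : ℝ} (hρ : 0 < ρ) : Solv (derR hρ) := by
  intro ι _ M r hr
  obtain ⟨C, hC, h⟩ := solvPt hρ ι M r 1 hr one_pos
  refine ⟨C, hC, fun θ hθ hrθ A hA φ => ?_⟩
  obtain ⟨ψ, h1, h2, -⟩ := h θ hθ hrθ A hA φ 0 (by simpa using hρ.le)
  exact ⟨fun i => rs ρ (ψ i), h1, (pi_norm_le_iff_of_nonneg (by positivity)).2 h2⟩

/-- A smooth function with positive real values on the closed ball is invertible: add a smooth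
nonnegative function whose support is the complement of the ball times a large enough factor, or
interpolate with `1` by a bump. -/
theorem unit_of_pos {ρ : ℝ} (f : Sm ℝ) (hf : ∀ x : E3, ‖x‖ ≤ ρ → 0 < (f : E3 → ℝ) x) :
    ∃ g : Rg ρ, g * rs ρ (toC f) = 1 := by
  obtain ⟨χ, c1, c2, c3, c4⟩ := sr_cut (isOpen_lt continuous_const (sco f)) hf
  have h : ∀ x, χ x * (f : E3 → ℝ) x + (1 - χ x) ≠ 0 := fun x => by
    by_cases hx : 0 < (f : E3 → ℝ) x
    · rcases (c4 x).2.eq_or_lt with h1 | h1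
      · simpa [h1] using hx.ne'
      · linarith [mul_nonneg (c4 x).1 hx.le]
    · simp [c2 x hx]
  refine ⟨rs ρ (toC ⟨fun x => (χ x * (f : E3 → ℝ) x + (1 - χ x))⁻¹,
    ((c1.mul (smo f)).add (contDiff_const.sub c1)).inv h⟩), ?_⟩
  rw [← map_mul, ← map_mul, ← map_one (rs ρ), rs_eq_iff]
  intro x hx
  simp [toC_apply, c3 x hx, (hf x hx).ne']

lemma sr_bez {ρ : ℝ} {κ : Type} [Fintype κ] (d : κ → Sm ℂ)
    (h : ∀ x : E3, ‖x‖ ≤ ρ → ∃ c, (d c : E3 → ℂ) x ≠ 0) :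
    ∃ η : κ → Rg ρ, ∑ c, η c * rs ρ (d c) = 1 := by
  obtain ⟨g, hg⟩ := unit_of_pos (ρ := ρ) (∑ c, (reS (d c) * reS (d c) + imS (d c) * imS (d c)))
    fun x hx => by
      obtain ⟨c, hc⟩ := h x hx
      simp only [AddSubmonoidClass.coe_finsetSum, Finset.sum_apply]
      exact Finset.sum_pos' (fun c _ => Complex.normSq_nonneg ((d c : E3 → ℂ) x))
        ⟨c, Finset.mem_univ _, Complex.normSq_pos.2 hc⟩
  refine ⟨fun c => g * rs ρ (toC (reS (d c)) - Complex.I • toC (imS (d c))), ?_⟩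
  simp only [mul_assoc, ← Finset.mul_sum, ← map_mul, ← hg, map_sum]
  refine congrArg _ (Finset.sum_congr rfl fun c _ => congrArg _ ?_)
  rw [map_add, map_mul, map_mul]
  nth_rw 3 [← re_add_im (d c)]
  rw [mul_comm, ← sq_sub_sq, smul_pow, Complex.I_sq]
  simp [sq]

/-- For each point `x₀` take `C = 1 + Ψ`, the columns of `Ψ` given by `solvPt` with `φ` a column
of `A` and small `ε`, so that `det C` does not vanish at `x₀`; finite subcover;
`η c = conj (det C c) / ∑ |det C c| ^ 2` with `unit_of_pos`. -/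
theorem bez_R {ρ : ℝ} (hρ : 0 < ρ) : Bez (derR hρ) := by
  intro θ hθ h0 A
  obtain ⟨M, hM⟩ := Finite.exists_le fun p : Fin 3 × Fin 3 => ‖A p.1 p.2‖
  have hM0 : 0 ≤ M := (norm_nonneg _).trans (hM (0, 0))
  obtain ⟨C, -, h⟩ := solvPt hρ (Fin 3) M ‖θ‖ (1 / (4 * (M + 1))) (norm_pos_iff.2 h0)
    (by positivity)
  choose! ψ p1 _ p2 using fun (x₀ : E3) (hx : ‖x₀‖ ≤ ρ) (k : Fin 3) =>
    h θ hθ le_rfl A (fun i j => hM (i, j)) (fun i => A i k) x₀ hx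
  obtain ⟨B, hB⟩ : ∃ B : E3 → Matrix (Fin 3) (Fin 3) (Sm ℂ),
      ∀ x, B x = 1 + Matrix.of fun i k => ψ x k i := ⟨_, fun _ => rfl⟩
  have hd : ∀ x : E3, ‖x‖ ≤ ρ → ((B x).det : E3 → ℂ) x ≠ 0 := fun x hx => by
    have h1 := ((Pi.evalRingHom (fun _ : E3 => ℂ) x).comp (Sm ℂ).val.toRingHom).map_det (B x)
    refine h1.trans_ne (det_ne_zero_of_sum_row_lt_diag fun k => ?_)
    have h2 : ∀ k i, ‖(ψ x k i : E3 → ℂ) x‖ ≤ 1 / 4 := fun k i => by
      refine (p2 x hx k i).trans ((mul_le_mul_of_nonneg_left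
        ((pi_norm_le_iff_of_nonneg hM0).2 fun j => hM (j, k)) (by positivity)).trans ?_)
      rw [div_mul_eq_mul_div, div_le_div_iff₀ (by positivity) (by positivity)]
      linarith
    have h3 := norm_sub_le (1 + (ψ x k k : E3 → ℂ) x) ((ψ x k k : E3 → ℂ) x)
    rw [add_sub_cancel_right, norm_one] at h3
    refine (Finset.sum_le_card_nsmul _ _ (1 / 4) fun j hj => ?_).trans_lt ?_
    · simpa [hB, (Finset.ne_of_mem_erase hj).symm] using h2 j k
    · have := h2 k k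
      simp [hB]
      linarith
  obtain ⟨t, t1, t2⟩ := (isCompact_closedBall (0 : E3) ρ).elim_nhds_subcover
    (fun x => {y | ((B x).det : E3 → ℂ) y ≠ 0}) fun x hx =>
      (isOpen_ne_fun (sco _) continuous_const).mem_nhds (hd x (mem_closedBall_zero_iff.1 hx))
  obtain ⟨η, hη⟩ := sr_bez (ρ := ρ) (fun c => (B (t.equivFin.symm c)).det) fun x hx => by
    obtain ⟨y, hy, h1⟩ := mem_iUnion₂.1 (t2 (mem_closedBall_zero_iff.2 hx))
    exact ⟨t.equivFin ⟨y, hy⟩, by simpa using h1⟩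
  refine ⟨_, fun c => (rs ρ).mapMatrix (B (t.equivFin.symm c)), η, fun c i j => ?_, ?_⟩
  · have h1 := p1 _ (mem_closedBall_zero_iff.1 (t1 _ (t.equivFin.symm c).2)) j i
    beta_reduce
    rw [hB, map_add, map_one, mul_add, mul_one, Matrix.add_apply, Matrix.add_apply, Der.D_add,
      add_comm (A i j)]
    refine (congrArg₂ _ ?_ h1).trans (zero_add _)
    rw [Matrix.one_apply]
    split_ifs
    exacts [Der.D_one _ _, Der.D_zero _ _]
  · simpa only [AlgHom.map_det] using hη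

end Vale.Agent.P136
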