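import Vale.Agent.P136.Api

/-!
# The Treves inequality and a Carleman estimate for systems
-/

open MeasureTheory Set Metric
open scoped ContDiff RealInnerProductSpace

noncomputable section

namespace Vale.Agent.P136

/-- Abstract form: `a j` and `b j` are adjoint for the nonnegative symmetric form `B` and satisfy
the canonical commutation relations. Normal ordering gives
`B (P v) (P v) = B (P' v) (P' v) + 4 κ ∑ B (a j v) (a j v) + 6 κ ^ 2 B v v` with `P = ∑ b j ^ 2`,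
`P' = ∑ a j ^ 2`, and `B (b j v) (b j v) = B (a j v) (a j v) + κ B v v`. -/
lemma treves_abs {X : Type*} [AddCommGroup X] [Module ℝ X] (B : X →ₗ[ℝ] X →ₗ[ℝ] ℝ)
    (hs : ∀ v w, B v w = B w v) (hp : ∀ v, 0 ≤ B v v) (a b : Fin 3 → X →ₗ[ℝ] X) (κ : ℝ)
    (hκ : 0 ≤ κ) (hadj : ∀ j v w, B (a j v) w = B v (b j w))
    (hab : ∀ j k v, a j (b k v) = b k (a j v) + (if j = k then κ else 0) • v) (v : X) :
    2 * κ * ∑ j, B (b j v) (b j v) ≤ B (∑ j, b j (b j v)) (∑ j, b j (b j v)) ∧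
      6 * κ ^ 2 * B v v ≤ B (∑ j, b j (b j v)) (∑ j, b j (b j v)) := by
  have hba : ∀ j k, B (b j (a k v)) v = B (a j v) (a k v) := fun j k => by
    rw [hs, ← hadj]
  have key : ∀ j k, B (b j (b j v)) (b k (b k v)) = B (a j (a j v)) (a k (a k v)) +
      (if k = j then 4 * κ * B (a j v) (a j v) + 2 * κ ^ 2 * B v v else 0) := by
    intro j k
    have e1 : B (b j (b j (a k (a k v)))) v = B (a j (a j v)) (a k (a k v)) := by
      rw [hs, ← hadj, ← hadj]
    rw [← hadj, ← hadj]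
    simp only [hab, map_add, map_smul, LinearMap.add_apply, LinearMap.smul_apply, smul_eq_mul]
    rw [e1, hba]
    split_ifs with h
    · subst h; ring
    · ring
  have h1 : B (∑ j, b j (b j v)) (∑ j, b j (b j v)) = B (∑ j, a j (a j v)) (∑ j, a j (a j v)) +
      (4 * κ * ∑ j, B (a j v) (a j v) + 6 * κ ^ 2 * B v v) := by
    simp only [map_sum, LinearMap.sum_apply, key, Finset.sum_add_distrib]
    congr 1
    simp only [Finset.sum_ite_eq, Finset.mem_univ, if_true, Fin.sum_univ_three]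
    ring
  have h2 : ∀ j, B (b j v) (b j v) = B (a j v) (a j v) + κ * B v v := by
    intro j
    rw [← hadj, hab, if_pos rfl, map_add, map_smul, LinearMap.add_apply, LinearMap.smul_apply,
      hba, smul_eq_mul]
  have h3 : 0 ≤ κ * ∑ j, B (a j v) (a j v) :=
    mul_nonneg hκ (Finset.sum_nonneg fun j _ => hp _)
  have h4 := hp (∑ j, a j (a j v))
  rw [h1]
  constructor
  · simp only [h2, Fin.sum_univ_three] at h3 h4 ⊢
    nlinarith
  · nlinarith

/-- Test functions on the whole space. -/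
def TrSp : Submodule ℝ (E3 → ℝ) where
  carrier := {φ | IsTest univ φ}
  add_mem' := fun {_ _} h h' => IsTest.add h h'
  zero_mem' := IsTest.zero
  smul_mem' := fun c _ h => IsTest.mul_left (a := fun _ => c) h contDiff_const

lemma tr_test (u : TrSp) : IsTest univ (u : E3 → ℝ) := u.2

lemma tr_pd_cmul {f : E3 → ℝ} (hf : ContDiff ℝ ∞ f) (c : ℝ) (j : Fin 3) (x : E3) :
    pd j (fun y => c * f y) x = c * pd j f x := by
  rw [pd_mul (f := fun _ => c) contDiff_const hf, pd_const]; ring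

lemma tr_cd_coord (K : ℝ) (x₀ : E3) (j : Fin 3) :
    ContDiff ℝ ∞ (fun x : E3 => 2 * K * (x j - x₀ j)) := by
  fun_prop

lemma tr_pd_coord (K : ℝ) (x₀ : E3) (j k : Fin 3) (x : E3) :
    pd k (fun x : E3 => 2 * K * (x j - x₀ j)) x = if j = k then 2 * K else 0 := by
  have h : HasFDerivAt (fun x : E3 => 2 * K * (x j - x₀ j))
      ((2 * K) • (EuclideanSpace.proj j : E3 →L[ℝ] ℝ)) x :=
    (((EuclideanSpace.proj j : E3 →L[ℝ] ℝ).hasFDerivAt).sub_const (x₀ j)).const_mul (2 * K)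
  unfold pd
  rw [h.fderiv]
  by_cases hjk : j = k
  · subst hjk; simp
  · simp [hjk]

lemma tr_cd_W (K : ℝ) (x₀ : E3) :
    ContDiff ℝ ∞ (fun x : E3 => Real.exp (K * ‖x - x₀‖ ^ 2)) :=
  Real.contDiff_exp.comp (contDiff_const.mul
    ((contDiff_norm_sq ℝ).comp (contDiff_id.sub contDiff_const)))

lemma tr_pd_W (K : ℝ) (x₀ : E3) (j : Fin 3) (x : E3) :
    pd j (fun x : E3 => Real.exp (K * ‖x - x₀‖ ^ 2)) x =
      2 * K * (x j - x₀ j) * Real.exp (K * ‖x - x₀‖ ^ 2) := by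
  have h := ((((hasFDerivAt_id x).sub_const x₀).norm_sq).const_mul K).exp
  unfold pd
  have e : fderiv ℝ (fun x : E3 => Real.exp (K * ‖x - x₀‖ ^ 2)) x = _ := h.fderiv
  rw [e]
  simp [EuclideanSpace.inner_single_right]
  ring

lemma tr_int2 {W : E3 → ℝ} (hW : Continuous W) (u v : TrSp) :
    Integrable (fun x => W x * (u : E3 → ℝ) x * (v : E3 → ℝ) x) :=
  (tr_test v).integrable_mul (a := fun x => W x * (u : E3 → ℝ) x)
    (hW.mul (tr_test u).1.continuous) volume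

/-- The weighted pairing. -/
def trB (W : E3 → ℝ) (hW : Continuous W) : TrSp →ₗ[ℝ] TrSp →ₗ[ℝ] ℝ :=
  LinearMap.mk₂ ℝ (fun u v => ∫ x, W x * (u : E3 → ℝ) x * (v : E3 → ℝ) x)
    (fun u u' v => by
      rw [← integral_add (tr_int2 hW u v) (tr_int2 hW u' v)]
      refine integral_congr_ae (Filter.Eventually.of_forall fun x => ?_)
      simp only [Submodule.coe_add, Pi.add_apply]; ring)
    (fun c u v => by
      rw [smul_eq_mul, ← integral_const_mul]
      refine integral_congr_ae (Filter.Eventually.of_forall fun x => ?_)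
      simp only [Submodule.coe_smul, Pi.smul_apply, smul_eq_mul]; ring)
    (fun u v v' => by
      rw [← integral_add (tr_int2 hW u v) (tr_int2 hW u v')]
      refine integral_congr_ae (Filter.Eventually.of_forall fun x => ?_)
      simp only [Submodule.coe_add, Pi.add_apply]; ring)
    (fun c u v => by
      rw [smul_eq_mul, ← integral_const_mul]
      refine integral_congr_ae (Filter.Eventually.of_forall fun x => ?_)
      simp only [Submodule.coe_smul, Pi.smul_apply, smul_eq_mul]; ring)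

lemma trB_apply (W : E3 → ℝ) (hW : Continuous W) (u v : TrSp) :
    trB W hW u v = ∫ x, W x * (u : E3 → ℝ) x * (v : E3 → ℝ) x := rfl

/-- Differentiation of test functions. -/
def trD (j : Fin 3) : TrSp →ₗ[ℝ] TrSp where
  toFun u := ⟨pd j u, (tr_test u).pd j⟩
  map_add' u v := Subtype.ext (funext fun x => pd_add (tr_test u).1 (tr_test v).1 j x)
  map_smul' c u := Subtype.ext (funext fun x => tr_pd_cmul (tr_test u).1 c j x)

/-- Multiplication of test functions by a smooth function. -/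
def trM (g : E3 → ℝ) (hg : ContDiff ℝ ∞ g) : TrSp →ₗ[ℝ] TrSp where
  toFun u := ⟨fun x => g x * (u : E3 → ℝ) x, (tr_test u).mul_left hg⟩
  map_add' u v := Subtype.ext (funext fun x => mul_add _ _ _)
  map_smul' c u := Subtype.ext (funext fun x => by
    show g x * (c * (u : E3 → ℝ) x) = c * (g x * (u : E3 → ℝ) x)
    ring)

lemma trD_coe (j : Fin 3) (u : TrSp) : ((trD j u : TrSp) : E3 → ℝ) = pd j u := rfl

lemma trM_coe (g : E3 → ℝ) (hg : ContDiff ℝ ∞ g) (u : TrSp) :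
    ((trM g hg u : TrSp) : E3 → ℝ) = fun x => g x * (u : E3 → ℝ) x := rfl

lemma tr_adj (K : ℝ) (x₀ : E3) (j : Fin 3) (v w : TrSp) :
    trB _ (tr_cd_W K x₀).continuous ((trD j + trM _ (tr_cd_coord K x₀ j)) v) w =
      trB _ (tr_cd_W K x₀).continuous v ((- trD j) w) := by
  have hW := tr_cd_W K x₀
  have hv := (tr_test v).1
  have hw := (tr_test w).1
  have h0 := int_pd_test ((tr_test w).mul_left (hW.mul hv)) j
  rw [Measure.restrict_univ] at h0
  rw [LinearMap.neg_apply, map_neg, eq_neg_iff_add_eq_zero, trB_apply, trB_apply, ← h0,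
    ← integral_add (tr_int2 hW.continuous _ _) (tr_int2 hW.continuous _ _)]
  refine integral_congr_ae (Filter.Eventually.of_forall fun x => ?_)
  beta_reduce
  rw [pd_mul (hW.mul hv) hw, pd_mul hW hv, tr_pd_W, LinearMap.add_apply, Submodule.coe_add,
    Pi.add_apply, trD_coe, trD_coe, trM_coe]
  ring

lemma tr_comm (K : ℝ) (x₀ : E3) (j k : Fin 3) (v : TrSp) :
    (trD j + trM _ (tr_cd_coord K x₀ j)) ((- trD k) v) =
      (- trD k) ((trD j + trM _ (tr_cd_coord K x₀ j)) v) + (if j = k then 2 * K else 0) • v := by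
  have hv := (tr_test v).1
  simp only [LinearMap.neg_apply, map_neg, LinearMap.add_apply, map_add]
  refine Subtype.ext (funext fun x => ?_)
  simp only [Submodule.coe_add, Submodule.coe_neg, Submodule.coe_smul, Pi.add_apply, Pi.neg_apply,
    Pi.smul_apply, smul_eq_mul, trD_coe, trM_coe]
  rw [pd_mul (tr_cd_coord K x₀ j) hv, tr_pd_coord, pd_comm hv j k]
  ring

/-- Apply `treves_abs` on the space of test functions with `B u v = ∫ W u v`,
`W = exp (K ‖x - x₀‖ ^ 2)`, `b j = - pd j`, `a j = pd j + 2 K (x j - x₀ j)`, `κ = 2 K`. -/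
lemma treves {K : ℝ} (hK : 0 ≤ K) (x₀ : E3) {u : E3 → ℝ} (hu : IsTest univ u) :
    4 * K * ∑ j, ∫ x, Real.exp (K * ‖x - x₀‖ ^ 2) * pd j u x ^ 2 ≤
        ∫ x, Real.exp (K * ‖x - x₀‖ ^ 2) * (∑ j, pd j (pd j u) x) ^ 2 ∧
      24 * K ^ 2 * ∫ x, Real.exp (K * ‖x - x₀‖ ^ 2) * u x ^ 2 ≤
        ∫ x, Real.exp (K * ‖x - x₀‖ ^ 2) * (∑ j, pd j (pd j u) x) ^ 2 := by
  have h := treves_abs (trB _ (tr_cd_W K x₀).continuous)
    (fun v w => by
      rw [trB_apply, trB_apply]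
      exact integral_congr_ae (Filter.Eventually.of_forall fun x => by ring))
    (fun v => by
      rw [trB_apply]
      refine integral_nonneg fun x => ?_
      show 0 ≤ Real.exp (K * ‖x - x₀‖ ^ 2) * (v : E3 → ℝ) x * (v : E3 → ℝ) x
      rw [mul_assoc]
      exact mul_nonneg (Real.exp_pos _).le (mul_self_nonneg _))
    (fun j => trD j + trM _ (tr_cd_coord K x₀ j)) (fun j => - trD j) (2 * K) (by linarith)
    (tr_adj K x₀) (tr_comm K x₀) ⟨u, hu⟩
  simp only [LinearMap.neg_apply, map_neg, neg_neg] at h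
  have e1 : ∀ w : TrSp, trB _ (tr_cd_W K x₀).continuous w w =
      ∫ x, Real.exp (K * ‖x - x₀‖ ^ 2) * (w : E3 → ℝ) x ^ 2 := fun w => by
    rw [trB_apply]
    exact integral_congr_ae (Filter.Eventually.of_forall fun x => by ring)
  simp only [e1, trD_coe, Submodule.coe_sum, Finset.sum_apply] at h
  constructor
  · linarith [h.1]
  · linarith [h.2]

/-- A second order system with principal part the Laplacian. -/
def sysOp {ι : Type} [Fintype ι] (A : Fin 3 → ι → ι → E3 → ℝ) (A0 : ι → ι → E3 → ℝ)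
    (v : ι → E3 → ℝ) (a : ι) (x : E3) : ℝ :=
  ∑ j, pd j (pd j (v a)) x + ∑ j, ∑ b, A j a b x * pd j (v b) x + ∑ b, A0 a b x * v b x

lemma sysOp_test {ι : Type} [Fintype ι] {A : Fin 3 → ι → ι → E3 → ℝ} {A0 : ι → ι → E3 → ℝ}
    (hA : ∀ j a b, ContDiff ℝ ∞ (A j a b)) (hA0 : ∀ a b, ContDiff ℝ ∞ (A0 a b)) {Ω : Set E3}
    {v : ι → E3 → ℝ} (hv : ∀ a, IsTest Ω (v a)) (a : ι) : IsTest Ω (sysOp A A0 v a) :=
  ((IsTest.sum _ fun j => ((hv a).pd j).pd j).add (IsTest.sum _ fun j => IsTest.sum _ fun b =>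
    ((hv b).pd j).mul_left (hA j a b))).add (IsTest.sum _ fun b => (hv b).mul_left (hA0 a b))

lemma tr_int {Ω : Set E3} {W f : E3 → ℝ} (hW : Continuous W) (hf : IsTest Ω f) :
    Integrable (fun x => W x * f x ^ 2) := by
  refine (hf.integrable_mul (hW.mul hf.1.continuous) volume).congr
    (Filter.Eventually.of_forall fun x => ?_)
  simp only [Pi.mul_apply]; ring

lemma tr_point {ι : Type} [Fintype ι] (A : Fin 3 → ι → ι → ℝ) (A0 : ι → ι → ℝ) (L v : ι → ℝ)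
    (p : Fin 3 → ι → ℝ) {M : ℝ}
    (hM : ∑ a, (∑ j, ∑ b, A j a b ^ 2 + ∑ b, A0 a b ^ 2) ≤ M) :
    ∑ a, L a ^ 2 ≤ 3 * ∑ a, (L a + ∑ j, ∑ b, A j a b * p j b + ∑ b, A0 a b * v b) ^ 2 +
      3 * M * (∑ b, ∑ j, p j b ^ 2 + ∑ b, v b ^ 2) := by
  have hG : 0 ≤ ∑ b, ∑ j, p j b ^ 2 := by positivity
  have hV : 0 ≤ ∑ b, v b ^ 2 := by positivity
  have h1 : ∀ a, L a ^ 2 ≤ 3 * (L a + ∑ j, ∑ b, A j a b * p j b + ∑ b, A0 a b * v b) ^ 2 +
      3 * ((∑ j, ∑ b, A j a b ^ 2 + ∑ b, A0 a b ^ 2) *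
        (∑ b, ∑ j, p j b ^ 2 + ∑ b, v b ^ 2)) := by
    intro a
    have k1 := Finset.sum_mul_sq_le_sq_mul_sq (Finset.univ : Finset (Fin 3 × ι))
      (fun q => A q.1 a q.2) (fun q => p q.1 q.2)
    rw [Fintype.sum_prod_type, Fintype.sum_prod_type, Fintype.sum_prod_type_right] at k1
    have k2 := Finset.sum_mul_sq_le_sq_mul_sq (Finset.univ : Finset ι) (A0 a) v
    have k3 : 0 ≤ ∑ j, ∑ b, A j a b ^ 2 := by positivity
    have k4 : 0 ≤ ∑ b, A0 a b ^ 2 := by positivity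
    have aux : ∀ l s t α β g w : ℝ, s ^ 2 ≤ α * g → t ^ 2 ≤ β * w → 0 ≤ α → 0 ≤ β → 0 ≤ g →
        0 ≤ w → l ^ 2 ≤ 3 * (l + s + t) ^ 2 + 3 * ((α + β) * (g + w)) := by
      intro l s t α β g w e1 e2 e3 e4 e5 e6
      nlinarith [sq_nonneg (l + s + t + s), sq_nonneg (l + s + t + t), sq_nonneg (s - t),
        mul_nonneg e3 e6, mul_nonneg e4 e5]
    exact aux _ _ _ _ _ _ _ k1 k2 k3 k4 hG hV
  refine (Finset.sum_le_sum fun a _ => h1 a).trans ?_
  rw [Finset.sum_add_distrib, ← Finset.mul_sum, ← Finset.mul_sum, ← Finset.sum_mul]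
  have := mul_le_mul_of_nonneg_right hM (add_nonneg hG hV)
  linarith

lemma tr_absorb {ι : Type} [Fintype ι] {A : Fin 3 → ι → ι → E3 → ℝ} {A0 : ι → ι → E3 → ℝ}
    (hA : ∀ j a b, ContDiff ℝ ∞ (A j a b)) (hA0 : ∀ a b, ContDiff ℝ ∞ (A0 a b)) {Ω : Set E3}
    {M : ℝ} (hM0 : 0 ≤ M)
    (hM : ∀ x ∈ Ω, ∑ a, (∑ j, ∑ b, A j a b x ^ 2 + ∑ b, A0 a b x ^ 2) ≤ M) (x₀ : E3)
    {v : ι → E3 → ℝ} (hv : ∀ a, IsTest Ω (v a)) :
    ∑ a, ∫ x, Real.exp ((3 * M + 1) * ‖x - x₀‖ ^ 2) * v a x ^ 2 ≤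
      ∑ a, ∫ x, Real.exp ((3 * M + 1) * ‖x - x₀‖ ^ 2) * sysOp A A0 v a x ^ 2 := by
  have hW := (tr_cd_W (3 * M + 1) x₀).continuous
  have hT := fun a => treves (K := 3 * M + 1) (by linarith) x₀ ((hv a).mono (subset_univ _))
  have hL : ∀ a, IsTest Ω (fun x => ∑ j, pd j (pd j (v a)) x) :=
    fun a => IsTest.sum _ fun j => ((hv a).pd j).pd j
  have iL := fun a => tr_int hW (hL a)
  have iS := fun a => tr_int hW (sysOp_test hA hA0 hv a)
  have iP := fun a j => tr_int hW ((hv a).pd j)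
  have iV := fun a => tr_int hW (hv a)
  have h1 := Finset.sum_le_sum fun a (_ : a ∈ Finset.univ) => (hT a).1
  have h2 := Finset.sum_le_sum fun a (_ : a ∈ Finset.univ) => (hT a).2
  rw [← Finset.mul_sum] at h1 h2
  have jS := integrable_finsetSum Finset.univ fun a _ => iS a
  have jP' := fun a => integrable_finsetSum Finset.univ fun j _ => iP a j
  have jP := integrable_finsetSum Finset.univ fun a _ => jP' a
  have jV := integrable_finsetSum Finset.univ fun a _ => iV a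
  have jPV : Integrable (fun x => (∑ a, ∑ j, Real.exp ((3 * M + 1) * ‖x - x₀‖ ^ 2) *
      pd j (v a) x ^ 2) + ∑ a, Real.exp ((3 * M + 1) * ‖x - x₀‖ ^ 2) * v a x ^ 2) := jP.add jV
  have h3 : ∑ a, ∫ x, Real.exp ((3 * M + 1) * ‖x - x₀‖ ^ 2) * (∑ j, pd j (pd j (v a)) x) ^ 2 ≤
      3 * (∑ a, ∫ x, Real.exp ((3 * M + 1) * ‖x - x₀‖ ^ 2) * sysOp A A0 v a x ^ 2) +
      3 * M * ((∑ a, ∑ j, ∫ x, Real.exp ((3 * M + 1) * ‖x - x₀‖ ^ 2) * pd j (v a) x ^ 2) +
        ∑ a, ∫ x, Real.exp ((3 * M + 1) * ‖x - x₀‖ ^ 2) * v a x ^ 2) := by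
    rw [← integral_finsetSum _ fun a _ => iL a, ← integral_finsetSum _ fun a _ => iS a,
      ← integral_finsetSum _ fun a _ => iV a,
      Finset.sum_congr rfl fun a _ => (integral_finsetSum _ fun j _ => iP a j).symm,
      ← integral_finsetSum _ fun a _ => jP' a, ← integral_add jP jV, ← integral_const_mul,
      ← integral_const_mul, ← integral_add (jS.const_mul _) (jPV.const_mul _)]
    refine integral_mono (integrable_finsetSum _ fun a _ => iL a)
      ((jS.const_mul _).add (jPV.const_mul _)) fun x => ?_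
    have hx0 := Real.exp_pos ((3 * M + 1) * ‖x - x₀‖ ^ 2)
    have key : ∑ a, (∑ j, pd j (pd j (v a)) x) ^ 2 ≤ 3 * ∑ a, sysOp A A0 v a x ^ 2 +
        3 * M * (∑ b, ∑ j, pd j (v b) x ^ 2 + ∑ b, v b x ^ 2) := by
      by_cases hx : x ∈ Ω
      · exact tr_point (fun j a b => A j a b x) (fun a b => A0 a b x)
          (fun a => ∑ j, pd j (pd j (v a)) x) (fun b => v b x) (fun j b => pd j (v b) x) (hM x hx)
      · rw [Finset.sum_eq_zero fun a _ => by rw [(hL a).eq_zero hx]; ring]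
        positivity
    have := mul_le_mul_of_nonneg_left key hx0.le
    simp only [Pi.add_apply, ← Finset.mul_sum]
    linarith
  have hG : 0 ≤ ∑ a, ∑ j, ∫ x, Real.exp ((3 * M + 1) * ‖x - x₀‖ ^ 2) * pd j (v a) x ^ 2 :=
    Finset.sum_nonneg fun a _ => Finset.sum_nonneg fun j _ => integral_nonneg fun x => by
      positivity
  have hV : 0 ≤ ∑ a, ∫ x, Real.exp ((3 * M + 1) * ‖x - x₀‖ ^ 2) * v a x ^ 2 :=
    Finset.sum_nonneg fun a _ => integral_nonneg fun x => by positivity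
  have aux : ∀ X G V S : ℝ, 0 ≤ G → 0 ≤ V → 4 * (3 * M + 1) * G ≤ X →
      24 * (3 * M + 1) ^ 2 * V ≤ X → X ≤ 3 * S + 3 * M * (G + V) → V ≤ S := by
    intro X G V S e1 e2 e3 e4 e5
    nlinarith [mul_nonneg hM0 e1, mul_nonneg hM0 e2, mul_nonneg (mul_nonneg hM0 hM0) e2]
  exact aux _ _ _ _ hG hV h1 h2 h3

lemma tr_weight {K : ℝ} (hK : 0 < K) (ξ x : E3) :
    Real.exp (K * ‖x - (-K⁻¹) • ξ‖ ^ 2) =
      Real.exp (‖ξ‖ ^ 2 / K) * Real.exp (K * ‖x‖ ^ 2) * Real.exp ⟪ξ, x⟫ ^ 2 := by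
  rw [sq (Real.exp _), ← Real.exp_add, ← Real.exp_add, ← Real.exp_add, neg_smul, sub_neg_eq_add,
    norm_add_sq_real, norm_smul, real_inner_smul_right, real_inner_comm, mul_pow, Real.norm_eq_abs,
    sq_abs]
  congr 1
  field_simp
  ring

/-- Take `K` large to absorb the lower order terms and `x₀ = - K⁻¹ • ξ`, so that
`K ‖x - x₀‖ ^ 2 = K ‖x‖ ^ 2 + 2 ⟪ξ, x⟫ + ‖ξ‖ ^ 2 / K`. -/
theorem carleman {ι : Type} [Fintype ι] {A : Fin 3 → ι → ι → E3 → ℝ} {A0 : ι → ι → E3 → ℝ}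
    (hA : ∀ j a b, ContDiff ℝ ∞ (A j a b)) (hA0 : ∀ a b, ContDiff ℝ ∞ (A0 a b)) (R : ℝ) :
    ∃ C, 0 ≤ C ∧ ∀ (ξ : E3) (v : ι → E3 → ℝ), (∀ a, IsTest (ball 0 R) (v a)) →
      ∑ a, ∫ x, (Real.exp ⟪ξ, x⟫ * v a x) ^ 2 ≤
        C ^ 2 * ∑ a, ∫ x, (Real.exp ⟪ξ, x⟫ * sysOp A A0 v a x) ^ 2 := by
  obtain ⟨M, hM0, hM⟩ := exists_bound_of_cont (isBounded_ball (x := (0 : E3)) (r := R))
    (a := fun x => ∑ a, (∑ j, ∑ b, A j a b x ^ 2 + ∑ b, A0 a b x ^ 2))
    (continuous_finsetSum _ fun a _ => (continuous_finsetSum _ fun j _ =>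
      continuous_finsetSum _ fun b _ => (hA j a b).continuous.pow 2).add
      (continuous_finsetSum _ fun b _ => (hA0 a b).continuous.pow 2))
  have hK : 0 < 3 * M + 1 := by linarith
  refine ⟨Real.exp ((3 * M + 1) * R ^ 2 / 2), (Real.exp_pos _).le, fun ξ v hv => ?_⟩
  have h := tr_absorb hA hA0 hM0 (fun x hx => (le_abs_self _).trans (hM x hx))
    ((-(3 * M + 1)⁻¹) • ξ) hv
  have hW := (tr_cd_W (3 * M + 1) ((-(3 * M + 1)⁻¹) • ξ)).continuous
  have hE : Continuous fun x : E3 => Real.exp ⟪ξ, x⟫ ^ 2 := (contDiff_expw ξ).continuous.pow 2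
  have hc := Real.exp_pos (‖ξ‖ ^ 2 / (3 * M + 1))
  have hC : Real.exp ((3 * M + 1) * R ^ 2 / 2) ^ 2 = Real.exp ((3 * M + 1) * R ^ 2) := by
    rw [sq, ← Real.exp_add, add_halves]
  refine le_of_mul_le_mul_left ?_ hc
  rw [hC, ← mul_assoc, Finset.mul_sum, Finset.mul_sum]
  refine le_trans (Finset.sum_le_sum fun a _ => ?_) (h.trans (Finset.sum_le_sum fun a _ => ?_))
  · simp only [mul_pow]
    rw [← integral_const_mul]
    refine integral_mono ((tr_int hE (hv a)).const_mul _) (tr_int hW (hv a)) fun x => ?_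
    have h1 : 1 ≤ Real.exp ((3 * M + 1) * ‖x‖ ^ 2) := Real.one_le_exp (by positivity)
    have h2 : 0 ≤ Real.exp (‖ξ‖ ^ 2 / (3 * M + 1)) * (Real.exp ⟪ξ, x⟫ ^ 2 * v a x ^ 2) := by
      positivity
    simp only [tr_weight hK]
    nlinarith [mul_le_mul_of_nonneg_left h1 h2]
  · have hS := sysOp_test hA hA0 hv a
    simp only [mul_pow]
    rw [← integral_const_mul]
    refine integral_mono (tr_int hW hS) ((tr_int hE hS).const_mul _) fun x => ?_
    simp only [tr_weight hK]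
    by_cases hx : x ∈ ball (0 : E3) R
    · have h0 : ‖x‖ ^ 2 ≤ R ^ 2 :=
        pow_le_pow_left₀ (norm_nonneg _) (mem_ball_zero_iff.1 hx).le 2
      have h1 : Real.exp ((3 * M + 1) * ‖x‖ ^ 2) ≤ Real.exp ((3 * M + 1) * R ^ 2) :=
        Real.exp_le_exp.2 (mul_le_mul_of_nonneg_left h0 hK.le)
      have h2 : 0 ≤ Real.exp (‖ξ‖ ^ 2 / (3 * M + 1)) *
          (Real.exp ⟪ξ, x⟫ ^ 2 * sysOp A A0 v a x ^ 2) := by positivity
      nlinarith [mul_le_mul_of_nonneg_left h1 h2]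
    · rw [hS.eq_zero hx]; simp

end Vale.Agent.P136
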