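import Vale.Agent.P136.Pomp

/-!
# A twisted convolution inverting the weighted Cauchy-Riemann operator along a plane
-/

open MeasureTheory Set Metric
open scoped ContDiff BoundedContinuousFunction Real RealInnerProductSpace ComplexConjugate

noncomputable section

namespace Vale.Agent.P136

variable {V : Type} [NormedAddCommGroup V] [NormedSpace ℂ V] [CompleteSpace V]

/-- Complex coordinate along the plane spanned by `α`, `β`. -/
def zc (α β x : E3) : ℂ := (⟪α, x⟫ : ℝ) + (⟪β, x⟫ : ℝ) * Complex.I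

/-- Embedding of the complex line. -/
def io (α β : E3) (u : ℂ) : E3 := u.re • α + u.im • β

/-- The kernel; its modulus is `‖u‖⁻¹ exp (-K ‖u‖ ^ 2 / 2)`. -/
def ker (K : ℝ) (α β x : E3) (u : ℂ) : ℂ :=
  u⁻¹ * Complex.exp (-(K * ‖u‖ ^ 2 / 2 : ℝ) + Complex.I * (K * (u * conj (zc α β x)).im : ℝ))

/-- The phase of the magnetic translation by `h`. -/
def ph (K : ℝ) (α β h x : E3) : ℂ :=
  Complex.exp (-Complex.I * (K * (zc α β x * conj (zc α β h)).im : ℝ))

/-- The complex coordinate as a real linear map. -/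
def zL (α β : E3) : E3 →L[ℝ] ℂ :=
  Complex.ofRealCLM.comp (innerSL ℝ α) + (innerSL ℝ β).smulRight Complex.I

lemma zL_apply (α β x : E3) : zL α β x = zc α β x := rfl

/-- The embedding as a real linear map. -/
def iL (α β : E3) : ℂ →L[ℝ] E3 := Complex.reCLM.smulRight α + Complex.imCLM.smulRight β

lemma iL_apply (α β : E3) (u : ℂ) : iL α β u = io α β u := rfl

lemma zc_add (α β x y : E3) : zc α β (x + y) = zc α β x + zc α β y := (zL α β).map_add x y

lemma zc_sub (α β x y : E3) : zc α β (x - y) = zc α β x - zc α β y := (zL α β).map_sub x y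

lemma zc_zero (α β : E3) : zc α β 0 = 0 := (zL α β).map_zero

lemma zc_smooth (α β : E3) : ContDiff ℝ ∞ (zc α β) := (zL α β).contDiff

lemma io_cont (α β : E3) : Continuous (io α β) := (iL α β).continuous

lemma zc_io {α β : E3} (hα : ‖α‖ = 1) (hβ : ‖β‖ = 1) (hαβ : ⟪α, β⟫ = 0) (u : ℂ) :
    zc α β (io α β u) = u := by
  have h : ⟪β, α⟫ = 0 := by rw [real_inner_comm, hαβ]
  simp [zc, io, inner_add_right, inner_smul_right, hαβ, h, hα, hβ]

lemma norm_ph (K : ℝ) (α β h x : E3) : ‖ph K α β h x‖ = 1 := by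
  rw [ph, Complex.norm_exp]
  simp

lemma ph_zero (K : ℝ) (α β h : E3) : ph K α β h 0 = 1 := by
  simp [ph, zc_zero]

lemma ph_smooth (K : ℝ) (α β : E3) : ContDiff ℝ ∞ fun p : E3 × E3 => ph K α β p.1 p.2 := by
  have h1 := (zc_smooth α β).comp (contDiff_snd (E := E3))
  have h2 := Complex.conjCLE.contDiff.comp ((zc_smooth α β).comp (contDiff_fst (F := E3)))
  exact (Complex.contDiff_exp (𝕜 := ℝ)).comp (contDiff_const.mul (Complex.ofRealCLM.contDiff.comp
    (contDiff_const.mul (Complex.imCLM.contDiff.comp (h1.mul h2)))))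

lemma norm_ker (K : ℝ) (α β x : E3) (u : ℂ) :
    ‖ker K α β x u‖ = ‖u‖⁻¹ * Real.exp (-(K / 2) * ‖u‖ ^ 2) := by
  rw [ker, norm_mul, norm_inv, Complex.norm_exp]
  simp only [Complex.add_re, Complex.neg_re, Complex.ofReal_re, Complex.I_mul_re, Complex.ofReal_im]
  congr 2
  ring

lemma ker_ph (K : ℝ) (α β h x : E3) {y : E3} {u : ℂ} (hy : zc α β y = zc α β x - u) :
    ker K α β x u * ph K α β h y = ph K α β h x * ker K α β (x + h) u := by
  simp only [ker, ph, hy, zc_add, map_add, mul_add, sub_mul, Complex.add_im, Complex.sub_im]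
  rw [mul_assoc, mul_left_comm _ u⁻¹, ← Complex.exp_add, ← Complex.exp_add]
  congr 2
  push_cast
  ring

lemma tw_int {K : ℝ} (hK : 0 < K) :
    Integrable (fun u : ℂ => ‖u‖⁻¹ * Real.exp (-(K / 2) * ‖u‖ ^ 2)) ∧
      ∫ u : ℂ, ‖u‖⁻¹ * Real.exp (-(K / 2) * ‖u‖ ^ 2) = π * √(π / (K / 2)) := by
  have e : EqOn (fun y : ℝ => y ^ (Module.finrank ℝ ℂ - 1) • (y⁻¹ * Real.exp (-(K / 2) * y ^ 2)))
      (fun y => Real.exp (-(K / 2) * y ^ 2)) (Ioi 0) := fun y hy => by
    simp [mul_inv_cancel_left₀ (ne_of_gt (mem_Ioi.1 hy))]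
  constructor
  · exact (integrable_fun_norm_addHaar volume
      (f := fun y => y⁻¹ * Real.exp (-(K / 2) * y ^ 2))).2
      ((integrable_exp_neg_mul_sq (half_pos hK)).integrableOn.congr_fun e.symm measurableSet_Ioi)
  · rw [integral_fun_norm_addHaar volume (fun y => y⁻¹ * Real.exp (-(K / 2) * y ^ 2)),
      setIntegral_congr_fun measurableSet_Ioi e, integral_gaussian_Ioi]
    simp [Measure.real, Complex.volume_ball]
    ring

omit [CompleteSpace V] in
/-- The magnetic translate of a bounded continuous function. -/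
def mt (K : ℝ) (α β h : E3) (f : E3 →ᵇ V) : E3 →ᵇ V :=
  BoundedContinuousFunction.ofNormedAddCommGroup (fun x => ph K α β h x • f (x + h))
    (((ph_smooth K α β).continuous.comp (Continuous.prodMk_right h)).smul
      (f.continuous.comp (continuous_add_const h))) ‖f‖ fun x => by
      rw [norm_smul, norm_ph, one_mul]
      exact f.norm_coe_le_norm _

omit [CompleteSpace V] in
lemma mt_apply (K : ℝ) (α β h : E3) (f : E3 →ᵇ V) (x : E3) :
    mt K α β h f x = ph K α β h x • f (x + h) := rfl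

omit [CompleteSpace V] in
lemma mt_smooth (K : ℝ) (α β : E3) {f : E3 →ᵇ V} (hf : ContDiff ℝ ∞ f)
    (hc : HasCompactSupport f) : ContDiff ℝ ∞ fun h => mt K α β h f := by
  obtain ⟨R, -, hR⟩ := hc.exists_pos_le_norm
  refine fam (Φ := fun h x => ph K α β h x • f (x + h))
    ((ph_smooth K α β).smul (hf.comp (contDiff_snd.add contDiff_fst)))
    (fun ρ => ⟨R + ρ, fun h x h1 h2 => ?_⟩) fun _ _ => rfl
  rw [hR _ (by linarith [norm_sub_le (x + h) h, add_sub_cancel_right x h ▸ h2]), smul_zero]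

omit [CompleteSpace V] in
lemma tw_d {W : Type} [NormedAddCommGroup W] [NormedSpace ℝ W] {e : W → ℂ} {e' : W →L[ℝ] ℂ}
    {g : W → V} {g' : W →L[ℝ] V} {x : W} (he : HasFDerivAt e e' x) (hg : HasFDerivAt g g' x)
    (v : W) : fderiv ℝ (fun y => Complex.exp (e y) • g y) x v =
      Complex.exp (e x) • (e' v • g x + g' v) := by
  rw [(he.cexp.fun_smul hg).fderiv]
  simp [smul_smul, add_comm]

omit [CompleteSpace V] in
lemma tw_alg {k P w e a b c a' b' : ℂ} {F D E : V} (h : k * P = w * e)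
    (h' : a' + Complex.I * b' = -(a + Complex.I * b + c)) :
    -(k • (P • (a • F + D) + Complex.I • P • (b • F + E) + c • P • F)) =
      w • (e • (a' • F + -D) + Complex.I • e • (b' • F + -E)) := by
  match_scalars
  · linear_combination -(a + Complex.I * b + c) * h - w * e * h'
  · linear_combination -h
  · linear_combination -Complex.I * h

/-- Dominated convergence as `K → ∞` gives the small norm; continuity of `S f` by dominated
convergence. -/
theorem exists_S {δ : ℝ} (hδ : 0 < δ) : ∃ K : ℝ, 0 < K ∧ ∀ α β : E3,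
    ∃ S : (E3 →ᵇ V) →L[ℂ] (E3 →ᵇ V), ‖S‖ ≤ δ ∧ ∀ f x,
      S f x = (2 * π : ℂ)⁻¹ • ∫ u : ℂ, ker K α β x u • f (x - io α β u) := by
  refine ⟨2 * π / δ ^ 2, by positivity, fun α β => ?_⟩
  obtain ⟨h1, h2⟩ := tw_int (K := 2 * π / δ ^ 2) (by positivity)
  rw [show π / (2 * π / δ ^ 2 / 2) = δ ^ 2 by field_simp, Real.sqrt_sq hδ.le] at h2
  generalize 2 * π / δ ^ 2 = K at h1 h2
  have hm : ∀ (f : E3 →ᵇ V) (x : E3),
      AEStronglyMeasurable (fun u => ker K α β x u • f (x - io α β u)) volume := fun f x =>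
    (Measurable.aestronglyMeasurable (by unfold ker; fun_prop)).smul
      (f.continuous.comp (continuous_const.sub (io_cont α β))).aestronglyMeasurable
  have hb : ∀ (f : E3 →ᵇ V) (x : E3), ∀ᵐ u : ℂ, ‖ker K α β x u • f (x - io α β u)‖ ≤
      ‖u‖⁻¹ * Real.exp (-(K / 2) * ‖u‖ ^ 2) * ‖f‖ := fun f x => .of_forall fun u => by
    rw [norm_smul, norm_ker]
    exact mul_le_mul_of_nonneg_left (f.norm_coe_le_norm _) (by positivity)
  have hi := fun (f : E3 →ᵇ V) (x : E3) => (h1.mul_const _).mono' (hm f x) (hb f x)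
  have hc : ∀ f : E3 →ᵇ V,
      Continuous fun x => (2 * π : ℂ)⁻¹ • ∫ u : ℂ, ker K α β x u • f (x - io α β u) := fun f => by
    refine Continuous.const_smul (continuous_of_dominated (hm f) (hb f) (h1.mul_const _)
      (.of_forall fun u => Continuous.smul ?_ (by fun_prop))) _
    have := (zc_smooth α β).continuous
    unfold ker
    fun_prop
  have hn : ∀ (f : E3 →ᵇ V) (x : E3),
      ‖(2 * π : ℂ)⁻¹ • ∫ u : ℂ, ker K α β x u • f (x - io α β u)‖ ≤ δ * ‖f‖ := fun f x => by
    have h3 := norm_integral_le_of_norm_le (h1.mul_const _) (hb f x)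
    rw [integral_mul_const, h2] at h3
    rw [norm_smul, norm_inv, inv_mul_le_iff₀ (by simp), norm_mul, Complex.norm_real,
      Real.norm_of_nonneg Real.pi_pos.le, Complex.norm_two]
    have : 0 ≤ π * δ * ‖f‖ := by positivity
    linarith
  refine ⟨LinearMap.mkContinuous
    { toFun := fun f => BoundedContinuousFunction.ofNormedAddCommGroup _ (hc f) _ (hn f)
      map_add' := fun f g => BoundedContinuousFunction.ext fun x => ?_
      map_smul' := fun c f => BoundedContinuousFunction.ext fun x => ?_ } δ fun f =>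
      BoundedContinuousFunction.norm_ofNormedAddCommGroup_le _ (by positivity) (hn f),
    LinearMap.mkContinuous_norm_le _ hδ.le _, fun f x => rfl⟩
  · simp [smul_add, integral_add (hi f x) (hi g x)]
  · simp [smul_comm _ c, integral_smul]

section

variable {K : ℝ} {α β : E3} (hα : ‖α‖ = 1) (hβ : ‖β‖ = 1) (hαβ : ⟪α, β⟫ = 0)
  {S : (E3 →ᵇ V) →L[ℂ] (E3 →ᵇ V)}
  (hS : ∀ f x, S f x = (2 * π : ℂ)⁻¹ • ∫ u : ℂ, ker K α β x u • f (x - io α β u))

include hα hβ hαβ hS

/-- `S` commutes with magnetic translations (pointwise identity of the integrands,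
`zc (x - io u) = zc x - u`). -/
theorem S_comm (h : E3) (f g : E3 →ᵇ V) (e : ∀ x, g x = ph K α β h x • f (x + h)) (x : E3) :
    S g x = ph K α β h x • S f (x + h) := by
  rw [hS, hS, smul_comm, ← integral_smul (ph K α β h x)]
  refine congrArg _ (integral_congr_ae (.of_forall fun u => ?_))
  beta_reduce
  rw [e, smul_smul, smul_smul, ker_ph K α β h x (by rw [zc_sub, zc_io hα hβ hαβ]),
    sub_add_eq_add_sub]

/-- With `F h = (x ↦ ph h x • f (x + h))`, smooth in `h` by `fam`,
`S f (x + h) = (ph h x)⁻¹ • S (F h) x`. Differentiate at `h = 0`: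
`D (S f) x = K z(x) S f x + S (D f - K z f) x`, and `pomp` for
`u ↦ exp (..) • f (x - io u)` gives `S (D f - K z f) x = f x - 2 K z(x) S f x`. -/
theorem S_inv (hK : 0 < K) (f : E3 →ᵇ V) (hf : ContDiff ℝ ∞ f) (hc : HasCompactSupport f) :
    ContDiff ℝ ∞ (S f) ∧ ∀ x, fderiv ℝ (S f) x α + Complex.I • fderiv ℝ (S f) x β +
      (K * zc α β x) • S f x = f x := by
  have hF := mt_smooth K α β hf hc
  have hf1 := hf.differentiable (by simp)
  have e1 : ⇑(S f) = fun h => ((BoundedContinuousFunction.evalCLM ℝ (0 : E3)).comp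
      (S.restrictScalars ℝ)) (mt K α β h f) := funext fun h => by
    have := S_comm hα hβ hαβ hS h f _ (mt_apply K α β h f) 0
    rw [ph_zero, one_smul, zero_add] at this
    exact this.symm
  refine ⟨e1 ▸ (ContinuousLinearMap.contDiff _).comp hF, fun x => ?_⟩
  have hd := (hF.differentiable (by simp) x).hasFDerivAt
  have e2 : ∀ v, fderiv ℝ (S f) x v = S (fderiv ℝ (fun h => mt K α β h f) x v) 0 := fun v => by
    rw [e1]
    exact congrArg (fun L : E3 →L[ℝ] V => L v)
      ((ContinuousLinearMap.hasFDerivAt _).comp x hd).fderiv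
  have e3 : ∀ y v, fderiv ℝ (fun h => mt K α β h f) x v y = ph K α β x y •
      ((-Complex.I * (K * (zc α β y * conj (zc α β v)).im : ℝ)) • f (y + x) +
        fderiv ℝ f (y + x) v) := fun y v => by
    have h1 := ((BoundedContinuousFunction.evalCLM ℝ y).hasFDerivAt.comp x hd).fderiv
    have h2 := tw_d (x := x) ((-Complex.I) • Complex.ofRealCLM.comp (K • Complex.imCLM.comp
      (zc α β y • (Complex.conjCLE.toContinuousLinearMap.comp (zL α β))))).hasFDerivAt
      ((hf1 (y + x)).hasFDerivAt.comp x ((hasFDerivAt_id x).const_add y)) v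
    exact (congrArg (fun L => L v) h1).symm.trans h2
  have ha := zc_io hα hβ hαβ 1
  have hb := zc_io hα hβ hαβ Complex.I
  simp only [io, Complex.one_re, Complex.one_im, Complex.I_re, Complex.I_im, one_smul, zero_smul,
    add_zero, zero_add] at ha hb
  have hE : ContDiff ℝ 1 fun u : ℂ => (-(K * ‖u‖ ^ 2 / 2 : ℝ) +
      Complex.I * (K * (u * conj (zc α β x)).im : ℝ) : ℂ) :=
    (Complex.ofRealCLM.contDiff.comp
      ((contDiff_const.mul (contDiff_norm_sq ℝ)).div_const 2)).neg.add (contDiff_const.mul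
      (Complex.ofRealCLM.contDiff.comp (contDiff_const.mul
        (Complex.imCLM.contDiff.comp (contDiff_id.mul contDiff_const)))))
  have hp := pomp (H := fun u : ℂ => Complex.exp (-(K * ‖u‖ ^ 2 / 2 : ℝ) +
      Complex.I * (K * (u * conj (zc α β x)).im : ℝ)) • f (x - io α β u))
    (((Complex.contDiff_exp (𝕜 := ℝ)).comp hE).smul
      ((hf.of_le (by simp)).comp (contDiff_const.sub (iL α β).contDiff)))
    (HasCompactSupport.of_support_subset_isCompact
      (hc.isCompact.image (continuous_const.sub (zc_smooth α β).continuous : Continuous fun y =>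
        zc α β x - zc α β y)) fun u hu =>
      ⟨_, subset_tsupport _ (right_ne_zero_of_smul hu), by simp [zc_sub, zc_io hα hβ hαβ]⟩)
  have e4 := hS (fderiv ℝ (fun h => mt K α β h f) x α +
    Complex.I • fderiv ℝ (fun h => mt K α β h f) x β + (K * zc α β x) • mt K α β x f) 0
  rw [map_add, map_add, map_smul, map_smul] at e4
  rw [e2, e2, congrFun e1 x]
  refine e4.trans ?_
  rw [inv_smul_eq_iff₀ (by simp), ← neg_inj, ← integral_neg, ← neg_smul]
  refine Eq.trans (integral_congr_ae (.of_forall fun u => ?_)) (hp.trans (by simp [io]))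
  have h1 := (Complex.ofRealCLM.hasFDerivAt.comp u
    (((hasStrictFDerivAt_norm_sq u).hasFDerivAt.const_mul K).mul_const 2⁻¹)).neg.add
    (Complex.I • Complex.ofRealCLM.comp (K • Complex.imCLM.comp
      ((ContinuousLinearMap.mul ℝ ℂ).flip (conj (zc α β x))))).hasFDerivAt
  have h2 : ∀ v, fderiv ℝ (fun u : ℂ => Complex.exp (-(K * ‖u‖ ^ 2 / 2 : ℝ) +
      Complex.I * (K * (u * conj (zc α β x)).im : ℝ)) • f (x - io α β u)) u v =
      Complex.exp (-(K * ‖u‖ ^ 2 / 2 : ℝ) + Complex.I * (K * (u * conj (zc α β x)).im : ℝ)) •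
        ((-(2⁻¹ * (K * (2 • ⟪u, v⟫)) : ℝ) + Complex.I * (K * (v * conj (zc α β x)).im : ℝ)) •
          f (x - io α β u) + fderiv ℝ f (x - io α β u) (-io α β v)) :=
    tw_d h1 ((hf1 (x - io α β u)).hasFDerivAt.comp u
    ((iL α β).hasFDerivAt.const_sub x))
  have h3 := ker_ph K α β x 0 (y := 0 - io α β u) (u := u) (by rw [zc_sub, zc_io hα hβ hαβ])
  rw [ph_zero, one_mul, zero_add] at h3
  have h4 : zc α β (0 - io α β u) = -u := by rw [zc_sub, zc_io hα hβ hαβ, zc_zero, zero_sub]
  simp only [h2, BoundedContinuousFunction.add_apply, BoundedContinuousFunction.smul_apply, e3,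
    mt_apply, h4, ha, hb, map_neg, show 0 - io α β u + x = x - io α β u by abel,
    show io α β 1 = α by simp [io], show io α β Complex.I = β by simp [io]]
  refine tw_alg h3 ?_
  apply Complex.ext <;> simp <;> ring

end

end Vale.Agent.P136
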