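import Vale.Agent.P136.TwA

/-!
# Solving Cauchy-Riemann systems along planes
-/

open MeasureTheory Set Metric
open scoped ContDiff BoundedContinuousFunction Real RealInnerProductSpace ComplexConjugate

noncomputable section

namespace Vale.Agent.P136

variable {V : Type} [NormedAddCommGroup V] [NormedSpace ℂ V] [CompleteSpace V]

omit [CompleteSpace V] in
lemma tb_bd (A : E3 →ᵇ (V →L[ℂ] V)) (g : E3 →ᵇ V) (x : E3) : ‖A x (g x)‖ ≤ 1 * ‖A‖ * ‖g‖ :=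
  (one_mul ‖A‖).symm ▸ (A x).le_of_opNorm_le_of_le (A.norm_coe_le_norm x) (g.norm_coe_le_norm x)

omit [CompleteSpace V] in
/-- The multiplication operator. -/
def mulL : (E3 →ᵇ (V →L[ℂ] V)) →L[ℝ] (E3 →ᵇ V) →L[ℝ] (E3 →ᵇ V) :=
  LinearMap.mkContinuous₂ (LinearMap.mk₂ ℝ (fun (A : E3 →ᵇ (V →L[ℂ] V)) (g : E3 →ᵇ V) =>
    BoundedContinuousFunction.ofNormedAddCommGroup
    (fun x => A x (g x)) (A.continuous.clm_apply g.continuous) _ (tb_bd A g))
    (fun _ _ _ => BoundedContinuousFunction.ext fun x => by simp)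
    (fun _ _ _ => BoundedContinuousFunction.ext fun x => by simp)
    (fun _ _ _ => BoundedContinuousFunction.ext fun x => by simp)
    (fun _ _ _ => BoundedContinuousFunction.ext fun x => by simp)) 1 fun A g =>
    BoundedContinuousFunction.norm_ofNormedAddCommGroup_le _ (by positivity) (tb_bd A g)

omit [CompleteSpace V] in
lemma mulL_apply (A : E3 →ᵇ (V →L[ℂ] V)) (g : E3 →ᵇ V) (x : E3) : mulL A g x = A x (g x) := rfl

lemma tb_supp {W : Type} [Zero W] [TopologicalSpace W] {ρ : ℝ} {f : E3 → W}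
    (h : ∀ x, ρ ≤ ‖x‖ → f x = 0) : HasCompactSupport f :=
  HasCompactSupport.intro (isCompact_closedBall 0 ρ) fun x hx =>
    h x (le_of_not_ge (by simpa using hx))

/-- The fixed point and its smoothness. -/
lemma tb_fix {K : ℝ} {α β : E3} (hα : ‖α‖ = 1) (hβ : ‖β‖ = 1) (hαβ : ⟪α, β⟫ = 0)
    {S : (E3 →ᵇ V) →L[ℂ] (E3 →ᵇ V)}
    (hS : ∀ f x, S f x = (2 * π : ℂ)⁻¹ • ∫ u : ℂ, ker K α β x u • f (x - io α β u))
    (A : E3 →ᵇ (V →L[ℂ] V)) (φ : E3 →ᵇ V) (hA : ContDiff ℝ ∞ A) (hφ : ContDiff ℝ ∞ φ)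
    (cA : HasCompactSupport A) (cφ : HasCompactSupport φ) (hn : ‖A‖ * ‖S‖ ≤ 1 / 2) :
    ∃ f : E3 →ᵇ V, ContDiff ℝ ∞ f ∧ ‖f‖ ≤ 2 * ‖φ‖ ∧ ∀ x, f x = A x (S f x) + φ x := by
  have h0 : ContDiff ℝ ∞ fun h => mulL (mt 0 α β h A) :=
    ContDiff.clm_apply contDiff_const (mt_smooth 0 α β hA cA)
  obtain ⟨T, hT, hs⟩ : ∃ T : E3 → (E3 →ᵇ V) →L[ℝ] (E3 →ᵇ V),
      (∀ h g x, T h g x = A (x + h) (S g x)) ∧ ContDiff ℝ ∞ T :=
    ⟨fun h => (mulL (mt 0 α β h A)).comp (S.restrictScalars ℝ),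
      fun h g x => by simp [mulL_apply, mt_apply, ph],
      h0.clm_comp contDiff_const⟩
  have hb : ∀ h, ‖T h‖ ≤ 1 / 2 := fun h => (T h).opNorm_le_bound (by norm_num) fun g =>
    (BoundedContinuousFunction.norm_le (by positivity)).2 fun x => by
      rw [hT]
      refine ((A _).le_of_opNorm_le_of_le (A.norm_coe_le_norm _)
        (((S g).norm_coe_le_norm x).trans (S.le_opNorm g))).trans ?_
      rw [← mul_assoc]
      exact mul_le_mul_of_nonneg_right hn (norm_nonneg _)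
  have hu : ∀ h, IsUnit (1 - T h) := fun h =>
    isUnit_one_sub_of_norm_lt_one ((hb h).trans_lt (by norm_num))
  obtain ⟨f, hf⟩ : ∃ f, f - T 0 f = φ :=
    ⟨Ring.inverse (1 - T 0) φ, congrArg (fun L => L φ) (Ring.mul_inverse_cancel _ (hu 0))⟩
  have e : ∀ x, f x = A x (S f x) + φ x := fun x => by simp [← hf, hT]
  refine ⟨f, ?_, ?_, e⟩
  · have h1 : ∀ h, mt K α β h f = Ring.inverse (1 - T h) (mt K α β h φ) := fun h => by
      have h2 : (1 - T h) (mt K α β h f) = mt K α β h φ := BoundedContinuousFunction.ext fun x => by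
        simp [hT, S_comm hα hβ hαβ hS h f _ (mt_apply K α β h f), mt_apply, e (x + h)]
      rw [← h2]
      exact (congrArg (fun L => L (mt K α β h f)) (Ring.inverse_mul_cancel _ (hu h))).symm
    have h3 : ⇑f = fun h => BoundedContinuousFunction.evalCLM ℝ (0 : E3)
        (Ring.inverse (1 - T h) (mt K α β h φ)) := funext fun h => by
      simp [← h1, mt_apply, ph_zero]
    rw [h3]
    refine (ContinuousLinearMap.contDiff _).comp (ContDiff.clm_apply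
      (contDiff_iff_contDiffAt.2 fun h => ?_) (mt_smooth K α β hφ cφ))
    exact ContDiffAt.comp (g := Ring.inverse) h (contDiffAt_ringInverse ℝ (hu h).unit)
      (contDiff_const.sub hs).contDiffAt
  · have h1 := ((T 0).le_opNorm f).trans (mul_le_mul_of_nonneg_right (hb 0) (norm_nonneg _))
    have h2 := norm_sub_norm_le f (T 0 f)
    rw [hf] at h2
    linarith

/-- Centre at the origin. Take `δ = min (1 / (2 M + 2)) (ε / 2)`, `φ' = exp (-K |z| ^ 2 / 2) φ`,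
`T h g = A (. + h) (S g)` of norm at most `1 / 2`, `f = (1 - T 0)⁻¹ φ'`. The magnetic translate
of `f` equals `(1 - T h)⁻¹` of the magnetic translate of `φ'`, which is smooth in `h` (`fam`,
`contDiffAt_ringInverse`), so `f` is smooth; `ψ = exp (K |z| ^ 2 / 2) S f`. -/
theorem solver0 (M ε ρ : ℝ) (hε : 0 < ε) : ∃ C, 0 ≤ C ∧ ∀ α β : E3, ‖α‖ = 1 → ‖β‖ = 1 →
    ⟪α, β⟫ = 0 → ∀ (A : E3 → V →L[ℂ] V) (φ : E3 → V) (m : ℝ), ContDiff ℝ ∞ A → ContDiff ℝ ∞ φ →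
      (∀ x, ρ ≤ ‖x‖ → A x = 0) → (∀ x, ρ ≤ ‖x‖ → φ x = 0) → (∀ x, ‖A x‖ ≤ M) →
      (∀ x, ‖φ x‖ ≤ m) → ∃ ψ : E3 → V, ContDiff ℝ ∞ ψ ∧
        (∀ x, fderiv ℝ ψ x α + Complex.I • fderiv ℝ ψ x β = A x (ψ x) + φ x) ∧
        (∀ x, ‖x‖ ≤ ρ → ‖ψ x‖ ≤ C * m) ∧ ‖ψ 0‖ ≤ ε * m := by
  obtain ⟨K, hK, hS⟩ := exists_S (V := V) (δ := min (1 / (2 * |M| + 2)) (ε / 2)) (by positivity)
  refine ⟨Real.exp (K * (2 * ρ) ^ 2 / 2) * ε, by positivity,
    fun α β hα hβ hαβ A φ m hA hφ cA cφ bA bφ => ?_⟩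
  obtain ⟨S, nS, hS⟩ := hS α β
  have hm : 0 ≤ m := (norm_nonneg _).trans (bφ 0)
  have hE : ContDiff ℝ ∞ fun x => ((K * ‖zc α β x‖ ^ 2 / 2 : ℝ) : ℂ) :=
    Complex.ofRealCLM.contDiff.comp ((contDiff_const.mul ((zc_smooth α β).norm_sq ℝ)).div_const 2)
  have h1 := ((Complex.contDiff_exp (𝕜 := ℝ)).comp hE.neg).smul hφ
  have h2 : ∀ x, ‖Complex.exp (-(K * ‖zc α β x‖ ^ 2 / 2 : ℝ)) • φ x‖ ≤ m := fun x => by
    rw [norm_smul, Complex.norm_exp, Complex.neg_re, Complex.ofReal_re, ← one_mul m]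
    exact mul_le_mul (Real.exp_le_one_iff.2 (neg_nonpos.2 (by positivity))) (bφ x) (norm_nonneg _)
      zero_le_one
  obtain ⟨f, f1, f2, f3⟩ := tb_fix hα hβ hαβ hS
    (.ofNormedAddCommGroup A hA.continuous M bA) (.ofNormedAddCommGroup _ h1.continuous m h2) hA h1
    (tb_supp cA) (tb_supp (ρ := ρ) fun x hx => by simp [cφ x hx]) (by
      refine (mul_le_mul (BoundedContinuousFunction.norm_ofNormedAddCommGroup_le _ (abs_nonneg M)
        fun x => (bA x).trans (le_abs_self M)) (nS.trans (min_le_left _ _)) (norm_nonneg _)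
        (abs_nonneg M)).trans ?_
      rw [mul_one_div, div_le_iff₀ (by positivity)]
      linarith)
  simp only [BoundedContinuousFunction.coe_ofNormedAddCommGroup] at f3
  obtain ⟨s1, s2⟩ := S_inv hα hβ hαβ hS hK f f1
    (tb_supp (ρ := ρ) fun x hx => by simp [f3 x, cA x hx, cφ x hx])
  have h3 : ∀ x, ‖S f x‖ ≤ ε * m := fun x => by
    have h4 := f2.trans (mul_le_mul_of_nonneg_left
      (BoundedContinuousFunction.norm_ofNormedAddCommGroup_le _ hm h2) zero_le_two)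
    refine (((S f).norm_coe_le_norm x).trans (S.le_of_opNorm_le_of_le
      (nS.trans (min_le_right _ _)) h4)).trans_eq (by ring)
  refine ⟨fun x => Complex.exp (K * ‖zc α β x‖ ^ 2 / 2 : ℝ) • S f x,
    ((Complex.contDiff_exp (𝕜 := ℝ)).comp hE).smul s1, fun x => ?_, fun x hx => ?_, ?_⟩
  · have ha := zc_io hα hβ hαβ 1
    have hb := zc_io hα hβ hαβ Complex.I
    simp only [io, Complex.one_re, Complex.one_im, Complex.I_re, Complex.I_im, one_smul, zero_smul,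
      add_zero, zero_add] at ha hb
    have h4 : ∀ v, fderiv ℝ (fun x => Complex.exp (K * ‖zc α β x‖ ^ 2 / 2 : ℝ) • S f x) x v =
        Complex.exp (K * ‖zc α β x‖ ^ 2 / 2 : ℝ) •
          (((2⁻¹ * (K * (2 • ⟪zc α β x, zc α β v⟫)) : ℝ) : ℂ) • S f x + fderiv ℝ (S f) x v) :=
      tw_d (Complex.ofRealCLM.hasFDerivAt.comp x
        (((zL α β).hasFDerivAt.norm_sq.const_mul K).mul_const 2⁻¹))
        (s1.differentiable (by simp) x).hasFDerivAt
    have h5 : ((2⁻¹ * (K * (2 • ⟪zc α β x, 1⟫)) : ℝ) : ℂ) +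
        Complex.I * ((2⁻¹ * (K * (2 • ⟪zc α β x, Complex.I⟫)) : ℝ) : ℂ) = K * zc α β x := by
      apply Complex.ext <;> simp <;> ring
    have h6 := congrArg (Complex.exp (K * ‖zc α β x‖ ^ 2 / 2 : ℝ) • ·) ((s2 x).trans (f3 x))
    simp only [Pi.smul_apply', Function.comp_apply, smul_add, smul_smul, ← Complex.exp_add,
      add_neg_cancel, Complex.exp_zero, one_smul] at h6
    rw [h4, h4, ha, hb, map_smul, ← h6, ← h5]
    module
  · have h4 : ‖zc α β x‖ ≤ 2 * ρ := by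
      have h5 := abs_real_inner_le_norm α x
      have h6 := abs_real_inner_le_norm β x
      refine (norm_add_le _ _).trans ?_
      rw [norm_mul, Complex.norm_I, Complex.norm_real, Complex.norm_real, Real.norm_eq_abs,
        Real.norm_eq_abs]
      rw [hα] at h5
      rw [hβ] at h6
      linarith
    rw [norm_smul, Complex.norm_exp, Complex.ofReal_re, mul_assoc]
    gcongr
    exact h3 x
  · simpa [zc_zero] using h3 0

/-- Translate to the origin and use `solver0` with radius `2 ρ`. -/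
theorem solver (M ε ρ : ℝ) (hε : 0 < ε) : ∃ C, 0 ≤ C ∧ ∀ α β : E3, ‖α‖ = 1 → ‖β‖ = 1 →
    ⟪α, β⟫ = 0 → ∀ (A : E3 → V →L[ℂ] V) (φ : E3 → V) (m : ℝ) (x₀ : E3), ‖x₀‖ ≤ ρ →
      ContDiff ℝ ∞ A → ContDiff ℝ ∞ φ →
      (∀ x, ρ ≤ ‖x‖ → A x = 0) → (∀ x, ρ ≤ ‖x‖ → φ x = 0) → (∀ x, ‖A x‖ ≤ M) →
      (∀ x, ‖φ x‖ ≤ m) → ∃ ψ : E3 → V, ContDiff ℝ ∞ ψ ∧
        (∀ x, fderiv ℝ ψ x α + Complex.I • fderiv ℝ ψ x β = A x (ψ x) + φ x) ∧
        (∀ x, ‖x‖ ≤ ρ → ‖ψ x‖ ≤ C * m) ∧ ‖ψ x₀‖ ≤ ε * m := by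
  obtain ⟨C, hC, h⟩ := solver0 (V := V) M ε (2 * ρ) hε
  refine ⟨C, hC, fun α β hα hβ hαβ A φ m x₀ h0 hA hφ cA cφ bA bφ => ?_⟩
  have h1 : ∀ x : E3, 2 * ρ ≤ ‖x‖ → ρ ≤ ‖x + x₀‖ := fun x hx => by
    linarith [norm_sub_le (x + x₀) x₀, add_sub_cancel_right x x₀ ▸ hx]
  obtain ⟨ψ, p1, p2, p3, p4⟩ := h α β hα hβ hαβ (fun x => A (x + x₀)) (fun x => φ (x + x₀)) m
    (hA.comp (contDiff_id.add contDiff_const)) (hφ.comp (contDiff_id.add contDiff_const))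
    (fun x hx => cA _ (h1 x hx)) (fun x hx => cφ _ (h1 x hx)) (fun _ => bA _) fun _ => bφ _
  refine ⟨fun x => ψ (x - x₀), p1.comp (contDiff_id.sub contDiff_const), fun x => ?_,
    fun x hx => p3 _ (by linarith [norm_sub_le x x₀]), by simpa using p4⟩
  rw [fderiv_comp_sub, p2, sub_add_cancel]

end Vale.Agent.P136
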